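import Vale.Agent.P240.R2.H744.Wig0
import Vale.Agent.P240.R2.H281.H90b

/-!
Orthogonal Wigner (P240, R6): arithmetic of sums of squares in a finite field.
-/

set_option autoImplicit false

namespace Vale.Agent.P240.R2.H472

open Matrix

universe u

section arith

variable {K : Type u} [Field K] [Fintype K]

/-- a nonzero polynomial of small degree has a nonroot -/
lemma exists_nonroot (p : Polynomial K) (hp : p ≠ 0) (hd : p.natDegree < Fintype.card K) :
    ∃ r : K, p.eval r ≠ 0 := by
  apply p.exists_eval_ne_zero_of_natDegree_lt_card hp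
  rw [Cardinal.mk_fintype]
  exact_mod_cast hd

/-- every element is a sum of two squares -/
lemma two_sq (h2 : (2 : K) ≠ 0) (s : K) : ∃ a b : K, a * a + b * b = s := by
  by_cases hs : s = 0
  · exact ⟨0, 0, by rw [hs]; ring⟩
  · obtain ⟨a, b, h⟩ := H281.rep_one h2 (inv_ne_zero hs) (inv_ne_zero hs)
    refine ⟨a, b, ?_⟩
    field_simp at h
    linear_combination h

/-- `w t ^ 2 + e ^ 2 = 1` has a solution with `t ≠ 0` -/
lemma exists_scale (h2 : (2 : K) ≠ 0) (h4 : 3 < Fintype.card K) (w : K) :
    ∃ t e : K, t ≠ 0 ∧ t * t * w + e * e = 1 := by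
  obtain ⟨m, hm⟩ := exists_nonroot (Polynomial.X ^ 3 + Polynomial.C w * Polynomial.X : Polynomial K)
    (by
      intro h
      have := congrArg (fun p => Polynomial.coeff p 3) h
      simp at this)
    (by
      refine lt_of_le_of_lt ?_ h4
      compute_degree)
  simp only [Polynomial.eval_add, Polynomial.eval_pow, Polynomial.eval_X, Polynomial.eval_mul,
    Polynomial.eval_C] at hm
  have hm0 : m ≠ 0 := by
    rintro rfl
    apply hm
    ring
  have hm1 : m * m + w ≠ 0 := by
    intro h
    apply hm
    linear_combination m * h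
  refine ⟨2 * m / (m * m + w), (w - m * m) / (m * m + w),
    div_ne_zero (mul_ne_zero h2 hm0) hm1, ?_⟩
  rw [div_mul_div_comm, div_mul_div_comm, div_mul_eq_mul_div, ← add_div,
    div_eq_one_iff_eq (mul_ne_zero hm1 hm1)]
  ring

/-- a point of the unit circle without zero coordinate -/
lemma exists_pt (h2 : (2 : K) ≠ 0) (h7 : 5 < Fintype.card K) :
    ∃ a b : K, a ≠ 0 ∧ b ≠ 0 ∧ a * a + b * b = 1 := by
  obtain ⟨m, hm⟩ := exists_nonroot (Polynomial.X ^ 5 - Polynomial.X : Polynomial K)
    (by
      intro h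
      have := congrArg (fun p => Polynomial.coeff p 5) h
      simp [Polynomial.coeff_X] at this)
    (by
      refine lt_of_le_of_lt ?_ h7
      compute_degree)
  simp only [Polynomial.eval_sub, Polynomial.eval_pow, Polynomial.eval_X] at hm
  have hm0 : m ≠ 0 := by
    rintro rfl
    apply hm
    ring
  have hm1 : 1 - m * m ≠ 0 := by
    intro h
    apply hm
    linear_combination (-m * (1 + m * m)) * h
  have hm2 : 1 + m * m ≠ 0 := by
    intro h
    apply hm
    linear_combination (-m * (1 - m * m)) * h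
  refine ⟨(1 - m * m) / (1 + m * m), 2 * m / (1 + m * m), div_ne_zero hm1 hm2,
    div_ne_zero (mul_ne_zero h2 hm0) hm2, ?_⟩
  rw [div_mul_div_comm, div_mul_div_comm, ← add_div, div_eq_one_iff_eq (mul_ne_zero hm2 hm2)]
  ring

/-- a unit vector without zero coordinate -/
lemma exists_full (h2 : (2 : K) ≠ 0) (h7 : 5 < Fintype.card K) :
    ∀ n : ℕ, ∃ u : Fin (n + 1) → K, (∀ i, u i ≠ 0) ∧ u ⬝ᵥ u = 1 := by
  intro n
  induction n with
  | zero => exact ⟨fun _ => 1, fun _ => one_ne_zero, by simp [dotProduct]⟩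
  | succ n ih =>
    obtain ⟨u, hu, hu1⟩ := ih
    obtain ⟨a, b, ha, hb, hab⟩ := exists_pt h2 h7
    refine ⟨vecCons a (b • u), ?_, ?_⟩
    · intro i
      refine Fin.cases ?_ (fun j => ?_) i
      · exact ha
      · simp only [cons_val_succ, Pi.smul_apply, smul_eq_mul]
        exact mul_ne_zero hb (hu j)
    · rw [cons_dotProduct_cons, smul_dotProduct, dotProduct_smul, hu1, smul_eq_mul, smul_eq_mul,
        mul_one]
      exact hab

end arith

end Vale.Agent.P240.R2.H472
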