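import Vale.Agent.P240.R2.H472.R4e
import Vale.Agent.P240.R2.H775.GX

/-!
Counting fixed frames, one of the two discriminants (P240, even orthogonal groups).
-/

set_option autoImplicit false
set_option linter.unusedSectionVars false

open scoped Classical

namespace Vale.Agent.P240.R2.H472

open Vale.Agent.P240.R2.AS
open Vale.Agent.P240.R2.H387 (Fs good_Fs_triv Fs_nonempty)

universe u

noncomputable section

variable {K : Type u} [Field K] [Fintype K] [StarRing K]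

/-- the general count: one of the two discriminants -/
theorem count_Fd {s : K ≃+* K} {q : ℕ} (hs : ∀ x : K, star x = x) (hodd : Odd q)
    (hK : Nat.card K = q ^ 2) (hsq : ∀ x : K, s x = x ^ q) {n : ℕ} (hn : 2 ≤ n) (i₀ : Fin n)
    {b : ℕ} {x : ℚ} (hb : 1 ≤ b) (hbq : b ≤ q - 1) (hx : 0 < x) (hc : 0 ≤ 1 - x - 1 / (b * x)) :
    ∃ D : Matrix (Fin n) (Fin n) K, (D = 1 ∨ D = rd i₀) ∧
      (1 - x - 1 / (b * x)) * x ^ (n - 1) * ((Fd s D).card : ℚ) < (t (Fd s D) : ℚ) := by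
  obtain ⟨k, hk⟩ := H775.X.gsX.{u} b n x hb hn hx hc
  have hgood := good_Fs_triv (s := s) hs hodd hK hsq k
  obtain ⟨g, h1, h2, h3⟩ := hk (Ln K k) (Fs s k) k le_rfl
    ⟨hgood.len, hgood.nodup, hgood.perm, hgood.rect,
      fun u x y hh => hbq.trans (hgood.pairs u x y hh)⟩
    (Fs_nonempty fun x => by rw [hs, hs])
  obtain ⟨D, hD, f, hf, hcl⟩ := cls_Fd hs hodd hK hsq i₀ h1 h2
  refine ⟨D, hD, ?_⟩
  rw [hcl, Finset.card_image_of_injective _ (List.map_injective_iff.2 hf), t_map hf] at h3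
  exact h3

/-- arithmetic -/
theorem arith_e (n : ℕ) (hn : 6 ≤ n) : (12 : ℚ) * (3 / 2) ^ (n - 1) ≤ n * 2 ^ (n - 2) := by
  obtain ⟨m, rfl⟩ : ∃ m, n = m + 6 := ⟨n - 6, by omega⟩
  rw [show m + 6 - 1 = m + 5 by omega, show m + 6 - 2 = m + 4 by omega]
  induction m with
  | zero => norm_num
  | succ m ih =>
    have h1 := ih (by omega)
    push_cast at h1 ⊢
    have e1 : (12 : ℚ) * (3 / 2) ^ (m + 1 + 5) = (12 * (3 / 2) ^ (m + 5)) * (3 / 2) := by ring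
    have e2 : ((m : ℚ) + 1 + 6) * 2 ^ (m + 1 + 4) = ((m : ℚ) + 6) * 2 ^ (m + 4) * 2 +
      2 * 2 ^ (m + 4) := by ring
    rw [e1, e2]
    have h2 : (0 : ℚ) ≤ ((m : ℚ) + 6) * 2 ^ (m + 4) := by positivity
    have h3 : (0 : ℚ) ≤ 2 * 2 ^ (m + 4) := by positivity
    nlinarith

/-- **numbers**: `q₀ ≥ 7`, `n ≥ 6` -/
theorem numbers_e {s : K ≃+* K} {q : ℕ} (hs : ∀ x : K, star x = x) (hodd : Odd q) (hq : 7 ≤ q)
    (hK : Nat.card K = q ^ 2) (hsq : ∀ x : K, s x = x ^ q) {n : ℕ} (hn : 6 ≤ n) (i₀ : Fin n) :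
    ∃ D : Matrix (Fin n) (Fin n) K, (D = 1 ∨ D = rd i₀) ∧
      (Fd s D).card < n * 2 ^ (n - 2) * t (Fd s D) := by
  obtain ⟨D, hD, h⟩ := count_Fd hs hodd hK hsq (by omega : 2 ≤ n) i₀ (b := 6) (x := 2 / 3)
    (by norm_num) (by omega) (by norm_num) (by norm_num)
  refine ⟨D, hD, ?_⟩
  have h1 := arith_e n hn
  have h2 : (1 - (2 : ℚ) / 3 - 1 / ((6 : ℕ) * (2 / 3))) = 1 / 12 := by norm_num
  rw [h2] at h
  have h3 : ((Fd s D).card : ℚ) < 12 * (3 / 2) ^ (n - 1) * (t (Fd s D) : ℚ) := by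
    have h4 : (0 : ℚ) < 12 * (3 / 2) ^ (n - 1) := by positivity
    have h5 := mul_lt_mul_of_pos_left h h4
    have h6 : 12 * (3 / 2 : ℚ) ^ (n - 1) * (1 / 12 * (2 / 3) ^ (n - 1) * ((Fd s D).card : ℚ)) =
        ((3 / 2 : ℚ) * (2 / 3)) ^ (n - 1) * ((Fd s D).card : ℚ) := by
      rw [mul_pow]
      ring
    rw [h6] at h5
    norm_num at h5
    exact h5
  have h4 : ((Fd s D).card : ℚ) < n * 2 ^ (n - 2) * (t (Fd s D) : ℚ) :=
    h3.trans_le (mul_le_mul_of_nonneg_right h1 (Nat.cast_nonneg _))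
  exact_mod_cast h4

end

end Vale.Agent.P240.R2.H472
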