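import Vale.Agent.P240.R2.H401.EDefs
import Vale.Agent.P240.R2.H472.R4f

/-! `StmtEN` (P240, even orthogonal groups, the numbers). -/

set_option autoImplicit false

namespace Vale.Agent.P240.R2.H472

open Matrix Vale.Agent.P240.R2.AS
open Vale.Agent.P240.R2.H401.E
open scoped Classical

universe u

theorem sla_eq {K : Type u} [Field K] [StarRing K] (m : ℕ) :
    (sla K m).1 = rd (Fin.last m) := by
  rw [sla_coe, rd]
  congr 1
  funext i
  by_cases hi : i = Fin.last m
  · rw [hi]; simp
  · simp [hi]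

theorem stmtEN : StmtEN.{u} := by
  intro K _ _ _ m hm q hq hq7 hK σ hσ
  obtain ⟨D, hD, h⟩ := numbers_e hm.st hq hq7 hK hσ (n := m + 1) (by have := hm.hm; omega)
    (Fin.last m)
  have h2 : m + 1 - 2 = m - 1 := by omega
  rw [h2] at h
  rcases hD with rfl | rfl
  · exact ⟨1, Or.inl rfl, h⟩
  · refine ⟨sla K m, Or.inr rfl, ?_⟩
    have h3 : Ftw (sla K m) σ = Fd σ (rd (Fin.last m)) := by
      rw [← sla_eq m]
      rfl
    rw [h3]
    exact h

end Vale.Agent.P240.R2.H472
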