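import Mathlib

/-! The norm `x ↦ star x * x` of a finite field with `q ^ 2` elements and `star x = x ^ q`. -/

namespace Vale.Agent.P240.R2.H472

variable {K : Type*} [Field K] [Fintype K] {q : ℕ}

/-- solutions of `x ^ (q+1) = c`, `c ^ q = c`, `c ≠ 0` exist -/
theorem exists_pow (hK : Fintype.card K = q ^ 2) {c : K} (h0 : c ≠ 0) (hc : c ^ q = c) :
    ∃ x : K, x ^ (q + 1) = c := by
  classical
  obtain ⟨g, hg⟩ := IsCyclic.exists_generator (α := Kˣ)
  obtain ⟨k, hk⟩ : ∃ k : ℕ, g ^ k = Units.mk0 c h0 := by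
    have := hg (Units.mk0 c h0)
    rw [← mem_powers_iff_mem_zpowers] at this
    exact this
  have hq1 : 1 < q := by
    by_contra hcon
    have : q ^ 2 ≤ 1 := by
      have : q ≤ 1 := by omega
      calc q ^ 2 ≤ 1 ^ 2 := Nat.pow_le_pow_left this 2
        _ = 1 := one_pow 2
    have h1 := Fintype.one_lt_card (α := K)
    omega
  have hord : orderOf g = q ^ 2 - 1 := by
    rw [orderOf_eq_card_of_forall_mem_zpowers hg, Nat.card_eq_fintype_card,
      Fintype.card_units, hK]
  have hc1 : (Units.mk0 c h0) ^ (q - 1) = 1 := by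
    ext
    rw [Units.val_pow_eq_pow_val, Units.val_mk0, Units.val_one]
    have : c ^ (q - 1) * c = 1 * c := by
      rw [← pow_succ, Nat.sub_add_cancel hq1.le, hc, one_mul]
    exact mul_right_cancel₀ h0 this
  have hdvd : q ^ 2 - 1 ∣ k * (q - 1) := by
    rw [← hord, orderOf_dvd_iff_pow_eq_one, pow_mul, hk, hc1]
  have hfac : q ^ 2 - 1 = (q + 1) * (q - 1) := by
    have := Nat.sq_sub_sq q 1
    rw [one_pow] at this
    exact this
  rw [hfac] at hdvd
  have hdvd2 : q + 1 ∣ k := Nat.dvd_of_mul_dvd_mul_right (by omega) hdvd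
  obtain ⟨j, rfl⟩ := hdvd2
  refine ⟨((g ^ j : Kˣ) : K), ?_⟩
  have := congrArg Units.val hk
  rw [Units.val_mk0, mul_comm, pow_mul, Units.val_pow_eq_pow_val] at this
  exact this

theorem one_lt (hK : Fintype.card K = q ^ 2) : 1 < q := by
  by_contra hcon
  have : q ^ 2 ≤ 1 := by
    have : q ≤ 1 := by omega
    calc q ^ 2 ≤ 1 ^ 2 := Nat.pow_le_pow_left this 2
      _ = 1 := one_pow 2
  have h1 := Fintype.one_lt_card (α := K)
  omega

/-- each value of `x ^ (q+1)` is taken at most `q+1` times -/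
theorem card_pow_le [DecidableEq K] (c : K) :
    (Finset.univ.filter (fun x : K => x ^ (q + 1) = c)).card ≤ q + 1 := by
  have hne : (Polynomial.X ^ (q + 1) - Polynomial.C c : Polynomial K) ≠ 0 :=
    Polynomial.X_pow_sub_C_ne_zero (Nat.succ_pos q) c
  have hsub : (Finset.univ.filter (fun x : K => x ^ (q + 1) = c)) ⊆
      (Polynomial.nthRoots (q + 1) c).toFinset := by
    intro x hx
    rw [Finset.mem_filter] at hx
    rw [Multiset.mem_toFinset, Polynomial.mem_nthRoots (Nat.succ_pos q)]
    exact hx.2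
  calc _ ≤ (Polynomial.nthRoots (q + 1) c).toFinset.card := Finset.card_le_card hsub
    _ ≤ Multiset.card (Polynomial.nthRoots (q + 1) c) := Multiset.toFinset_card_le _
    _ ≤ q + 1 := Polynomial.card_nthRoots _ _

/-- number of nonzero `c` with `c ^ q = c` is at most `q - 1` -/
theorem card_fix_le [DecidableEq K] (hK : Fintype.card K = q ^ 2) :
    (Finset.univ.filter (fun c : K => c ≠ 0 ∧ c ^ q = c)).card ≤ q - 1 := by
  have hq := one_lt hK
  have hsub : (Finset.univ.filter (fun c : K => c ≠ 0 ∧ c ^ q = c)) ⊆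
      (Polynomial.nthRoots (q - 1) (1 : K)).toFinset := by
    intro c hc
    rw [Finset.mem_filter] at hc
    rw [Multiset.mem_toFinset, Polynomial.mem_nthRoots (by omega)]
    have : c ^ (q - 1) * c = 1 * c := by
      rw [← pow_succ, Nat.sub_add_cancel hq.le, hc.2.2, one_mul]
    exact mul_right_cancel₀ hc.2.1 this
  calc _ ≤ (Polynomial.nthRoots (q - 1) (1 : K)).toFinset.card := Finset.card_le_card hsub
    _ ≤ Multiset.card (Polynomial.nthRoots (q - 1) (1 : K)) := Multiset.toFinset_card_le _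
    _ ≤ q - 1 := Polynomial.card_nthRoots _ _

/-- each nonzero fixed element is a norm exactly `q+1` times -/
theorem card_pow [DecidableEq K] (hK : Fintype.card K = q ^ 2) {c : K} (h0 : c ≠ 0)
    (hc : c ^ q = c) :
    (Finset.univ.filter (fun x : K => x ^ (q + 1) = c)).card = q + 1 := by
  have hq := one_lt hK
  set T := Finset.univ.filter (fun c : K => c ≠ 0 ∧ c ^ q = c) with hT
  have hcT : c ∈ T := by simp [hT, h0, hc]
  -- all nonzero x map into T
  have hmaps : ∀ x ∈ (Finset.univ.filter (fun x : K => x ≠ 0)), x ^ (q + 1) ∈ T := by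
    intro x hx
    rw [Finset.mem_filter] at hx
    simp only [hT, Finset.mem_filter, Finset.mem_univ, true_and]
    refine ⟨pow_ne_zero _ hx.2, ?_⟩
    have h1 : x ^ (q ^ 2) = x := by
      rw [← hK]; exact FiniteField.pow_card x
    calc (x ^ (q + 1)) ^ q = x ^ (q ^ 2) * x ^ q := by rw [← pow_mul, ← pow_add]; ring_nf
      _ = x * x ^ q := by rw [h1]
      _ = x ^ (q + 1) := by rw [pow_succ]; ring
  have hcard := Finset.card_eq_sum_card_fiberwise hmaps
  have htot : (Finset.univ.filter (fun x : K => x ≠ 0)).card = q ^ 2 - 1 := by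
    rw [Finset.filter_ne', Finset.card_erase_of_mem (Finset.mem_univ _), Finset.card_univ, hK]
  have hfib : ∀ b ∈ T, ((Finset.univ.filter (fun x : K => x ≠ 0)).filter
      (fun x => x ^ (q + 1) = b)).card ≤ q + 1 := by
    intro b _
    refine (Finset.card_le_card ?_).trans (card_pow_le (q := q) b)
    intro x hx
    simp only [Finset.mem_filter, Finset.mem_univ, true_and] at hx ⊢
    exact hx.2
  by_contra hne
  have hlt : (Finset.univ.filter (fun x : K => x ^ (q + 1) = c)).card < q + 1 :=
    lt_of_le_of_ne (card_pow_le c) hne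
  have hlt' : ((Finset.univ.filter (fun x : K => x ≠ 0)).filter
      (fun x => x ^ (q + 1) = c)).card < q + 1 := by
    refine (Finset.card_le_card ?_).trans_lt hlt
    intro x hx
    simp only [Finset.mem_filter, Finset.mem_univ, true_and] at hx ⊢
    exact hx.2
  have hsum : ∑ b ∈ T, ((Finset.univ.filter (fun x : K => x ≠ 0)).filter
      (fun x => x ^ (q + 1) = b)).card < ∑ b ∈ T, (q + 1) :=
    Finset.sum_lt_sum hfib ⟨c, hcT, hlt'⟩
  rw [Finset.sum_const, smul_eq_mul, ← hcard, htot] at hsum
  have h2 := Nat.mul_le_mul_right (q + 1) (card_fix_le (K := K) hK)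
  have hfac : q ^ 2 - 1 = (q + 1) * (q - 1) := by
    have := Nat.sq_sub_sq q 1
    rw [one_pow] at this
    exact this
  rw [hfac] at hsum
  have : T.card * (q + 1) ≤ (q - 1) * (q + 1) := h2
  have h3 : (q + 1) * (q - 1) = (q - 1) * (q + 1) := mul_comm _ _
  omega

section star

variable [StarRing K]

omit [Fintype K] in
theorem star_mul_self_pow (hs : ∀ x : K, star x = x ^ q) (x : K) : star x * x = x ^ (q + 1) := by
  rw [hs, pow_succ]

theorem exists_norm (hK : Fintype.card K = q ^ 2) (hs : ∀ x : K, star x = x ^ q) {c : K}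
    (h0 : c ≠ 0) (hc : star c = c) : ∃ x : K, star x * x = c := by
  obtain ⟨x, hx⟩ := exists_pow hK h0 (by rw [← hs]; exact hc)
  exact ⟨x, by rw [star_mul_self_pow hs, hx]⟩

theorem card_norm [DecidableEq K] (hK : Fintype.card K = q ^ 2) (hs : ∀ x : K, star x = x ^ q)
    {c : K} (h0 : c ≠ 0) (hc : star c = c) :
    (Finset.univ.filter (fun x : K => star x * x = c)).card = q + 1 := by
  rw [← card_pow hK h0 (by rw [← hs]; exact hc)]
  congr 1
  ext x
  simp only [Finset.mem_filter, Finset.mem_univ, true_and, star_mul_self_pow hs]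

theorem card_norm_one [DecidableEq K] (hK : Fintype.card K = q ^ 2)
    (hs : ∀ x : K, star x = x ^ q) :
    (Finset.univ.filter (fun x : K => star x * x = 1)).card = q + 1 :=
  card_norm hK hs one_ne_zero (star_one K)

end star

end Vale.Agent.P240.R2.H472
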