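import Vale.Agent.P240.R2.AS.Defs2
import Vale.Agent.P240.R2.H472.Nrm
import Vale.Agent.P180.R2.H589.Un.Au8

/-!
Every automorphism of `PSU_n(q)`, `n ≥ 3`, `q > 3` odd, is induced by an element of `PΓU_n(q)`:
transport of `Vale.Agent.P180.R2.H589.Un.exists_ssim_L` to unitary matrices.
-/

set_option autoImplicit false
set_option linter.unusedSectionVars false

namespace Vale.Agent.P240.R2.H472

open Matrix Subgroup Module
open Vale.Agent.P240.R2.AS
open Vale.Agent.P180.R2.H589.Un

noncomputable section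

variable {K : Type} [Field K] [Fintype K] [StarRing K] {n : ℕ}

/-- the form, linear in the first variable -/
def hh (K : Type) [Field K] [StarRing K] (n : ℕ) (x y : Fin n → K) : K := star y ⬝ᵥ x

/-- `star` as a field automorphism -/
def th (K : Type) [Field K] [StarRing K] : K ≃+* K := starRingAut

theorem th_apply (c : K) : th K c = star c := rfl

theorem th_iv {q : ℕ} (hq : 1 < q) (hK : Nat.card K = q ^ 2) (hs : ∀ x : K, star x = x ^ q) :
    Iv (th K) := by
  refine ⟨fun c => star_star c, ?_⟩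
  by_contra hcon
  push Not at hcon
  classical
  have h1 : ∀ c : K, c ^ q = c := fun c => by rw [← hs]; exact hcon c
  have hne : (Polynomial.X ^ q - Polynomial.X : Polynomial K) ≠ 0 :=
    FiniteField.X_pow_card_sub_X_ne_zero K hq
  have h2 : (Finset.univ : Finset K) ⊆ (Polynomial.X ^ q - Polynomial.X : Polynomial K).roots.toFinset := by
    intro c _
    rw [Multiset.mem_toFinset, Polynomial.mem_roots hne, Polynomial.IsRoot.def]
    simp [h1 c]
  have h3 := Finset.card_le_card h2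
  have h4 : (Polynomial.X ^ q - Polynomial.X : Polynomial K).roots.toFinset.card ≤ q := by
    refine (Multiset.toFinset_card_le _).trans ((Polynomial.card_roots' _).trans ?_)
    rw [FiniteField.X_pow_card_sub_X_natDegree_eq K hq]
  rw [Finset.card_univ, ← Nat.card_eq_fintype_card, hK] at h3
  have h5 : q < q ^ 2 := by
    rw [pow_two]
    exact Nat.lt_mul_self_iff.2 hq
  omega

theorem hh_hm : Hm (th K) (hh K n) where
  addl x y z := by simp [hh, dotProduct_add]
  sml c x y := by simp [hh, dotProduct_smul]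
  herm x y := by
    rw [th_apply]
    simp only [hh]
    rw [star_dotProduct]
  nd x hx := by
    funext i
    have := hx (Pi.single i 1)
    simp only [hh] at this
    simpa [Pi.star_single] using this

/-- the matrix of an isometry -/
def toGU : UG (hh K n) →* GU K n where
  toFun g := ⟨LinearMap.toMatrix' ((g : (Fin n → K) ≃ₗ[K] (Fin n → K)) : (Fin n → K) →ₗ[K] (Fin n → K)), by
    rw [Matrix.mem_unitaryGroup_iff']
    ext i j
    have h1 := g.2 (Pi.single j 1) (Pi.single i 1)
    simp only [hh] at h1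
    rw [Matrix.mul_apply, Matrix.one_apply]
    have h2 : ∑ k, (star (LinearMap.toMatrix' ((g : (Fin n → K) ≃ₗ[K] (Fin n → K)) :
        (Fin n → K) →ₗ[K] (Fin n → K)))) i k * (LinearMap.toMatrix'
        ((g : (Fin n → K) ≃ₗ[K] (Fin n → K)) : (Fin n → K) →ₗ[K] (Fin n → K))) k j =
        star ((g : (Fin n → K) ≃ₗ[K] (Fin n → K)) (Pi.single i 1)) ⬝ᵥ
          (g : (Fin n → K) ≃ₗ[K] (Fin n → K)) (Pi.single j 1) := by
      simp only [dotProduct, Matrix.star_apply, LinearMap.toMatrix'_apply, Pi.star_apply]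
      rfl
    rw [h2, h1]
    simp [Pi.star_single, dotProduct_single, Pi.single_apply, eq_comm]⟩
  map_one' := Subtype.ext (by
    simp only [Subgroup.coe_one]
    exact LinearMap.toMatrix'_one)
  map_mul' g g' := Subtype.ext (by
    simp only [Subgroup.coe_mul]
    exact LinearMap.toMatrix'_mul _ _)

theorem toGU_val (g : UG (hh K n)) : (toGU g).1 = LinearMap.toMatrix'
    ((g : (Fin n → K) ≃ₗ[K] (Fin n → K)) : (Fin n → K) →ₗ[K] (Fin n → K)) := rfl

theorem toGU_mulVec (g : UG (hh K n)) (v : Fin n → K) :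
    (toGU g).1 *ᵥ v = (g : (Fin n → K) ≃ₗ[K] (Fin n → K)) v := by
  rw [toGU_val, LinearMap.toMatrix'_mulVec]
  rfl

theorem toGU_inj : Function.Injective (toGU : UG (hh K n) → GU K n) := by
  intro g g' h
  apply Subtype.ext
  apply LinearEquiv.ext
  intro v
  rw [← toGU_mulVec, ← toGU_mulVec, h]

theorem exists_toGU (A : GU K n) : ∃ g : UG (hh K n), toGU g = A := by
  have h1 : A.1 * star A.1 = 1 := Matrix.mem_unitaryGroup_iff.1 A.2
  have h2 : star A.1 * A.1 = 1 := Matrix.mem_unitaryGroup_iff'.1 A.2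
  let g : (Fin n → K) ≃ₗ[K] (Fin n → K) := Matrix.toLin'OfInv h2 h1
  have hg : ∀ v, g v = A.1 *ᵥ v := fun v => by
    simp only [g]
    rfl
  have hgU : g ∈ UG (hh K n) := by
    intro x y
    rw [hg, hg]
    simp only [hh]
    have h3 : (A.1)ᴴ * A.1 = 1 := h2
    rw [star_mulVec, ← dotProduct_mulVec, mulVec_mulVec, h3, one_mulVec]
  refine ⟨⟨g, hgU⟩, Subtype.ext ?_⟩
  rw [toGU_val]
  ext i j
  rw [LinearMap.toMatrix'_apply]
  have := hg (Pi.single j 1)
  have h4 : g (Pi.single j 1) i = A.1 i j := by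
    rw [this, Matrix.mulVec_single_one]
    rfl
  exact h4

theorem det_toGU (g : UG (hh K n)) :
    (toGU g).1.det = ((LinearEquiv.det (g : (Fin n → K) ≃ₗ[K] (Fin n → K)) : Kˣ) : K) := by
  rw [toGU_val, LinearMap.det_toMatrix', LinearEquiv.coe_det]

theorem mem_SU {A : GU K n} : A ∈ SU K n ↔ A.1.det = 1 := Iff.rfl

theorem SUG_le : SUG (hh K n) ≤ UG (hh K n) := inf_le_left

/-- the unitary matrix of an isometry of determinant one -/
def toSU : SUG (hh K n) →* GU K n := toGU.comp (Subgroup.inclusion SUG_le)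

theorem toSU_mulVec (g : SUG (hh K n)) (v : Fin n → K) :
    (toSU g).1 *ᵥ v = (g : (Fin n → K) ≃ₗ[K] (Fin n → K)) v := toGU_mulVec _ v

theorem toSU_inj : Function.Injective (toSU : SUG (hh K n) → GU K n) :=
  toGU_inj.comp (Subgroup.inclusion_injective SUG_le)

theorem toSU_mem (g : SUG (hh K n)) : toSU g ∈ SU K n := by
  rw [mem_SU]
  have h1 : (toSU g).1.det = ((LinearEquiv.det (g : (Fin n → K) ≃ₗ[K] (Fin n → K)) : Kˣ) : K) :=
    det_toGU _
  rw [h1, (mem_SUG.1 g.2).2]
  rfl

/-- the map of `SUG` to `PSU` -/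
def toPSU : SUG (hh K n) →* PSU K n :=
  ((QuotientGroup.mk' (center (GU K n))).comp toSU).codRestrict (PSU K n)
    fun g => ⟨toSU g, toSU_mem g, rfl⟩

theorem toPSU_val (g : SUG (hh K n)) :
    ((toPSU g : PSU K n) : PGU K n) = QuotientGroup.mk (toSU g) := rfl

theorem exists_SUG (A : GU K n) (hA : A ∈ SU K n) : ∃ g : SUG (hh K n), toSU g = A := by
  obtain ⟨g, rfl⟩ := exists_toGU A
  refine ⟨⟨g.1, mem_SUG.2 ⟨g.2, ?_⟩⟩, rfl⟩
  apply Units.ext
  rw [← det_toGU]
  exact hA

theorem toPSU_surj : Function.Surjective (toPSU : SUG (hh K n) → PSU K n) := by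
  rintro ⟨_, A, hA, rfl⟩
  obtain ⟨g, hg⟩ := exists_SUG A hA
  refine ⟨g, Subtype.ext ?_⟩
  rw [toPSU_val, hg]
  rfl

theorem toPSU_ker : (toPSU : SUG (hh K n) →* PSU K n).ker ≤ center (SUG (hh K n)) := by
  intro g hg
  rw [MonoidHom.mem_ker] at hg
  have h1 : (QuotientGroup.mk (toSU g) : PGU K n) = 1 :=
    congrArg (Subtype.val : PSU K n → PGU K n) hg
  rw [QuotientGroup.eq_one_iff, mem_center_iff] at h1
  rw [mem_center_iff]
  intro y
  have h2 := h1 (toSU y)
  rw [← map_mul, ← map_mul] at h2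
  exact toSU_inj h2

/-- every semilinear similitude is a scalar multiple of a unitary matrix composed with a field
automorphism commuting with `star` -/
theorem ssim_unitary {q : ℕ} (hK : Nat.card K = q ^ 2) (hs : ∀ x : K, star x = x ^ q)
    (hn : 0 < n) {g : (Fin n → K) ≃+ (Fin n → K)} {σ : K ≃+* K} {κ : K}
    (hg : SSim (hh K n) g σ κ) :
    ∃ (M : GU K n) (τ : SA K) (c : K), c ≠ 0 ∧ τ.1 = σ ∧
      ∀ v, g v = c • (M.1 *ᵥ (fun i => σ (v i))) := by
  have : Nonempty (Fin n) := ⟨⟨0, hn⟩⟩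
  obtain ⟨i₀⟩ := ‹Nonempty (Fin n)›
  -- the form on basis vectors
  have hform : ∀ u v, hh K n (g u) (g v) = κ * σ (hh K n u v) := hg.form
  have hsing : ∀ i j : Fin n, hh K n (Pi.single i 1) (Pi.single j 1) = if i = j then 1 else 0 := by
    intro i j
    simp only [hh]
    rw [dotProduct_single]
    by_cases h : i = j
    · subst h; simp
    · simp [h]
  have hherm : ∀ x y, hh K n y x = star (hh K n x y) := fun x y => (hh_hm (K := K) (n := n)).herm x y
  have hκ : star κ = κ := by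
    have h1 := hform (Pi.single i₀ 1) (Pi.single i₀ 1)
    rw [hsing, if_pos rfl, map_one, mul_one] at h1
    rw [← h1, ← hherm]
  have hστ : ∀ c : K, σ (star c) = star (σ c) := by
    intro c
    have h1 := hform (c • Pi.single i₀ 1) (Pi.single i₀ 1)
    have h2 := hform (Pi.single i₀ 1) (c • Pi.single i₀ 1)
    rw [(hh_hm (K := K) (n := n)).sml, hsing, if_pos rfl, mul_one] at h1
    rw [hherm (c • Pi.single i₀ 1) (Pi.single i₀ 1), (hh_hm (K := K) (n := n)).sml, hsing,
      if_pos rfl, mul_one] at h2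
    rw [hherm (g (c • Pi.single i₀ 1)) (g (Pi.single i₀ 1)), h1, star_mul', hκ] at h2
    exact (mul_left_cancel₀ hg.ne h2).symm
  -- the matrix
  let M₀ : Matrix (Fin n) (Fin n) K := Matrix.of fun i j => g (Pi.single j 1) i
  have hM₀ : ∀ v, g v = M₀ *ᵥ (fun i => σ (v i)) := by
    intro v
    have h1 : v = ∑ j, v j • (Pi.single j 1 : Fin n → K) := by
      funext i
      simp [Finset.sum_apply, Pi.single_apply]
    conv_lhs => rw [h1]
    rw [map_sum]
    funext i
    rw [Finset.sum_apply]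
    simp only [hg.sl, Matrix.mulVec, dotProduct, M₀, Matrix.of_apply, Pi.smul_apply, smul_eq_mul]
    exact Finset.sum_congr rfl fun j _ => mul_comm _ _
  have hMM : M₀ᴴ * M₀ = κ • (1 : Matrix (Fin n) (Fin n) K) := by
    ext i j
    have h1 := hform (Pi.single j 1) (Pi.single i 1)
    rw [hsing] at h1
    have h2 : (M₀ᴴ * M₀) i j = hh K n (g (Pi.single j 1)) (g (Pi.single i 1)) := by
      simp only [Matrix.mul_apply, Matrix.conjTranspose_apply, M₀, Matrix.of_apply, hh,
        dotProduct, Pi.star_apply]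
    rw [h2, h1, Matrix.smul_apply, Matrix.one_apply, smul_eq_mul]
    by_cases h : i = j
    · subst h; simp
    · rw [if_neg h, if_neg (fun h' => h h'.symm)]; simp
  obtain ⟨x, hx⟩ := exists_norm (q := q) (by rw [← Nat.card_eq_fintype_card]; exact hK) hs
    (inv_ne_zero hg.ne) (by rw [star_inv₀, hκ] : star κ⁻¹ = κ⁻¹)
  have hx0 : x ≠ 0 := by
    rintro rfl
    rw [mul_zero] at hx
    exact inv_ne_zero hg.ne hx.symm
  have hMU : x • M₀ ∈ Matrix.unitaryGroup (Fin n) K := by
    rw [Matrix.mem_unitaryGroup_iff', star_smul, star_eq_conjTranspose, Matrix.smul_mul,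
      Matrix.mul_smul, hMM, smul_smul, smul_smul, hx, inv_mul_cancel₀ hg.ne, one_smul]
  refine ⟨⟨x • M₀, hMU⟩, ⟨σ, hστ⟩, x⁻¹, inv_ne_zero hx0, rfl, fun v => ?_⟩
  rw [hM₀]
  simp only
  rw [Matrix.smul_mulVec, smul_smul, inv_mul_cancel₀ hx0, one_smul]

/-- **Automorphisms of `PSU_n(q)`**, `n ≥ 3`, `q > 3` odd: every automorphism is induced by an
element of `PΓU_n(q)`. -/
theorem aut_PSU {q : ℕ} (hq : 3 < q) (hK : Nat.card K = q ^ 2) (hs : ∀ x : K, star x = x ^ q)
    (h2 : (2 : K) ≠ 0) (hn : 3 ≤ n) {L : Type*} [Group L] (e : PSU K n ≃* L) (α : MulAut L) :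
    ∃ x : PGamU K n, ∀ y : PSU K n,
      (SemidirectProduct.inl ((e.symm (α (e y)) : PSU K n) : PGU K n) : PGamU K n) =
        x * SemidirectProduct.inl (y : PGU K n) * x⁻¹ := by
  have hiv : Iv (th K) := th_iv (by omega) hK hs
  have hF : 3 < Nat.card (FF (th K)) := by
    have h1 := card_sq hiv
    rw [hK] at h1
    have h3 : q = Nat.card (FF (th K)) := Nat.pow_left_injective (by norm_num : 2 ≠ 0) h1
    omega
  have hd : 2 < finrank K (Fin n → K) := by
    rw [Module.finrank_fin_fun]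
    omega
  obtain ⟨g, σ, κ, hg, hind⟩ := exists_ssim_L hiv (hh_hm (K := K) (n := n)) hF h2 hd
    (π := e.toMonoidHom.comp toPSU) (e.surjective.comp toPSU_surj)
    (by
      intro x hx
      apply toPSU_ker
      rw [MonoidHom.mem_ker] at hx ⊢
      exact e.injective (hx.trans (map_one e).symm)) α
  obtain ⟨M, τ, c, hc, rfl, hgv⟩ := ssim_unitary hK hs (by omega) hg
  refine ⟨SemidirectProduct.inl (QuotientGroup.mk M) * SemidirectProduct.inr τ, ?_⟩
  intro y
  obtain ⟨X, rfl⟩ := toPSU_surj y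
  have hSU : M * mapGU τ (toSU X) * M⁻¹ ∈ SU K n := by
    have h1 : mapGU τ (toSU X) ∈ SU K n := by
      rw [mem_SU]
      have h3 : (mapGU τ (toSU X)).1 = (toSU X).1.map τ.1 := rfl
      have h4 := RingHom.map_det (τ.1 : K →+* K) (toSU X).1
      rw [mem_SU.1 (toSU_mem X), map_one] at h4
      rw [h3]
      exact h4.symm
    have hnor : (SU K n).Normal := MonoidHom.normal_ker _
    exact hnor.conj_mem _ h1 M
  obtain ⟨Y, hY⟩ := exists_SUG _ hSU
  have h5 : α (e (toPSU X)) = e (toPSU Y) := by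
    refine hind X Y fun v => ?_
    rw [hgv, hgv, ← toSU_mulVec, ← toSU_mulVec, hY, Matrix.mulVec_smul]
    congr 1
    have h6 : (fun i => τ.1 (((toSU X).1 *ᵥ v) i)) =
        ((toSU X).1.map τ.1) *ᵥ (fun i => τ.1 (v i)) := by
      funext i
      simp only [Matrix.mulVec, dotProduct, Matrix.map_apply, map_sum, map_mul]
    have h7 : (M * mapGU τ (toSU X) * M⁻¹).1 = M.1 * (toSU X).1.map τ.1 * star M.1 := rfl
    have h8 : star M.1 * M.1 = 1 := Matrix.mem_unitaryGroup_iff'.1 M.2
    rw [h6, h7, mulVec_mulVec, mulVec_mulVec, Matrix.mul_assoc _ (star M.1), h8, Matrix.mul_one]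
  rw [h5, e.symm_apply_apply, toPSU_val, toPSU_val, hY]
  have h9 : (QuotientGroup.mk (M * mapGU τ (toSU X) * M⁻¹) : PGU K n) =
      QuotientGroup.mk M * act n τ (QuotientGroup.mk (toSU X)) * (QuotientGroup.mk M)⁻¹ := rfl
  rw [h9, map_mul, map_mul, SemidirectProduct.inl_aut, map_inv, map_inv, _root_.mul_inv_rev]
  simp only [mul_assoc]

end

end Vale.Agent.P240.R2.H472
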