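import Vale.Agent.P240.R2.H38.UDefs
import Vale.Agent.P240.R2.H296.Cen
import Vale.Agent.P240.R2.H472.AutPSU

/-!
Every subgroup isomorphic to `PSU_n(q)`, `n ≥ 3`, `q > 3` odd, has a structure `PSUHom`.
-/

set_option autoImplicit false
set_option linter.unusedSectionVars false

namespace Vale.Agent.P240.R2.H472

open Matrix Subgroup
open Vale.Agent.P240.R2.AS

noncomputable section

variable {K : Type} [Field K] [Fintype K] [StarRing K] {n : ℕ}

/-- the projection onto `PSU` -/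
def prU (K : Type) [Field K] [Fintype K] [StarRing K] (n : ℕ) : H38.SU K n →* PSU K n :=
  ((QuotientGroup.mk' (center (GU K n))).comp (H38.SU K n).subtype).codRestrict (PSU K n)
    fun g => ⟨g.1, g.2, rfl⟩

theorem prU_val (g : H38.SU K n) :
    ((prU K n g : PSU K n) : PGU K n) = QuotientGroup.mk g.1 := rfl

theorem prU_surj : Function.Surjective (prU K n) := by
  rintro ⟨_, A, hA, rfl⟩
  exact ⟨⟨A, hA⟩, rfl⟩

theorem prU_eq_one (h2 : (2 : K) ≠ 0) (g : H38.SU K n) :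
    prU K n g = 1 ↔ ∃ c : K, H38.mt g = c • (1 : Matrix (Fin n) (Fin n) K) := by
  have h3 : (-1 : K) ≠ 1 := by
    intro h
    apply h2
    linear_combination -h
  have h4 : (-1 : K) * star (-1) = 1 := by simp
  have h5 := H296.mem_center_iff h3 h4 g.1
  rw [show H38.mt g = (g.1 : Matrix (Fin n) (Fin n) K) from rfl, ← h5, ← QuotientGroup.eq_one_iff,
    ← prU_val]
  exact Subtype.ext_iff

/-- conjugation by an element of `PΓU` -/
theorem conj_inl (X : PGamU K n) (y : PGU K n) :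
    X * SemidirectProduct.inl y * X⁻¹ =
      SemidirectProduct.inl (X.left * act n X.right y * X.left⁻¹) := by
  conv_lhs => rw [← SemidirectProduct.inl_left_mul_inr_right X]
  rw [map_mul, map_mul, SemidirectProduct.inl_aut, map_inv, map_inv, _root_.mul_inv_rev]
  simp only [mul_assoc]

/-- automorphisms of `PSU_n(q)` in matrix form -/
theorem aut_PSU_matrix {q : ℕ} (hq : 3 < q) (hK : Nat.card K = q ^ 2)
    (hs : ∀ x : K, star x = x ^ q) (h2 : (2 : K) ≠ 0) (hn : 3 ≤ n) {L : Type*} [Group L]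
    (e : PSU K n ≃* L) (α : MulAut L) :
    ∃ (g : GU K n) (σ : SA K), ∀ h h' : H38.SU K n, H38.mt h' =
      (g : Matrix (Fin n) (Fin n) K) * (H38.mt h).map σ.1 * star (g : Matrix (Fin n) (Fin n) K) →
      α (e (prU K n h)) = e (prU K n h') := by
  obtain ⟨X, hX⟩ := aut_PSU hq hK hs h2 hn e α
  obtain ⟨g, hg⟩ := QuotientGroup.mk_surjective X.left
  refine ⟨g, X.right, fun h h' hh' => ?_⟩
  have h1 := hX (prU K n h)
  rw [conj_inl] at h1
  have h3 := SemidirectProduct.inl_injective h1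
  rw [← e.symm_apply_eq, Subtype.ext_iff, h3, ← hg, prU_val, prU_val]
  have h5 : h'.1 = g * mapGU X.right h.1 * g⁻¹ := Subtype.ext hh'
  rw [h5]
  rfl

/-- **`PSUHom` for every subgroup isomorphic to `PSU_n(q)`** -/
theorem exists_psuHom {q : ℕ} (hq : 3 < q) (hK : Nat.card K = q ^ 2)
    (hs : ∀ x : K, star x = x ^ q) (h2 : (2 : K) ≠ 0) (hn : 3 ≤ n) {G : Type*} [Group G]
    (L : Subgroup G) (e : PSU K n ≃* L) :
    ∃ ε : H38.SU K n →* G, (∀ g, ε g = e (prU K n g)) ∧ ε.range = L ∧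
      (∀ g : H38.SU K n, ε g = 1 ↔ ∃ c : K, H38.mt g = c • (1 : Matrix (Fin n) (Fin n) K)) ∧
      ∀ x ∈ Subgroup.normalizer (L : Set G), ∃ g σ, H38.Acts ε x g σ := by
  refine ⟨L.subtype.comp (e.toMonoidHom.comp (prU K n)), fun _ => rfl, ?_, ?_, ?_⟩
  · ext y
    constructor
    · rintro ⟨g, rfl⟩
      exact (e (prU K n g)).2
    · intro hy
      obtain ⟨z, hz⟩ := e.surjective ⟨y, hy⟩
      obtain ⟨g, rfl⟩ := prU_surj z
      exact ⟨g, congrArg Subtype.val hz⟩
  · intro g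
    rw [← prU_eq_one h2]
    constructor
    · intro h
      apply e.injective
      rw [map_one]
      exact Subtype.ext h
    · intro h
      change ((e (prU K n g) : L) : G) = 1
      rw [h, map_one]
      rfl
  · intro x hx
    obtain ⟨g, σ, hgσ⟩ := aut_PSU_matrix hq hK hs h2 hn e (Subgroup.normalizerMonoidHom L ⟨x, hx⟩)
    refine ⟨g, σ.1, σ.2, fun h h' hh' => ?_⟩
    have h1 := congrArg Subtype.val (hgσ h h' hh')
    exact h1

theorem psuHom_of {q : ℕ} (hq : 3 < q) (hK : Nat.card K = q ^ 2)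
    (hs : ∀ x : K, star x = x ^ q) (h2 : (2 : K) ≠ 0) (hn : 3 ≤ n) {G : Type*} [Group G]
    (L : Subgroup G) (e : PSU K n ≃* L) (p : ℕ) :
    ∃ ε : H38.SU K n →* G, H38.PSUHom p n L ε := by
  obtain ⟨ε, _, h3, h4, h5⟩ := exists_psuHom hq hK hs h2 hn L e
  exact ⟨ε, h3, h4, fun x hx _ => h5 x hx⟩

/-- the form of `StmtTR` -/
theorem tr_PSU {q : ℕ} (hq : 3 < q) (hK : Nat.card K = q ^ 2)
    (hs : ∀ x : K, star x = x ^ q) (h2 : (2 : K) ≠ 0) (hn : 3 ≤ n) (α : MulAut (PSU K n)) :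
    ∃ (s : SA K) (g : GU K n), ∀ y : PSU K n, ((α y : PSU K n) : PGU K n) =
      (QuotientGroup.mk g : PGU K n) * act n s (y : PGU K n) *
        (QuotientGroup.mk g : PGU K n)⁻¹ := by
  obtain ⟨X, hX⟩ := aut_PSU hq hK hs h2 hn (MulEquiv.refl _) α
  obtain ⟨g, hg⟩ := QuotientGroup.mk_surjective X.left
  refine ⟨X.right, g, fun y => ?_⟩
  have h1 := hX y
  rw [conj_inl] at h1
  have h3 := SemidirectProduct.inl_injective h1
  rw [hg]
  exact h3

end

end Vale.Agent.P240.R2.H472
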