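import Vale.Agent.P240.R2.H472.OW

/-!
Wigner's theorem for the form `x₁² + … + xₘ² + d x₀²`, `m ≥ 5` (P240, even orthogonal groups).
-/

set_option autoImplicit false
set_option linter.unusedSectionVars false

namespace Vale.Agent.P240.R2.H472

open Matrix Finset
open scoped Classical

universe u

section

variable {K : Type u} [Field K]

/-- the form -/
def Bd {m : ℕ} (d : K) (x y : (Fin m → K) × K) : K := x.1 ⬝ᵥ y.1 + d * (x.2 * y.2)

/-- the unit vectors `e₁, …, eₘ` -/
def ei {m : ℕ} (i : Fin m) : (Fin m → K) × K := (Pi.single i 1, 0)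

lemma Bd_ei {m : ℕ} (d : K) (x : (Fin m → K) × K) (i : Fin m) : Bd d x (ei i) = x.1 i := by
  simp [Bd, ei]

lemma Bd_comm {m : ℕ} (d : K) (x y : (Fin m → K) × K) : Bd d x y = Bd d y x := by
  rw [Bd, Bd, dotProduct_comm, mul_comm x.2]

lemma Bd_neg {m : ℕ} (d : K) (x y : (Fin m → K) × K) : Bd d x (-y) = -Bd d x y := by
  simp only [Bd, Prod.fst_neg, Prod.snd_neg, dotProduct_neg]
  ring

lemma Bd_neg' {m : ℕ} (d : K) (x y : (Fin m → K) × K) : Bd d (-x) y = -Bd d x y := by
  rw [Bd_comm, Bd_neg, Bd_comm]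

/-- the hypotheses on the map -/
structure WD {m : ℕ} (d : K) (F : (Fin m → K) × K → (Fin m → K) × K) (κ : K → K) : Prop where
  unit : ∀ x, Bd d x x = 1 → Bd d (F x) (F x) = 1
  kap : ∀ x y, Bd d x x = 1 → Bd d y y = 1 → Bd d (F x) (F y) ^ 2 = κ (Bd d x y ^ 2)
  std : ∀ i : Fin m, F (ei i) = ei i ∨ F (ei i) = -ei i
  inj : ∀ (x : (Fin m → K) × K) (i : Fin m), Bd d x x = 1 → (F x = ei i ∨ F x = -ei i) →
    x = ei i ∨ x = -ei i

lemma ei_unit {m : ℕ} (d : K) (i : Fin m) : Bd d (ei i : (Fin m → K) × K) (ei i) = 1 := by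
  rw [Bd_ei]; simp [ei]

variable {d : K} {κ : K → K}

lemma WD.coord {m : ℕ} {F : (Fin m → K) × K → (Fin m → K) × K} (h : WD d F κ)
    {x : (Fin m → K) × K} (hx : Bd d x x = 1) (i : Fin m) : (F x).1 i ^ 2 = κ (x.1 i ^ 2) := by
  have h1 := h.kap x (ei i) hx (ei_unit d i)
  rw [Bd_ei] at h1
  rcases h.std i with h2 | h2
  · rw [h2, Bd_ei] at h1
    exact h1
  · rw [h2, Bd_neg, Bd_ei, neg_sq] at h1
    exact h1

lemma WD.kap_zero {m : ℕ} {F : (Fin (m + 1 + 1) → K) × K → (Fin (m + 1 + 1) → K) × K}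
    (h : WD d F κ) : κ 0 = 0 := by
  have h1 := h.coord (ei_unit d (0 : Fin (m + 1 + 1))) 1
  have h2 : (ei (0 : Fin (m + 1 + 1)) : (Fin (m + 1 + 1) → K) × K).1 1 = 0 := by simp [ei]
  rw [h2, zero_pow two_ne_zero] at h1
  rw [← h1]
  rcases h.std 0 with h3 | h3
  · rw [h3, h2, zero_pow two_ne_zero]
  · rw [h3, Prod.fst_neg, Pi.neg_apply, h2, neg_zero, zero_pow two_ne_zero]

lemma WD.kap_one {m : ℕ} {F : (Fin (m + 1) → K) × K → (Fin (m + 1) → K) × K}
    (h : WD d F κ) : κ 1 = 1 := by
  have h1 := h.coord (ei_unit d (0 : Fin (m + 1))) 0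
  have h2 : (ei (0 : Fin (m + 1)) : (Fin (m + 1) → K) × K).1 0 = 1 := by simp [ei]
  rw [h2, one_pow] at h1
  rw [← h1]
  rcases h.std 0 with h3 | h3
  · rw [h3, h2, one_pow]
  · rw [h3, Prod.fst_neg, Pi.neg_apply, h2, neg_sq, one_pow]

variable [Fintype K]

/-- vectors with two vanishing coordinates, one of them the last -/
lemma WD.last {m : ℕ} (h2 : (2 : K) ≠ 0) (h4 : 3 < Fintype.card K)
    (hd : d ≠ 0)
    {F : (Fin (m + 1 + 1) → K) × K → (Fin (m + 1 + 1) → K) × K}
    (h : WD d F κ) {x : (Fin (m + 1 + 1) → K) × K} (hx : Bd d x x = 1) (h0 : x.2 = 0)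
    {j : Fin (m + 1 + 1)} (hj : x.1 j = 0) : (F x).2 = 0 := by
  obtain ⟨t, s, ht, hts⟩ := exists_scale h2 h4 d
  set y : (Fin (m + 1 + 1) → K) × K := (Pi.single j s, t) with hy
  have hyy : Bd d y y = 1 := by
    rw [Bd, hy]
    simp only [dotProduct_single, Pi.single_eq_same]
    linear_combination hts
  have hy0 : ∀ i, i ≠ j → (F y).1 i = 0 := by
    intro i hi
    have h3 := h.coord hyy i
    have h4 : y.1 i = 0 := by rw [hy]; simp [hi]
    rw [h4, zero_pow two_ne_zero, h.kap_zero] at h3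
    exact pow_eq_zero_iff two_ne_zero |>.1 h3
  have hFy : (F y).1 = Pi.single j ((F y).1 j) := by
    funext i
    by_cases hi : i = j
    · subst hi; simp
    · rw [hy0 i hi]; simp [hi]
  have hy2 : (F y).2 ≠ 0 := by
    intro h5
    have h6 := h.unit y hyy
    rw [Bd, h5, hFy] at h6
    simp only [dotProduct_single, Pi.single_eq_same, mul_zero, add_zero] at h6
    have h7 : F y = ei j ∨ F y = -ei j := by
      rcases mul_self_eq_one_iff.1 h6 with h8 | h8
      · left
        refine Prod.ext ?_ h5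
        rw [hFy, h8]
        rfl
      · right
        refine Prod.ext ?_ ?_
        · rw [hFy, h8, Prod.fst_neg, Pi.single_neg]
          rfl
        · rw [h5, Prod.snd_neg]
          simp [ei]
    rcases h.inj y j hyy h7 with h8 | h8
    · exact ht (congrArg Prod.snd h8)
    · have h9 := congrArg Prod.snd h8
      rw [Prod.snd_neg] at h9
      apply ht
      simpa [ei] using h9
  have h3 := h.kap x y hx hyy
  have h5 : Bd d x y = 0 := by
    rw [Bd, hy, h0]
    simp [hj]
  rw [h5, zero_pow two_ne_zero, h.kap_zero] at h3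
  have h6 : Bd d (F x) (F y) = 0 := pow_eq_zero_iff two_ne_zero |>.1 h3
  have h7 : (F x).1 j = 0 := by
    have h8 := h.coord hx j
    rw [hj, zero_pow two_ne_zero, h.kap_zero] at h8
    exact pow_eq_zero_iff two_ne_zero |>.1 h8
  rw [Bd, hFy, dotProduct_single, h7, zero_mul, zero_add] at h6
  rcases mul_eq_zero.1 h6 with h8 | h8
  · exact absurd h8 hd
  · rcases mul_eq_zero.1 h8 with h9 | h9
    · exact h9
    · exact absurd h9 hy2

omit [Fintype K] in
lemma v5_dot' {m : ℕ} (a b c d e a' b' c' d' e' : K) :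
    v5 (m := m) a b c d e ⬝ᵥ v5 a' b' c' d' e' = a * a' + b * b' + c * c' + d * d' + e * e' := by
  simp only [v5, cons_dotProduct_cons, zero_dotProduct, add_zero]
  ring

omit [Fintype K] in
lemma sum_v5' {m : ℕ} (g : K → K) (hg : g 0 = 0) (a b c d e : K) :
    ∑ i, g (v5 (m := m) a b c d e i) = g a + g b + g c + g d + g e := by
  simp only [v5, Fin.sum_univ_succ, cons_val_zero, cons_val_succ, Pi.zero_apply, hg,
    Finset.sum_const_zero]
  ring

variable {m : ℕ} {F : (Fin (m + 1 + 1 + 1 + 1 + 1) → K) × K → (Fin (m + 1 + 1 + 1 + 1 + 1) → K) × K}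

lemma Bd_v5 (d a b c e g a' b' c' e' g' : K) :
    Bd d ((v5 (m := m) a b c e g, 0) : (Fin (m + 1 + 1 + 1 + 1 + 1) → K) × K) (v5 a' b' c' e' g', 0)
      = a * a' + b * b' + c * c' + e * e' + g * g' := by
  rw [Bd, v5_dot']
  ring

lemma WD.sum4 (h2 : (2 : K) ≠ 0) (h4 : 3 < Fintype.card K) (hd : d ≠ 0)
    (h : WD d F κ) {a b c e : K} (hs : a ^ 2 + b ^ 2 + c ^ 2 + e ^ 2 = 1) :
    κ (a ^ 2) + κ (b ^ 2) + κ (c ^ 2) + κ (e ^ 2) = 1 := by
  set x : (Fin (m + 1 + 1 + 1 + 1 + 1) → K) × K := (v5 a b c e 0, 0) with hx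
  have hxx : Bd d x x = 1 := by
    rw [hx, Bd_v5]
    linear_combination hs
  have h5 : x.1 (Fin.succ (Fin.succ (Fin.succ (Fin.succ 0)))) = 0 := by
    rw [hx]; simp [v5]
  have h6 := h.last h2 h4 hd hxx rfl h5
  have h7 := h.unit x hxx
  rw [Bd, h6, mul_zero, mul_zero, add_zero] at h7
  have h8 : ∑ i, κ (x.1 i ^ 2) = 1 := by
    rw [← h7, dotProduct]
    exact Finset.sum_congr rfl fun i _ => by rw [← h.coord hxx i]; ring
  rw [← h8, hx]
  have h9 := sum_v5' (m := m) (fun z => κ (z ^ 2)) (by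
    simp only [zero_pow two_ne_zero]
    exact h.kap_zero) a b c e 0
  simp only [zero_pow two_ne_zero, h.kap_zero, add_zero] at h9
  exact h9.symm

lemma WD.mul (h2 : (2 : K) ≠ 0) (h4 : 3 < Fintype.card K) (hd : d ≠ 0)
    (h : WD d F κ) (a c : K) : κ ((a * c) ^ 2) = κ (a ^ 2) * κ (c ^ 2) := by
  obtain ⟨b1, b2, hb⟩ := two_sq h2 (1 - a * a)
  obtain ⟨d1, d2, hd'⟩ := two_sq h2 (1 - c * c)
  set x : (Fin (m + 1 + 1 + 1 + 1 + 1) → K) × K := (v5 a b1 b2 0 0, 0) with hx
  set z : (Fin (m + 1 + 1 + 1 + 1 + 1) → K) × K := (v5 c 0 0 d1 d2, 0) with hz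
  have hxx : Bd d x x = 1 := by
    rw [hx, Bd_v5]
    linear_combination hb
  have hzz : Bd d z z = 1 := by
    rw [hz, Bd_v5]
    linear_combination hd'
  have hx0 : (F x).2 = 0 := h.last h2 h4 hd hxx rfl
    (j := Fin.succ (Fin.succ (Fin.succ (Fin.succ 0)))) (by rw [hx]; simp [v5])
  have hz0 : (F z).2 = 0 := h.last h2 h4 hd hzz rfl (j := Fin.succ 0) (by rw [hz]; simp [v5])
  have hsupp : ∀ i : Fin (m + 1 + 1 + 1 + 1 + 1), i ≠ 0 → x.1 i = 0 ∨ z.1 i = 0 := by
    intro i
    rw [hx, hz]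
    refine Fin.cases (fun h => absurd rfl h) (fun i _ => ?_) i
    simp only [v5, cons_val_succ]
    refine Fin.cases (Or.inr (by simp)) (fun i => ?_) i
    simp only [cons_val_succ]
    refine Fin.cases (Or.inr (by simp)) (fun i => ?_) i
    simp only [cons_val_succ]
    refine Fin.cases (Or.inl (by simp)) (fun i => ?_) i
    simp only [cons_val_succ]
    refine Fin.cases (Or.inl (by simp)) (fun i => ?_) i
    simp
  have h3 := h.kap x z hxx hzz
  have h5 : Bd d x z = a * c := by
    rw [hx, hz, Bd_v5]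
    ring
  have h6 : Bd d (F x) (F z) = (F x).1 0 * (F z).1 0 := by
    rw [Bd, hx0, zero_mul, mul_zero, add_zero, dotProduct, Finset.sum_eq_single 0]
    · intro i _ hi
      rcases hsupp i hi with h7 | h7
      · have h8 := h.coord hxx i
        rw [h7, zero_pow two_ne_zero, h.kap_zero] at h8
        rw [pow_eq_zero_iff two_ne_zero |>.1 h8, zero_mul]
      · have h8 := h.coord hzz i
        rw [h7, zero_pow two_ne_zero, h.kap_zero] at h8
        rw [pow_eq_zero_iff two_ne_zero |>.1 h8, mul_zero]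
    · intro hh
      exact absurd (Finset.mem_univ _) hh
  rw [h5, h6, mul_pow, h.coord hxx, h.coord hzz] at h3
  have h7 : x.1 0 = a := by rw [hx]; simp [v5]
  have h8 : z.1 0 = c := by rw [hz]; simp [v5]
  rw [h7, h8] at h3
  exact h3.symm

/-- the field automorphism -/
theorem WD.exists_sigma (h2 : (2 : K) ≠ 0) (h6 : 5 < Fintype.card K) (hd : d ≠ 0)
    (h : WD d F κ) : ∃ s : K ≃+* K, ∀ a : K, κ (a ^ 2) = s (a ^ 2) := by
  have h4 : 3 < Fintype.card K := by omega
  have hex : ∀ s : K, ∃ a b : K, a ^ 2 + b ^ 2 = s := fun s => by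
    obtain ⟨a, b, hab⟩ := two_sq h2 s
    exact ⟨a, b, by rw [← hab]; ring⟩
  choose A B hAB using hex
  have h0 := h.kap_zero
  have h1 := h.kap_one
  have hmul := h.mul h2 h4 hd
  set T : K → K := fun s => κ (A s ^ 2) + κ (B s ^ 2) with hT
  have comp : ∀ a b : K, κ (a ^ 2) + κ (b ^ 2) = 1 - T (1 - (a ^ 2 + b ^ 2)) := by
    intro a b
    have h3 := h.sum4 h2 h4 hd (a := a) (b := b) (c := A (1 - (a ^ 2 + b ^ 2)))
      (e := B (1 - (a ^ 2 + b ^ 2))) (by
        have := hAB (1 - (a ^ 2 + b ^ 2))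
        linear_combination this)
    simp only [hT]
    linear_combination h3
  have self : ∀ s : K, T s = 1 - T (1 - s) := by
    intro s
    have := comp (A s) (B s)
    rw [hAB] at this
    exact this
  have two : ∀ a b : K, κ (a ^ 2) + κ (b ^ 2) = T (a ^ 2 + b ^ 2) := by
    intro a b
    rw [comp, ← self]
  have sq : ∀ c : K, T (c ^ 2) = κ (c ^ 2) := by
    intro c
    have := two c 0
    rw [zero_pow two_ne_zero, add_zero, h0, add_zero] at this
    exact this.symm
  have scale : ∀ c s : K, T (c ^ 2 * s) = κ (c ^ 2) * T s := by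
    intro c s
    have h3 := two (c * A s) (c * B s)
    have h5 : (c * A s) ^ 2 + (c * B s) ^ 2 = c ^ 2 * s := by
      conv_rhs => rw [← hAB s]
      ring
    rw [h5, hmul, hmul] at h3
    rw [← h3]
    simp only [hT]
    ring
  have add1 : ∀ c u v : K, c ≠ 0 → u + v = c ^ 2 → T u + T v = T (c ^ 2) := by
    intro c u v hc huv
    have h3 : c ^ 2 ≠ 0 := pow_ne_zero _ hc
    have h5 : u = c ^ 2 * (u / c ^ 2) := (mul_div_cancel₀ u h3).symm
    have h7 : v = c ^ 2 * (1 - u / c ^ 2) := by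
      field_simp
      linear_combination huv
    have e1 := self (u / c ^ 2)
    rw [sq, h7, scale]
    conv_lhs =>
      enter [1]
      rw [h5, scale]
    linear_combination κ (c ^ 2) * e1
  have T0 : T 0 = 0 := by
    have := sq 0
    rw [zero_pow two_ne_zero, h0] at this
    exact this
  have add : ∀ u v : K, T (u + v) = T u + T v := by
    intro u v
    by_cases hu : u = 0
    · rw [hu, zero_add, T0, zero_add]
    · obtain ⟨p, hp⟩ := exists_nonroot (Polynomial.X ^ 5 - Polynomial.C (u ^ 2) * Polynomial.X :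
        Polynomial K) (by
          intro h3
          have := congrArg (fun p => Polynomial.coeff p 5) h3
          simp only [Polynomial.coeff_zero] at this
          rw [Polynomial.coeff_sub, Polynomial.coeff_X_pow_self, Polynomial.coeff_C_mul,
            Polynomial.coeff_X_of_ne_one (by norm_num), mul_zero, sub_zero] at this
          exact one_ne_zero this)
        (by
          refine lt_of_le_of_lt ?_ h6
          compute_degree)
      simp only [Polynomial.eval_sub, Polynomial.eval_pow, Polynomial.eval_X, Polynomial.eval_mul,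
        Polynomial.eval_C] at hp
      have hp0 : p ≠ 0 := by
        rintro rfl
        apply hp
        ring
      have hp1 : p ^ 2 - u ≠ 0 := by
        intro h3
        apply hp
        linear_combination (p * (p ^ 2 + u)) * h3
      have hp2 : p ^ 2 + u ≠ 0 := by
        intro h3
        apply hp
        linear_combination (p * (p ^ 2 - u)) * h3
      have hx : ((p ^ 2 + u) / (2 * p)) ≠ 0 := div_ne_zero hp2 (mul_ne_zero h2 hp0)
      have hy : ((u - p ^ 2) / (2 * p)) ≠ 0 :=
        div_ne_zero (fun h3 => hp1 (by linear_combination -h3)) (mul_ne_zero h2 hp0)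
      have hxy : ((p ^ 2 + u) / (2 * p)) ^ 2 = u + ((u - p ^ 2) / (2 * p)) ^ 2 := by
        rw [div_pow, div_pow, eq_comm, ← sub_eq_zero]
        have h3 : (2 * p) ^ 2 ≠ 0 := pow_ne_zero _ (mul_ne_zero h2 hp0)
        rw [show u + (u - p ^ 2) ^ 2 / (2 * p) ^ 2 - (p ^ 2 + u) ^ 2 / (2 * p) ^ 2 =
          (u * (2 * p) ^ 2 + (u - p ^ 2) ^ 2 - (p ^ 2 + u) ^ 2) / (2 * p) ^ 2 by
            rw [sub_div, add_div, mul_div_cancel_right₀ _ h3]]
        rw [show u * (2 * p) ^ 2 + (u - p ^ 2) ^ 2 - (p ^ 2 + u) ^ 2 = 0 by ring, zero_div]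
      set x := (p ^ 2 + u) / (2 * p)
      set y := (u - p ^ 2) / (2 * p)
      have e1 := add1 x (u + v) (y ^ 2 - v) hx (by linear_combination -hxy)
      have e2 := add1 x u (y ^ 2) hx hxy.symm
      have e3 := add1 y v (y ^ 2 - v) hy (by ring)
      linear_combination e1 - e2 - e3
  let σ : K →+* K :=
    { toFun := T
      map_zero' := T0
      map_one' := by
        have := sq 1
        rw [one_pow, h1] at this
        exact this
      map_add' := add
      map_mul' := by
        intro s t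
        have e1 : s * t = A s ^ 2 * t + B s ^ 2 * t := by
          conv_lhs => rw [← hAB s]
          ring
        rw [e1, add, scale, scale]
        simp only [hT]
        ring }
  have hσ : Function.Bijective σ := Finite.injective_iff_bijective.1 σ.injective
  exact ⟨RingEquiv.ofBijective σ hσ, fun a => (sq a).symm⟩

/-- a point of the conic `a² + d b² = 1` without zero coordinate -/
lemma exists_pt_d (h2 : (2 : K) ≠ 0) (h6 : 5 < Fintype.card K) (d : K) :
    ∃ a b : K, a ≠ 0 ∧ b ≠ 0 ∧ a ^ 2 + d * b ^ 2 = 1 := by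
  obtain ⟨p, hp⟩ := exists_nonroot (Polynomial.X ^ 5 - Polynomial.C (d ^ 2) * Polynomial.X :
    Polynomial K) (by
      intro h3
      have := congrArg (fun p => Polynomial.coeff p 5) h3
      simp only [Polynomial.coeff_zero] at this
      rw [Polynomial.coeff_sub, Polynomial.coeff_X_pow_self, Polynomial.coeff_C_mul,
        Polynomial.coeff_X_of_ne_one (by norm_num), mul_zero, sub_zero] at this
      exact one_ne_zero this)
    (by
      refine lt_of_le_of_lt ?_ h6
      compute_degree)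
  simp only [Polynomial.eval_sub, Polynomial.eval_pow, Polynomial.eval_X, Polynomial.eval_mul,
    Polynomial.eval_C] at hp
  have hp0 : p ≠ 0 := by
    rintro rfl
    apply hp
    ring
  have hp1 : d - p ^ 2 ≠ 0 := by
    intro h3
    apply hp
    linear_combination (-p * (p ^ 2 + d)) * h3
  have hp2 : d + p ^ 2 ≠ 0 := by
    intro h3
    apply hp
    linear_combination (p * (p ^ 2 - d)) * h3
  refine ⟨(d - p ^ 2) / (d + p ^ 2), 2 * p / (d + p ^ 2), div_ne_zero hp1 hp2,
    div_ne_zero (mul_ne_zero h2 hp0) hp2, ?_⟩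
  rw [div_pow, div_pow, mul_div_assoc', ← add_div, div_eq_one_iff_eq (pow_ne_zero _ hp2)]
  ring

omit [Fintype K] in
lemma sum_two {N : ℕ} {i j : Fin N} (hij : i ≠ j) (g : Fin N → K)
    (hg : ∀ k, k ≠ i → k ≠ j → g k = 0) : ∑ k, g k = g i + g j := by
  rw [Finset.sum_eq_add i j hij]
  · intro k _ hk
    exact hg k hk.1 hk.2
  · intro hh
    exact absurd (Finset.mem_univ _) hh
  · intro hh
    exact absurd (Finset.mem_univ _) hh

/-- **Wigner's theorem for the form `x₁² + … + xₘ² + d x₀²`** -/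
theorem WD.main (h2 : (2 : K) ≠ 0) (h6 : 5 < Fintype.card K) (hd : d ≠ 0)
    (h : WD d F κ) : ∃ (s : K ≃+* K) (c : Fin (m + 1 + 1 + 1 + 1 + 1) → K) (c0 : K),
      (∀ i, c i ^ 2 = 1) ∧ c0 ^ 2 * d = s d ∧ ∀ x, Bd d x x = 1 →
        (F x = (fun i => c i * s (x.1 i), c0 * s x.2) ∨
          F x = -(fun i => c i * s (x.1 i), c0 * s x.2)) := by
  obtain ⟨s, hs⟩ := h.exists_sigma h2 h6 hd
  have h4 : 3 < Fintype.card K := by omega
  have hs0 : ∀ {y : K}, y ≠ 0 → s y ≠ 0 := fun {y} hy h3 => hy (by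
    rw [← map_zero s] at h3
    exact s.injective h3)
  have hco : ∀ x, Bd d x x = 1 → ∀ i, (F x).1 i ^ 2 = s (x.1 i) ^ 2 := by
    intro x hx i
    rw [h.coord hx, hs, map_pow]
  have hla : ∀ x, Bd d x x = 1 → d * (F x).2 ^ 2 = s d * s x.2 ^ 2 := by
    intro x hx
    have h3 := h.unit x hx
    have h5 : (F x).1 ⬝ᵥ (F x).1 = s (x.1 ⬝ᵥ x.1) := by
      rw [dotProduct, dotProduct, map_sum]
      refine Finset.sum_congr rfl fun i _ => ?_
      rw [map_mul, ← pow_two, ← pow_two, hco x hx]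
    have h7 := congrArg s hx
    rw [Bd, map_add, map_one, map_mul, map_mul, ← h5] at h7
    rw [Bd] at h3
    linear_combination h3 - h7
  have hkap : ∀ x y, Bd d x x = 1 → Bd d y y = 1 → Bd d (F x) (F y) ^ 2 = s (Bd d x y) ^ 2 := by
    intro x y hx hy
    rw [h.kap x y hx hy, hs, map_pow]
  -- vectors supported on two coordinates
  obtain ⟨a, b, ha, hb, hab⟩ := exists_pt (K := K) h2 h6
  obtain ⟨α, t, hα, ht, hαt⟩ := exists_pt_d (K := K) h2 h6 d
  have key1 : ∀ i j : Fin (m + 1 + 1 + 1 + 1 + 1), i ≠ j → ∃ W : K, W ≠ 0 ∧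
      ∀ x, Bd d x x = 1 → (F x).1 i * (F x).1 j * W = s (x.1 i) * s (x.1 j) * s (a * b) := by
    intro i j hij
    set z : (Fin (m + 1 + 1 + 1 + 1 + 1) → K) × K := (a • Pi.single i 1 + b • Pi.single j 1, 0)
      with hz
    have hzi : z.1 i = a := by simp [hz, hij]
    have hzj : z.1 j = b := by simp [hz, Ne.symm hij]
    have hzk : ∀ k, k ≠ i → k ≠ j → z.1 k = 0 := by
      intro k hki hkj
      simp [hz, hki, hkj]
    have hB : ∀ x, Bd d x z = x.1 i * a + x.1 j * b := by
      intro x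
      rw [Bd, show z.2 = 0 from rfl, mul_zero, mul_zero, add_zero, dotProduct,
        sum_two hij _ (fun k hki hkj => by rw [hzk k hki hkj, mul_zero]), hzi, hzj]
    have hzz : Bd d z z = 1 := by
      rw [hB, hzi, hzj]
      linear_combination hab
    obtain ⟨k, hki, hkj⟩ : ∃ k : Fin (m + 1 + 1 + 1 + 1 + 1), k ≠ i ∧ k ≠ j := by
      by_contra hcon
      push Not at hcon
      have h3 : (Finset.univ : Finset (Fin (m + 1 + 1 + 1 + 1 + 1))) ⊆ {i, j} := by
        intro k _
        rw [Finset.mem_insert, Finset.mem_singleton]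
        by_cases hk : k = i
        · exact Or.inl hk
        · exact Or.inr (hcon k hk)
      have h5 := (Finset.card_le_card h3).trans Finset.card_le_two
      rw [Finset.card_univ, Fintype.card_fin] at h5
      omega
    have hz2 : (F z).2 = 0 := h.last h2 h4 hd hzz rfl (hzk k hki hkj)
    have hzF : ∀ k, k ≠ i → k ≠ j → (F z).1 k = 0 := by
      intro k hki hkj
      have h3 := hco z hzz k
      rw [hzk k hki hkj, map_zero, zero_pow two_ne_zero] at h3
      exact pow_eq_zero_iff two_ne_zero |>.1 h3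
    have e1 := hco z hzz i
    have e2 := hco z hzz j
    rw [hzi] at e1
    rw [hzj] at e2
    refine ⟨(F z).1 i * (F z).1 j, ?_, fun x hx => ?_⟩
    · intro h3
      have h5 : ((F z).1 i * (F z).1 j) ^ 2 = 0 := by rw [h3, zero_pow two_ne_zero]
      rw [mul_pow, e1, e2] at h5
      exact mul_ne_zero (pow_ne_zero _ (hs0 ha)) (pow_ne_zero _ (hs0 hb)) h5
    · have h3 := hkap x z hx hzz
      have h5 : Bd d (F x) (F z) = (F x).1 i * (F z).1 i + (F x).1 j * (F z).1 j := by
        rw [Bd, hz2, mul_zero, mul_zero, add_zero, dotProduct,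
          sum_two hij _ (fun k hki hkj => by rw [hzF k hki hkj, mul_zero])]
      rw [h5, hB] at h3
      have e3 := hco x hx i
      have e4 := hco x hx j
      simp only [map_add, map_mul] at h3 ⊢
      apply mul_left_cancel₀ h2
      linear_combination h3 - (F x).1 i ^ 2 * e1 - s a ^ 2 * e3 - (F x).1 j ^ 2 * e2 - s b ^ 2 * e4
  have key2 : ∀ i : Fin (m + 1 + 1 + 1 + 1 + 1), ∃ W : K, W ≠ 0 ∧
      ∀ x, Bd d x x = 1 → d * ((F x).1 i * (F x).2) * W = s d * (s (x.1 i) * s x.2) * s (α * t) := by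
    intro i
    set z : (Fin (m + 1 + 1 + 1 + 1 + 1) → K) × K := (Pi.single i α, t) with hz
    have hzi : z.1 i = α := by simp [hz]
    have hzk : ∀ k, k ≠ i → z.1 k = 0 := by
      intro k hki
      simp [hz, hki]
    have hB : ∀ x, Bd d x z = x.1 i * α + d * (x.2 * t) := by
      intro x
      rw [Bd, hz]
      simp only [dotProduct_single]
    have hzz : Bd d z z = 1 := by
      rw [hB, hzi]
      linear_combination hαt
    have hzF : ∀ k, k ≠ i → (F z).1 k = 0 := by
      intro k hki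
      have h3 := hco z hzz k
      rw [hzk k hki, map_zero, zero_pow two_ne_zero] at h3
      exact pow_eq_zero_iff two_ne_zero |>.1 h3
    have e1 := hco z hzz i
    rw [hzi] at e1
    have e2 := hla z hzz
    change d * (F z).2 ^ 2 = s d * s t ^ 2 at e2
    refine ⟨(F z).1 i * (F z).2, ?_, fun x hx => ?_⟩
    · intro h3
      have h5 : d * ((F z).1 i * (F z).2) ^ 2 = 0 := by rw [h3, zero_pow two_ne_zero, mul_zero]
      have h7 : s α ^ 2 * (s d * s t ^ 2) = 0 := by
        rw [← e1, ← e2]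
        linear_combination h5
      exact mul_ne_zero (pow_ne_zero _ (hs0 hα)) (mul_ne_zero (hs0 hd)
        (pow_ne_zero _ (hs0 ht))) h7
    · have h3 := hkap x z hx hzz
      have h5 : Bd d (F x) (F z) = (F x).1 i * (F z).1 i + d * ((F x).2 * (F z).2) := by
        rw [Bd, dotProduct, Finset.sum_eq_single i]
        · intro k _ hki
          rw [hzF k hki, mul_zero]
        · intro hh
          exact absurd (Finset.mem_univ _) hh
      rw [h5, hB] at h3
      have e3 := hco x hx i
      have e4 := hla x hx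
      simp only [map_add, map_mul] at h3 ⊢
      apply mul_left_cancel₀ h2
      linear_combination h3 - (F x).1 i ^ 2 * e1 - s α ^ 2 * e3 - (d * (F x).2 ^ 2) * e2
        - (s d * s t ^ 2) * e4
  -- the reference vector
  obtain ⟨u', hu', hu1⟩ := exists_full (K := K) h2 h6 (m + 1 + 1 + 1 + 1)
  set u : (Fin (m + 1 + 1 + 1 + 1 + 1) → K) × K := (α • u', t) with hu
  have huu : Bd d u u = 1 := by
    rw [Bd, hu]
    simp only [smul_dotProduct, dotProduct_smul, hu1, smul_eq_mul]
    linear_combination hαt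
  have hui : ∀ i, u.1 i ≠ 0 := fun i => mul_ne_zero hα (hu' i)
  have hu0 : u.2 ≠ 0 := ht
  have hci : ∀ i, ((F u).1 i / s (u.1 i)) ^ 2 = 1 := by
    intro i
    rw [div_pow, hco u huu, div_self (pow_ne_zero _ (hs0 (hui i)))]
  have hc0 : ((F u).2 / s u.2) ^ 2 * d = s d := by
    rw [div_pow, div_mul_eq_mul_div, mul_comm, hla u huu,
      mul_div_assoc, div_self (pow_ne_zero _ (hs0 hu0)), mul_one]
  refine ⟨s, fun i => (F u).1 i / s (u.1 i), (F u).2 / s u.2, hci, hc0, fun x hx => ?_⟩
  -- products of coordinates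
  have p1 : ∀ i j, i ≠ j → (F x).1 i * (F x).1 j =
      ((F u).1 i / s (u.1 i) * s (x.1 i)) * ((F u).1 j / s (u.1 j) * s (x.1 j)) := by
    intro i j hij
    obtain ⟨W, hW, hk⟩ := key1 i j hij
    have e1 := hk x hx
    have e2 := hk u huu
    have hi := hs0 (hui i)
    have hj := hs0 (hui j)
    apply mul_right_cancel₀ hW
    rw [e1]
    field_simp
    linear_combination (-(s (x.1 i) * s (x.1 j))) * e2
  have p2 : ∀ i, (F x).1 i * (F x).2 =
      ((F u).1 i / s (u.1 i) * s (x.1 i)) * ((F u).2 / s u.2 * s x.2) := by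
    intro i
    obtain ⟨W, hW, hk⟩ := key2 i
    have e1 := hk x hx
    have e2 := hk u huu
    have hi := hs0 (hui i)
    have hj := hs0 hu0
    apply mul_right_cancel₀ hW
    apply mul_left_cancel₀ hd
    rw [← mul_assoc, e1]
    field_simp
    linear_combination (-(s (x.1 i) * s x.2)) * e2
  have q1 : ∀ i, (F x).1 i ^ 2 = ((F u).1 i / s (u.1 i) * s (x.1 i)) ^ 2 := by
    intro i
    rw [mul_pow, hci, one_mul, hco x hx]
  have q2 : (F x).2 ^ 2 = ((F u).2 / s u.2 * s x.2) ^ 2 := by
    have e1 := hla x hx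
    apply mul_left_cancel₀ hd
    rw [e1, mul_pow]
    linear_combination (-(s x.2 ^ 2)) * hc0
  -- a nonzero coordinate
  have hne : (∃ k, x.1 k ≠ 0) ∨ x.2 ≠ 0 := by
    by_contra hcon
    push Not at hcon
    have h3 : Bd d x x = 0 := by
      rw [Bd, hcon.2, dotProduct, Finset.sum_eq_zero (fun k _ => by rw [hcon.1 k, mul_zero])]
      ring
    rw [h3] at hx
    exact zero_ne_one hx
  have hcne : ∀ i, (F u).1 i / s (u.1 i) ≠ 0 := fun i h3 => by
    have := hci i
    rw [h3, zero_pow two_ne_zero] at this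
    exact zero_ne_one this
  have hc0ne : (F u).2 / s u.2 ≠ 0 := fun h3 => by
    have := hc0
    rw [h3, zero_pow two_ne_zero, zero_mul] at this
    exact hs0 hd this.symm
  rcases hne with ⟨k, hk⟩ | hk
  · have hw : (F u).1 k / s (u.1 k) * s (x.1 k) ≠ 0 := mul_ne_zero (hcne k) (hs0 hk)
    rcases sq_eq_sq_iff_eq_or_eq_neg.1 (q1 k) with h3 | h3
    · left
      refine Prod.ext (funext fun j => ?_) ?_
      · by_cases hj : j = k
        · rw [hj]; exact h3
        · have := p1 k j (Ne.symm hj)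
          rw [h3] at this
          exact mul_left_cancel₀ hw this
      · have := p2 k
        rw [h3] at this
        exact mul_left_cancel₀ hw this
    · right
      refine Prod.ext (funext fun j => ?_) ?_
      · by_cases hj : j = k
        · rw [hj]; exact h3
        · have := p1 k j (Ne.symm hj)
          rw [h3] at this
          apply mul_left_cancel₀ hw
          change _ = _ * -_
          linear_combination -this
      · have := p2 k
        rw [h3] at this
        apply mul_left_cancel₀ hw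
        change _ = _ * -_
        linear_combination -this
  · have hw : (F u).2 / s u.2 * s x.2 ≠ 0 := mul_ne_zero hc0ne (hs0 hk)
    rcases sq_eq_sq_iff_eq_or_eq_neg.1 q2 with h3 | h3
    · left
      refine Prod.ext (funext fun j => ?_) h3
      have := p2 j
      rw [h3] at this
      exact mul_right_cancel₀ hw this
    · right
      refine Prod.ext (funext fun j => ?_) h3
      have := p2 j
      rw [h3] at this
      apply mul_right_cancel₀ hw
      change _ = -_ * _
      linear_combination -this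

/-- **Wigner's theorem for the form `x₁² + … + xₙ² + d x₀²`**, `n ≥ 5` -/
theorem wigner_d {n : ℕ} (hn : 5 ≤ n) (h2 : (2 : K) ≠ 0) (h6 : 5 < Fintype.card K) (hd : d ≠ 0)
    {F : (Fin n → K) × K → (Fin n → K) × K} (h : WD d F κ) :
    ∃ (s : K ≃+* K) (c : Fin n → K) (c0 : K),
      (∀ i, c i ^ 2 = 1) ∧ c0 ^ 2 * d = s d ∧ ∀ x, Bd d x x = 1 →
        (F x = (fun i => c i * s (x.1 i), c0 * s x.2) ∨
          F x = -(fun i => c i * s (x.1 i), c0 * s x.2)) := by
  obtain ⟨m, rfl⟩ : ∃ m, n = m + 1 + 1 + 1 + 1 + 1 := ⟨n - 5, by omega⟩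
  exact h.main h2 h6 hd

end

end Vale.Agent.P240.R2.H472
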