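import Vale.Agent.P240.R2.AS.Defs

/-!
M2b: the frames of a space spanned by an orthogonal word of `n` letters are the images of the
frames of `K ^ n` under an isometry; `t` does not change under an injective renaming of letters.
Everything here is valid for every star ring structure of `K`.
-/

set_option autoImplicit false
set_option linter.unusedSectionVars false

namespace Vale.Agent.P240.R2.H472

open Finset Matrix
open Vale.Agent.P240.R2.H986 (ev ev_nil ev_single ev_cons)
open Vale.Agent.P240.R2.AS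
open scoped Classical

universe u v

noncomputable section

section transport

variable {L : Type u} {L' : Type v}

theorem ev_map (f : L → L') (z : List L' → ℚ) (g : List L) : ∀ u v : List L,
    ev (fun x => z (x.map f)) g u v = ev z (g.map f) (u.map f) (v.map f) := by
  induction g with
  | nil => intro u v; simp [ev_nil]
  | cons l M ih =>
    intro u v
    by_cases hM : M = []
    · subst hM; simp [ev_single]
    · have hM' : M.map f ≠ [] := by simpa using hM
      rw [ev_cons _ _ hM, List.map_cons, ev_cons _ _ hM', ih, ih]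
      simp

/-- pull-back of functions -/
def pull (f : L → L') : (List L' → ℚ) →ₗ[ℚ] (List L → ℚ) where
  toFun z := fun x => z (x.map f)
  map_add' := fun _ _ => rfl
  map_smul' := fun _ _ => rfl

theorem pull_apply (f : L → L') (z : List L' → ℚ) (x : List L) :
    pull f z x = z (x.map f) := rfl

theorem mem_image_map {f : L → L'} (hf : Function.Injective f) {F : Finset (List L)}
    {w : List L} : w.map f ∈ F.image (List.map f) ↔ w ∈ F := by
  rw [Finset.mem_image]
  constructor
  · rintro ⟨x, hx, hxw⟩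
    rwa [← List.map_injective_iff.2 hf hxw]
  · exact fun h => ⟨w, h, rfl⟩

theorem sum_pair_map [Fintype L] [Fintype L'] {f : L → L'} (hf : Function.Injective f)
    (G : L' × L' → ℚ) (hG : ∀ x : L' × L', (x.1 ∉ Set.range f ∨ x.2 ∉ Set.range f) → G x = 0) :
    ∑ x, G x = ∑ x : L × L, G (f x.1, f x.2) := by
  have hinj : Function.Injective (fun x : L × L => (f x.1, f x.2)) := by
    rintro ⟨a, b⟩ ⟨c, d⟩ h
    simp only [Prod.mk.injEq] at h
    rw [hf h.1, hf h.2]
  rw [← Finset.sum_image (f := G) (s := Finset.univ) (g := fun x : L × L => (f x.1, f x.2))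
    (fun x _ y _ h => hinj h)]
  symm
  apply Finset.sum_subset (Finset.subset_univ _)
  rintro ⟨x, y⟩ _ hxy
  apply hG
  by_contra hcon
  push Not at hcon
  obtain ⟨⟨a, ha⟩, ⟨b, hb⟩⟩ := hcon
  apply hxy
  rw [Finset.mem_image]
  exact ⟨(a, b), Finset.mem_univ _, by simp only; rw [ha, hb]⟩

theorem pull_SOL [Fintype L] [Fintype L'] {f : L → L'} (hf : Function.Injective f)
    (F : Finset (List L)) : (SOL (F.image (List.map f))).map (pull f) = SOL F := by
  have hinj : Function.Injective (List.map f) := List.map_injective_iff.2 hf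
  apply le_antisymm
  · rintro _ ⟨z, ⟨hz1, hz2⟩, rfl⟩
    refine ⟨fun w hw => hz1 _ (fun h => hw ((mem_image_map hf).1 h)), fun u v => ?_⟩
    have h0 := hz2 (u.map f) (v.map f)
    rw [sum_pair_map hf] at h0
    · rw [← h0]
      refine Finset.sum_congr rfl fun a _ => ?_
      rw [pull_apply]
      simp
    · rintro ⟨a', b'⟩ hab
      apply hz1
      intro hmem
      rw [Finset.mem_image] at hmem
      obtain ⟨x, _, hx⟩ := hmem
      have ha : a' ∈ x.map f := by rw [hx]; simp
      have hb : b' ∈ x.map f := by rw [hx]; simp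
      rw [List.mem_map] at ha hb
      obtain ⟨p, _, hp⟩ := ha
      obtain ⟨r, _, hr⟩ := hb
      rcases hab with h | h
      · exact h ⟨p, hp⟩
      · exact h ⟨r, hr⟩
  · intro z hz
    refine ⟨Function.extend (List.map f) z 0, ⟨?_, ?_⟩, ?_⟩
    · intro w hw
      by_cases hr : ∃ x, List.map f x = w
      · obtain ⟨x, rfl⟩ := hr
        rw [hinj.extend_apply]
        exact hz.1 x fun hx => hw ((mem_image_map hf).2 hx)
      · rw [Function.extend_apply' _ _ _ hr]
        rfl
    · intro u' v'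
      by_cases hu : ∃ u, List.map f u = u'
      · by_cases hv : ∃ v, List.map f v = v'
        · obtain ⟨u, rfl⟩ := hu
          obtain ⟨v, rfl⟩ := hv
          rw [sum_pair_map hf]
          · rw [← hz.2 u v]
            refine Finset.sum_congr rfl fun a _ => ?_
            have : u.map f ++ f a.1 :: f a.2 :: v.map f =
                List.map f (u ++ a.1 :: a.2 :: v) := by simp
            rw [this, hinj.extend_apply]
          · rintro ⟨a', b'⟩ hab
            apply Function.extend_apply'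
            rintro ⟨x, hx⟩
            have ha : a' ∈ x.map f := by rw [hx]; simp
            have hb : b' ∈ x.map f := by rw [hx]; simp
            rw [List.mem_map] at ha hb
            obtain ⟨p, _, hp⟩ := ha
            obtain ⟨r, _, hr⟩ := hb
            rcases hab with h | h
            · exact h ⟨p, hp⟩
            · exact h ⟨r, hr⟩
        · refine Finset.sum_eq_zero fun a' _ => ?_
          apply Function.extend_apply'
          rintro ⟨x, hx⟩
          apply hv
          rw [List.map_eq_append_iff] at hx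
          obtain ⟨l₁, l₂, rfl, _, h2⟩ := hx
          rw [List.map_eq_cons_iff] at h2
          obtain ⟨a, l₃, rfl, _, h3⟩ := h2
          rw [List.map_eq_cons_iff] at h3
          obtain ⟨b, l₄, rfl, _, h4⟩ := h3
          exact ⟨l₄, h4⟩
      · refine Finset.sum_eq_zero fun a' _ => ?_
        apply Function.extend_apply'
        rintro ⟨x, hx⟩
        apply hu
        rw [List.map_eq_append_iff] at hx
        obtain ⟨l₁, l₂, rfl, h1, _⟩ := hx
        exact ⟨l₁, h1⟩
    · funext x
      rw [pull_apply, hinj.extend_apply]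

theorem bm_pull (f : L → L') (z : List L' → ℚ) : bm L (pull f z) = pull f (bm L' z) := by
  funext g
  have := ev_map f z g [] []
  simp only [List.map_nil] at this
  exact this

/-- `ev z g [] []` vanishes when `z` vanishes on the rearrangements of `g` -/
theorem t_map [Fintype L] [Fintype L'] {f : L → L'} (hf : Function.Injective f)
    (F : Finset (List L)) : t (F.image (List.map f)) = t F := by
  have e1 : ((SOL (F.image (List.map f))).map (bm L')).map (pull f) = (SOL F).map (bm L) := by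
    rw [← pull_SOL hf F, ← Submodule.map_comp, ← Submodule.map_comp]
    congr 1
    refine LinearMap.ext fun z => ?_
    simp only [LinearMap.comp_apply]
    exact (bm_pull f z).symm
  have e2 := LinearMap.range_domRestrict ((SOL (F.image (List.map f))).map (bm L')) (pull f)
  rw [t, t, ← e1, ← e2]
  symm
  apply LinearMap.finrank_range_of_inj
  intro x y hxy
  apply Subtype.ext
  funext w
  have hsupp : ∀ z ∈ (SOL (F.image (List.map f))).map (bm L'),
      ∀ w, (¬ ∃ v, List.map f v = w) → z w = 0 := by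
    rintro _ ⟨z, hz, rfl⟩ w hw
    refine Vale.Agent.P240.R2.H986.ev_eq_zero w [] [] ?_
    intro w' hw'
    apply hz.1
    intro hmem
    rw [Finset.mem_image] at hmem
    obtain ⟨x, _, rfl⟩ := hmem
    rw [List.nil_append, List.append_nil] at hw'
    apply hw
    have hall : ∀ a ∈ w, ∃ b, f b = a := by
      intro a ha
      have := hw'.symm.subset ha
      rw [List.mem_map] at this
      obtain ⟨b, _, hb⟩ := this
      exact ⟨b, hb⟩
    clear hw' hw
    induction w with
    | nil => exact ⟨[], rfl⟩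
    | cons a t ih =>
      obtain ⟨b, hb⟩ := hall a List.mem_cons_self
      obtain ⟨v, hv⟩ := ih fun c hc => hall c (List.mem_cons_of_mem _ hc)
      exact ⟨b :: v, by simp [hb, hv]⟩
  by_cases hw : ∃ v, List.map f v = w
  · obtain ⟨v, rfl⟩ := hw
    exact congrFun hxy v
  · rw [hsupp _ x.2 w hw, hsupp _ y.2 w hw]

end transport

section iso

variable {K : Type u} [Field K] [Fintype K] [StarRing K]

theorem star_dot {ι : Type*} [Fintype ι] (v w : ι → K) :
    star (star v ⬝ᵥ w) = star w ⬝ᵥ v := by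
  rw [star_dotProduct]
  simp [dotProduct_comm]

theorem dot_mulVec {ι κ : Type*} [Fintype ι] [Fintype κ] [DecidableEq κ]
    {S : Matrix ι κ K} (hS : Sᴴ * S = 1) (x y : κ → K) :
    star (S *ᵥ x) ⬝ᵥ (S *ᵥ y) = star x ⬝ᵥ y := by
  rw [star_mulVec, ← dotProduct_mulVec, mulVec_mulVec, hS, one_mulVec]

theorem conj_vecMulVec {ι κ : Type*} [Fintype κ] (S : Matrix ι κ K) (x : κ → K) :
    S * vecMulVec x (star x) * Sᴴ = vecMulVec (S *ᵥ x) (star (S *ᵥ x)) := by
  rw [mul_vecMulVec, vecMulVec_mul, star_mulVec]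

variable {N n : ℕ}

/-- the letter map of an isometry -/
def phi {S : Matrix (Fin N) (Fin n) K} (hS : Sᴴ * S = 1) (P : Ln K n) : Ln K N :=
  ⟨S * P.1 * Sᴴ, by
    obtain ⟨P, x, h1, rfl⟩ := P
    exact ⟨S *ᵥ x, by rw [dot_mulVec hS, h1], conj_vecMulVec S x⟩⟩

theorem phi_val {S : Matrix (Fin N) (Fin n) K} (hS : Sᴴ * S = 1) (P : Ln K n) :
    (phi hS P).1 = S * P.1 * Sᴴ := rfl

theorem conj_conj {S : Matrix (Fin N) (Fin n) K} (hS : Sᴴ * S = 1)
    (P : Matrix (Fin n) (Fin n) K) : Sᴴ * (S * P * Sᴴ) * S = P := by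
  calc Sᴴ * (S * P * Sᴴ) * S = (Sᴴ * S) * P * (Sᴴ * S) := by simp only [Matrix.mul_assoc]
    _ = P := by rw [hS, Matrix.one_mul, Matrix.mul_one]

theorem phi_inj {S : Matrix (Fin N) (Fin n) K} (hS : Sᴴ * S = 1) :
    Function.Injective (phi hS) := by
  intro P Q hPQ
  apply Subtype.ext
  have h := congrArg (fun X : Ln K N => Sᴴ * X.1 * S) hPQ
  simp only [phi_val] at h
  rwa [conj_conj hS, conj_conj hS] at h

theorem conj_mul {S : Matrix (Fin N) (Fin n) K} (hS : Sᴴ * S = 1)
    (P Q : Matrix (Fin n) (Fin n) K) : (S * P * Sᴴ) * (S * Q * Sᴴ) = S * (P * Q) * Sᴴ := by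
  calc (S * P * Sᴴ) * (S * Q * Sᴴ) = S * P * (Sᴴ * S) * Q * Sᴴ := by
        simp only [Matrix.mul_assoc]
    _ = S * (P * Q) * Sᴴ := by rw [hS, Matrix.mul_one]; simp only [Matrix.mul_assoc]

theorem phi_mul_eq_zero {S : Matrix (Fin N) (Fin n) K} (hS : Sᴴ * S = 1) (P Q : Ln K n) :
    (phi hS P).1 * (phi hS Q).1 = 0 ↔ P.1 * Q.1 = 0 := by
  rw [phi_val, phi_val, conj_mul hS]
  constructor
  · intro h
    rw [← conj_conj hS (P.1 * Q.1), h]
    simp
  · intro h
    rw [h]
    simp

theorem orth_map {S : Matrix (Fin N) (Fin n) K} (hS : Sᴴ * S = 1) (w : List (Ln K n)) :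
    Orth (w.map (phi hS)) ↔ Orth w := by
  rw [Orth, Orth, List.pairwise_map]
  constructor
  · exact fun h => h.imp fun {a b} h => (phi_mul_eq_zero hS a b).1 h
  · exact fun h => h.imp fun {a b} h => (phi_mul_eq_zero hS a b).2 h

theorem sm_nil : sm ([] : List (Ln K n)) = 0 := rfl

theorem sm_cons (a : Ln K n) (t : List (Ln K n)) : sm (a :: t) = a.1 + sm t := by
  simp [sm]

theorem sm_append (u v : List (Ln K n)) : sm (u ++ v) = sm u + sm v := by
  simp [sm]

theorem sm_map {S : Matrix (Fin N) (Fin n) K} (hS : Sᴴ * S = 1) (w : List (Ln K n)) :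
    sm (w.map (phi hS)) = S * sm w * Sᴴ := by
  induction w with
  | nil => simp [sm]
  | cons a t ih => rw [List.map_cons, sm_cons, sm_cons, ih, phi_val, Matrix.mul_add,
      Matrix.add_mul]

/-- a letter fixed by the projection `S Sᴴ` comes from a letter -/
theorem exists_phi {S : Matrix (Fin N) (Fin n) K} (hS : Sᴴ * S = 1) (P : Ln K N)
    (hP : S * Sᴴ * P.1 = P.1) : ∃ Q : Ln K n, phi hS Q = P := by
  obtain ⟨P, x, h1, rfl⟩ := P
  simp only at hP
  have hx : S *ᵥ (Sᴴ *ᵥ x) = x := by
    have hPx : (vecMulVec x (star x)) *ᵥ x = x := by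
      rw [vecMulVec_mulVec, h1, op_smul_eq_smul, one_smul]
    have := congrArg (fun M : Matrix (Fin N) (Fin N) K => M *ᵥ x) hP
    rw [← mulVec_mulVec, hPx, ← mulVec_mulVec] at this
    exact this
  have h2 : star (Sᴴ *ᵥ x) ⬝ᵥ (Sᴴ *ᵥ x) = 1 := by rw [← dot_mulVec hS, hx, h1]
  let Q : Ln K n := ⟨vecMulVec (Sᴴ *ᵥ x) (star (Sᴴ *ᵥ x)), Sᴴ *ᵥ x, h2, rfl⟩
  refine ⟨Q, Subtype.ext ?_⟩
  change S * vecMulVec (Sᴴ *ᵥ x) (star (Sᴴ *ᵥ x)) * Sᴴ = vecMulVec x (star x)
  rw [conj_vecMulVec, hx]

theorem ln_idem (P : Ln K n) : P.1 * P.1 = P.1 := by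
  obtain ⟨P, x, h1, rfl⟩ := P
  simp only
  rw [vecMulVec_mul_vecMulVec, h1]
  simp

theorem ln_star (P : Ln K n) : P.1ᴴ = P.1 := by
  obtain ⟨P, x, h1, rfl⟩ := P
  simp only
  rw [conjTranspose_vecMulVec, star_star]

theorem ln_comm {P Q : Ln K n} (h : P.1 * Q.1 = 0) : Q.1 * P.1 = 0 := by
  have := congrArg conjTranspose h
  rwa [conjTranspose_mul, ln_star, ln_star, conjTranspose_zero] at this

theorem mul_sm_zero {P : Ln K n} : ∀ (w : List (Ln K n)), (∀ b ∈ w, P.1 * b.1 = 0) →
    P.1 * sm w = 0 := by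
  intro w
  induction w with
  | nil => intro _; simp [sm]
  | cons a t ih =>
    intro h
    rw [sm_cons, Matrix.mul_add, ih (fun b hb => h b (List.mem_cons_of_mem _ hb)),
      h a List.mem_cons_self, add_zero]

theorem sm_mul_zero {P : Ln K n} (w : List (Ln K n)) (h : ∀ b ∈ w, P.1 * b.1 = 0) :
    sm w * P.1 = 0 := by
  induction w with
  | nil => simp [sm]
  | cons a t ih =>
    rw [sm_cons, Matrix.add_mul, ih (fun b hb => h b (List.mem_cons_of_mem _ hb)),
      ln_comm (h a List.mem_cons_self), add_zero]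

theorem sm_mul {w : List (Ln K n)} (hw : Orth w) {P : Ln K n} (hP : P ∈ w) :
    sm w * P.1 = P.1 := by
  induction w with
  | nil => exact absurd hP List.not_mem_nil
  | cons a t ih =>
    have hw' := List.pairwise_cons.1 hw
    rw [sm_cons, Matrix.add_mul]
    rcases List.mem_cons.1 hP with rfl | h
    · rw [ln_idem, sm_mul_zero t hw'.1, add_zero]
    · rw [hw'.1 P h, zero_add, ih hw'.2 h]

/-- orthogonality to a word only depends on its sum -/
theorem mul_eq_zero_of_sm {P : Ln K n} {g g' : List (Ln K n)} (hg' : Orth g')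
    (h : sm g' = sm g) (hP : ∀ b ∈ g, P.1 * b.1 = 0) : ∀ b ∈ g', P.1 * b.1 = 0 := by
  intro b hb
  rw [← sm_mul hg' hb, ← Matrix.mul_assoc, h, mul_sm_zero g hP, Matrix.zero_mul]

/-- an orthogonal word is given by the columns of an isometry -/
theorem exists_isometry {g : List (Ln K N)} (hn : g.length = n) (hO : Orth g) :
    ∃ S : Matrix (Fin N) (Fin n) K, Sᴴ * S = 1 ∧ S * Sᴴ = sm g := by
  subst hn
  have h1 : ∀ j : Fin g.length, ∃ v : Fin N → K, star v ⬝ᵥ v = 1 ∧
      (g.get j).1 = vecMulVec v (star v) := fun j => (g.get j).2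
  choose v hv2 hv1 using h1
  have horth : ∀ i j : Fin g.length, i < j → star (v i) ⬝ᵥ (v j) = 0 := by
    intro i j hij
    have h2 := (List.pairwise_iff_get.1 hO) i j hij
    rw [hv1, hv1] at h2
    have h3 : star (v i) ⬝ᵥ ((vecMulVec (v i) (star (v i)) *
        vecMulVec (v j) (star (v j))) *ᵥ (v j)) = 0 := by
      rw [h2, zero_mulVec, dotProduct_zero]
    have hB : (vecMulVec (v j) (star (v j))) *ᵥ v j = v j := by
      rw [vecMulVec_mulVec, hv2, op_smul_eq_smul, one_smul]
    rw [← mulVec_mulVec, hB, vecMulVec_mulVec, op_smul_eq_smul, dotProduct_smul, hv2,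
      smul_eq_mul, mul_one] at h3
    exact h3
  refine ⟨Matrix.of fun i j => v j i, ?_, ?_⟩
  · ext i j
    have hij : ((Matrix.of fun i j => v j i)ᴴ * (Matrix.of fun i j => v j i) :
        Matrix (Fin g.length) (Fin g.length) K) i j = star (v i) ⬝ᵥ (v j) := by
      simp [Matrix.mul_apply, dotProduct]
    rw [hij]
    rcases lt_trichotomy i j with h | h | h
    · rw [horth i j h, Matrix.one_apply_ne h.ne]
    · subst h
      rw [hv2, Matrix.one_apply_eq]
    · rw [← star_dot, horth j i h, star_zero, Matrix.one_apply_ne h.ne']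
  · have hsm : sm g = ∑ j : Fin g.length, vecMulVec (v j) (star (v j)) := by
      rw [← Finset.sum_congr rfl (fun j _ => hv1 j), sm]
      conv_lhs => rw [← List.ofFn_get g]
      rw [List.map_ofFn, List.sum_ofFn]
      rfl
    rw [hsm]
    ext a b
    simp [Matrix.mul_apply, vecMulVec_apply, Matrix.sum_apply]

/-- a frame of `K ^ n` sums up to the identity -/
theorem sm_eq_one {w : List (Ln K n)} (hn : w.length = n) (hO : Orth w) : sm w = 1 := by
  obtain ⟨S, h1, h2⟩ := exists_isometry hn hO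
  rw [← h2]
  exact mul_eq_one_comm.1 h1

/-- transport of frames along an isometry -/
theorem frames_range {S : Matrix (Fin N) (Fin n) K} (hS : Sᴴ * S = 1) (g : List (Ln K N)) :
    (g.length = n ∧ Orth g ∧ sm g = S * Sᴴ) ↔ g ∈ (Fr K n).image (List.map (phi hS)) := by
  rw [Finset.mem_image]
  constructor
  · rintro ⟨h1, h2, h3⟩
    have hfix : ∀ P ∈ g, S * Sᴴ * P.1 = P.1 := by
      intro P hP
      rw [← h3]
      exact sm_mul h2 hP
    obtain ⟨w, hw⟩ : ∃ w : List (Ln K n), w.map (phi hS) = g := by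
      clear h1 h2 h3
      induction g with
      | nil => exact ⟨[], rfl⟩
      | cons a t ih =>
        obtain ⟨w, hw⟩ := ih (fun l hl => hfix l (List.mem_cons_of_mem _ hl))
        obtain ⟨l, hl⟩ := exists_phi hS a (hfix a List.mem_cons_self)
        exact ⟨l :: w, by simp [hw, hl]⟩
    have hlen : w.length = g.length := by rw [← hw, List.length_map]
    refine ⟨w, mem_Fr K |>.2 ⟨hlen.trans h1, ?_⟩, hw⟩
    rw [← orth_map hS, hw]
    exact h2
  · rintro ⟨w, hw, rfl⟩
    obtain ⟨h1, h2⟩ := (mem_Fr K).1 hw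
    refine ⟨by rw [List.length_map, h1], (orth_map hS w).2 h2, ?_⟩
    rw [sm_map, sm_eq_one h1 h2, Matrix.mul_one]

theorem orth_append {u g : List (Ln K n)} : Orth (u ++ g) ↔
    Orth u ∧ Orth g ∧ ∀ a ∈ u, ∀ b ∈ g, a.1 * b.1 = 0 := by
  rw [Orth, List.pairwise_append]
  rfl

/-- the words with the same completions as `g` -/
theorem mem_cls_Fr {g g' : List (Ln K N)} (hw : ∃ w, w ++ g ∈ Fr K N) :
    g' ∈ cls (Fr K N) g ↔ g'.length = g.length ∧ Orth g' ∧ sm g' = sm g := by
  rw [mem_cls]
  constructor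
  · rintro ⟨h1, h2⟩
    obtain ⟨w, hw⟩ := hw
    have hw' := (h2 w).2 hw
    obtain ⟨a1, a2⟩ := (mem_Fr K).1 hw
    obtain ⟨b1, b2⟩ := (mem_Fr K).1 hw'
    refine ⟨h1, (orth_append.1 b2).2.1, ?_⟩
    have e1 := sm_eq_one a1 a2
    have e2 := sm_eq_one b1 b2
    rw [sm_append] at e1 e2
    rw [← e1] at e2
    exact add_left_cancel e2
  · rintro ⟨h1, h2, h3⟩
    obtain ⟨w0, hw0⟩ := hw
    have hg : Orth g := (orth_append.1 ((mem_Fr K).1 hw0).2).2.1
    refine ⟨h1, fun w => ?_⟩
    rw [mem_Fr, mem_Fr, List.length_append, List.length_append, h1, orth_append, orth_append]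
    constructor
    · rintro ⟨c1, c2, _, c4⟩
      exact ⟨c1, c2, hg, fun a ha => mul_eq_zero_of_sm hg h3.symm (c4 a ha)⟩
    · rintro ⟨c1, c2, _, c4⟩
      exact ⟨c1, c2, h2, fun a ha => mul_eq_zero_of_sm h2 h3 (c4 a ha)⟩

/-- the frames of the space spanned by `g`, `|g| = n`, are the images of the frames of `K ^ n` -/
theorem cls_Fr {g : List (Ln K N)} (hg : g.length = n) (hw : ∃ w, w ++ g ∈ Fr K N) :
    ∃ f : Ln K n → Ln K N, Function.Injective f ∧
      cls (Fr K N) g = (Fr K n).image (List.map f) := by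
  obtain ⟨w0, hw0⟩ := id hw
  have hO : Orth g := (orth_append.1 ((mem_Fr K).1 hw0).2).2.1
  obtain ⟨S, h1, h2⟩ := exists_isometry hg hO
  refine ⟨phi h1, phi_inj h1, ?_⟩
  ext g'
  rw [mem_cls_Fr hw, ← frames_range h1, hg, h2]

/-- M2b for every star ring structure -/
theorem m2b {g : List (Ln K N)} (hg : g.length = n) (hw : ∃ w, w ++ g ∈ Fr K N) :
    (cls (Fr K N) g).card = (Fr K n).card ∧ t (cls (Fr K N) g) = t (Fr K n) := by
  obtain ⟨f, hf, h⟩ := cls_Fr hg hw
  rw [h]
  exact ⟨Finset.card_image_of_injective _ (List.map_injective_iff.2 hf), t_map hf _⟩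

end iso

theorem stmtM2b : StmtM2b.{u} := by
  intro K _ _ _ _ _ _ _ N n g hg hw
  exact m2b hg hw

end

end Vale.Agent.P240.R2.H472
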