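import Vale.Agent.P240.R2.H472.OW0

/-!
Orthogonal Wigner (P240, R6, part A): maps of the set of lines of square value of `K ^ n`, trivial
star, `n ≥ 5`, `tr (f P * f Q) = κ (tr (P * Q))`, are semilinear.
-/

set_option autoImplicit false
set_option linter.unusedSectionVars false

namespace Vale.Agent.P240.R2.H472

open Matrix Finset
open Vale.Agent.P240.R2.AS
open Vale.Agent.P240.R2.H744 (E E_val Ln_star Ln_mul Ln_trace Ln_zero Ln_zero' trace_E trace_two)
open scoped Classical

universe u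

section

variable {K : Type u} [Field K] [Fintype K] [StarRing K] {m : ℕ}

/-- the letter of a unit vector, trivial star -/
def lv {n : ℕ} (hs : ∀ x : K, star x = x) (x : Fin n → K) (hx : x ⬝ᵥ x = 1) : Ln K n :=
  ⟨vecMulVec x x, x, by rwa [show star x = x from funext fun i => hs (x i)],
    by rw [show star x = x from funext fun i => hs (x i)]⟩

lemma lv_apply {n : ℕ} (hs : ∀ x : K, star x = x) (x : Fin n → K) (hx : x ⬝ᵥ x = 1)
    (i j : Fin n) : (lv hs x hx).1 i j = x i * x j := rfl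

lemma exists_lv {n : ℕ} (hs : ∀ x : K, star x = x) (P : Ln K n) :
    ∃ (x : Fin n → K) (hx : x ⬝ᵥ x = 1), P = lv hs x hx := by
  obtain ⟨P, x, hx, h⟩ := P
  have hsx : star x = x := funext fun i => hs (x i)
  refine ⟨x, by rwa [hsx] at hx, Subtype.ext ?_⟩
  change P = vecMulVec x x
  rw [h, hsx]

lemma Ln_symm {n : ℕ} (hs : ∀ x : K, star x = x) (P : Ln K n) (i j : Fin n) :
    P.1 i j = P.1 j i := by
  rw [← Ln_star P j i, hs]

/-- the trace of a product with support on one index -/
lemma trace_one {n : ℕ} (A B : Matrix (Fin n) (Fin n) K) (i₀ : Fin n)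
    (h : ∀ i, i ≠ i₀ → (∀ j, A i j = 0 ∧ A j i = 0) ∨ (∀ j, B i j = 0 ∧ B j i = 0)) :
    (A * B).trace = A i₀ i₀ * B i₀ i₀ := by
  rw [Matrix.trace]
  simp only [Matrix.diag_apply, Matrix.mul_apply]
  rw [Finset.sum_eq_single i₀, Finset.sum_eq_single i₀]
  · intro j _ hj
    rcases h j hj with h | h
    · rw [(h i₀).2, zero_mul]
    · rw [(h i₀).1, mul_zero]
  · intro hh
    exact absurd (Finset.mem_univ _) hh
  · intro i _ hi
    refine Finset.sum_eq_zero fun j _ => ?_
    rcases h i hi with h | h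
    · rw [(h j).1, zero_mul]
    · rw [(h j).2, mul_zero]
  · intro hh
    exact absurd (Finset.mem_univ _) hh

/-- the vector with five given coordinates -/
def v5 (a b c d e : K) : Fin (m + 1 + 1 + 1 + 1 + 1) → K :=
  vecCons a (vecCons b (vecCons c (vecCons d (vecCons e (0 : Fin m → K)))))

lemma v5_dot (a b c d e a' b' c' d' e' : K) :
    v5 (m := m) a b c d e ⬝ᵥ v5 a' b' c' d' e' = a * a' + b * b' + c * c' + d * d' + e * e' := by
  simp only [v5, cons_dotProduct_cons, zero_dotProduct, add_zero]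
  ring

lemma sum_v5 (g : K → K) (hg : g 0 = 0) (a b c d e : K) :
    ∑ i, g (v5 (m := m) a b c d e i) = g a + g b + g c + g d + g e := by
  simp only [v5, Fin.sum_univ_succ, cons_val_zero, cons_val_succ, Pi.zero_apply, hg,
    Finset.sum_const_zero]
  ring

variable {f : Ln K (m + 1 + 1 + 1 + 1 + 1) → Ln K (m + 1 + 1 + 1 + 1 + 1)} {κ : K → K}

lemma f_diag (hf : ∀ P Q : Ln K (m + 1 + 1 + 1 + 1 + 1),
      ((f P).1 * (f Q).1).trace = κ (P.1 * Q.1).trace)
    (hE : ∀ i, (f (E i)).1 = Matrix.single i i 1) (P : Ln K (m + 1 + 1 + 1 + 1 + 1))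
    (i : Fin (m + 1 + 1 + 1 + 1 + 1)) : (f P).1 i i = κ (P.1 i i) := by
  have h := hf P (E i)
  rwa [hE, E_val, trace_E, trace_E] at h

lemma kap_zero (hf : ∀ P Q : Ln K (m + 1 + 1 + 1 + 1 + 1),
      ((f P).1 * (f Q).1).trace = κ (P.1 * Q.1).trace)
    (hE : ∀ i, (f (E i)).1 = Matrix.single i i 1) : κ 0 = 0 := by
  have h := f_diag hf hE (E 0) 1
  rw [hE, E_val] at h
  simpa using h.symm

lemma kap_one (hf : ∀ P Q : Ln K (m + 1 + 1 + 1 + 1 + 1),
      ((f P).1 * (f Q).1).trace = κ (P.1 * Q.1).trace)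
    (hE : ∀ i, (f (E i)).1 = Matrix.single i i 1) : κ 1 = 1 := by
  have h := f_diag hf hE (E 0) 0
  rw [hE, E_val] at h
  simpa using h.symm

/-- the sum relation -/
lemma kap_sum (hs : ∀ x : K, star x = x) (hf : ∀ P Q : Ln K (m + 1 + 1 + 1 + 1 + 1),
      ((f P).1 * (f Q).1).trace = κ (P.1 * Q.1).trace)
    (hE : ∀ i, (f (E i)).1 = Matrix.single i i 1) {a b c d e : K}
    (h : a * a + b * b + c * c + d * d + e * e = 1) :
    κ (a * a) + κ (b * b) + κ (c * c) + κ (d * d) + κ (e * e) = 1 := by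
  have h1 : v5 (m := m) a b c d e ⬝ᵥ v5 a b c d e = 1 := by rw [v5_dot, h]
  have h2 := Ln_trace (f (lv hs _ h1))
  rw [Matrix.trace] at h2
  simp only [Matrix.diag_apply, f_diag hf hE, lv_apply] at h2
  rw [← h2]
  exact (sum_v5 (m := m) (fun x => κ (x * x)) (by simp only [mul_zero]; exact kap_zero hf hE)
    a b c d e).symm

/-- multiplicativity on squares -/
lemma kap_mul (hs : ∀ x : K, star x = x) (h2 : (2 : K) ≠ 0)
    (hf : ∀ P Q : Ln K (m + 1 + 1 + 1 + 1 + 1),
      ((f P).1 * (f Q).1).trace = κ (P.1 * Q.1).trace)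
    (hE : ∀ i, (f (E i)).1 = Matrix.single i i 1) (a c : K) :
    κ (a * a * (c * c)) = κ (a * a) * κ (c * c) := by
  obtain ⟨b1, b2, hb⟩ := two_sq h2 (1 - a * a)
  obtain ⟨d1, d2, hd⟩ := two_sq h2 (1 - c * c)
  have hx : v5 (m := m) a b1 b2 0 0 ⬝ᵥ v5 a b1 b2 0 0 = 1 := by
    rw [v5_dot]
    linear_combination hb
  have hz : v5 (m := m) c 0 0 d1 d2 ⬝ᵥ v5 c 0 0 d1 d2 = 1 := by
    rw [v5_dot]
    linear_combination hd
  have hsupp : ∀ i : Fin (m + 1 + 1 + 1 + 1 + 1), i ≠ 0 → v5 (m := m) a b1 b2 0 0 i = 0 ∨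
      v5 (m := m) c 0 0 d1 d2 i = 0 := by
    intro i
    refine Fin.cases (fun h => absurd rfl h) (fun i _ => ?_) i
    simp only [v5, cons_val_succ]
    refine Fin.cases (Or.inr (by simp)) (fun i => ?_) i
    simp only [cons_val_succ]
    refine Fin.cases (Or.inr (by simp)) (fun i => ?_) i
    simp only [cons_val_succ]
    refine Fin.cases (Or.inl (by simp)) (fun i => ?_) i
    simp only [cons_val_succ]
    refine Fin.cases (Or.inl (by simp)) (fun i => ?_) i
    simp
  have h3 := hf (lv hs _ hx) (lv hs _ hz)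
  rw [trace_one _ _ 0, trace_one _ _ 0, f_diag hf hE, f_diag hf hE, lv_apply, lv_apply] at h3
  · exact h3.symm
  · intro i hi
    rcases hsupp i hi with h | h
    · left
      intro j
      rw [lv_apply, lv_apply, h]
      simp
    · right
      intro j
      rw [lv_apply, lv_apply, h]
      simp
  · intro i hi
    rcases hsupp i hi with h | h
    · left
      have h5 : (f (lv hs _ hx)).1 i i = 0 := by
        rw [f_diag hf hE, lv_apply, h, mul_zero, kap_zero hf hE]
      exact fun j => ⟨Ln_zero _ h5 j, Ln_zero' _ h5 j⟩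
    · right
      have h5 : (f (lv hs _ hz)).1 i i = 0 := by
        rw [f_diag hf hE, lv_apply, h, mul_zero, kap_zero hf hE]
      exact fun j => ⟨Ln_zero _ h5 j, Ln_zero' _ h5 j⟩

/-- additivity -/
lemma kap_four (hs : ∀ x : K, star x = x) (h2 : (2 : K) ≠ 0) (h4 : 3 < Fintype.card K)
    (hf : ∀ P Q : Ln K (m + 1 + 1 + 1 + 1 + 1),
      ((f P).1 * (f Q).1).trace = κ (P.1 * Q.1).trace)
    (hE : ∀ i, (f (E i)).1 = Matrix.single i i 1) {a b c d g h : K}
    (hh : a * a + b * b + c * c + d * d = g * g + h * h) :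
    κ (a * a) + κ (b * b) + κ (c * c) + κ (d * d) = κ (g * g) + κ (h * h) := by
  obtain ⟨t, e, ht, hte⟩ := exists_scale h2 h4 (g * g + h * h)
  have e1 := kap_sum hs hf hE (a := t * a) (b := t * b) (c := t * c) (d := t * d) (e := e)
    (by linear_combination hte + t * t * hh)
  have e2 := kap_sum hs hf hE (a := t * g) (b := t * h) (c := 0) (d := 0) (e := e)
    (by linear_combination hte)
  have hk : ∀ x : K, κ (t * x * (t * x)) = κ (t * t) * κ (x * x) := by
    intro x
    rw [← kap_mul hs h2 hf hE]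
    congr 1
    ring
  have hk0 : κ (t * t) ≠ 0 := by
    intro h0
    have h1 := hk t⁻¹
    rw [mul_inv_cancel₀ ht, mul_one, kap_one hf hE, h0, zero_mul] at h1
    exact one_ne_zero h1
  rw [hk, hk, hk, hk] at e1
  rw [hk, hk, mul_zero, kap_zero hf hE] at e2
  apply mul_left_cancel₀ hk0
  linear_combination e1 - e2

/-- the field automorphism -/
theorem exists_sigma (hs : ∀ x : K, star x = x) (h2 : (2 : K) ≠ 0) (h4 : 3 < Fintype.card K)
    (hf : ∀ P Q : Ln K (m + 1 + 1 + 1 + 1 + 1),
      ((f P).1 * (f Q).1).trace = κ (P.1 * Q.1).trace)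
    (hE : ∀ i, (f (E i)).1 = Matrix.single i i 1) :
    ∃ s : K ≃+* K, ∀ a : K, κ (a * a) = s (a * a) := by
  choose A B hAB using two_sq (K := K) h2
  have h0 := kap_zero hf hE
  have h1 := kap_one hf hE
  have four := fun {a b c d g h : K} => kap_four hs h2 h4 hf hE (a := a) (b := b) (c := c)
    (d := d) (g := g) (h := h)
  have two : ∀ a b : K, κ (A (a * a + b * b) * A (a * a + b * b)) +
      κ (B (a * a + b * b) * B (a * a + b * b)) = κ (a * a) + κ (b * b) := by
    intro a b
    have := four (a := a) (b := b) (c := 0) (d := 0) (g := A (a * a + b * b))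
      (h := B (a * a + b * b)) (by rw [hAB]; ring)
    rw [← this, mul_zero, h0]
    ring
  have sg : ∀ a : K, κ (A (a * a) * A (a * a)) + κ (B (a * a) * B (a * a)) = κ (a * a) := by
    intro a
    have := two a 0
    rw [mul_zero, add_zero, h0, add_zero] at this
    exact this
  have add : ∀ s t : K, κ (A (s + t) * A (s + t)) + κ (B (s + t) * B (s + t)) =
      (κ (A s * A s) + κ (B s * B s)) + (κ (A t * A t) + κ (B t * B t)) := by
    intro s t
    rw [← four (a := A s) (b := B s) (c := A t) (d := B t) (by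
      linear_combination hAB s + hAB t - hAB (s + t))]
    ring
  let σ : K →+* K :=
    { toFun := fun s => κ (A s * A s) + κ (B s * B s)
      map_zero' := by
        have := sg 0
        rw [mul_zero, h0] at this
        exact this
      map_one' := by
        have := sg 1
        rw [mul_one, h1] at this
        exact this
      map_add' := add
      map_mul' := by
        intro s t
        have e1 : s * t = ((A s * A t) * (A s * A t) + (A s * B t) * (A s * B t)) +
            ((B s * A t) * (B s * A t) + (B s * B t) * (B s * B t)) := by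
          conv_lhs => rw [← hAB s, ← hAB t]
          ring
        have e2 : ∀ x y : K, κ (x * y * (x * y)) = κ (x * x) * κ (y * y) := by
          intro x y
          rw [← kap_mul hs h2 hf hE]
          congr 1
          ring
        have e3 := add ((A s * A t) * (A s * A t) + (A s * B t) * (A s * B t))
          ((B s * A t) * (B s * A t) + (B s * B t) * (B s * B t))
        rw [← e1, two, two, e2, e2, e2, e2] at e3
        rw [e3]
        ring }
  have hσ : Function.Bijective σ := Finite.injective_iff_bijective.1 σ.injective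
  exact ⟨RingEquiv.ofBijective σ hσ, fun a => (sg a).symm⟩

/-- **orthogonal Wigner** for `Fin (m + 5)` -/
theorem wigner_o' (hs : ∀ x : K, star x = x) (h2 : (2 : K) ≠ 0) (h6 : 5 < Fintype.card K)
    (hf : ∀ P Q : Ln K (m + 1 + 1 + 1 + 1 + 1),
      ((f P).1 * (f Q).1).trace = κ (P.1 * Q.1).trace)
    (hE : ∀ i, (f (E i)).1 = Matrix.single i i 1) :
    ∃ (s : K ≃+* K) (c : Fin (m + 1 + 1 + 1 + 1 + 1) → K), (∀ i, c i * c i = 1) ∧
      ∀ P, (f P).1 = diagonal c * P.1.map s * diagonal c := by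
  obtain ⟨s, hsκ⟩ := exists_sigma hs h2 (by omega) hf hE
  obtain ⟨a, b, ha, hb, hab⟩ := exists_pt (K := K) h2 h6
  obtain ⟨u, hu, hu1⟩ := exists_full (K := K) h2 h6 (m + 1 + 1 + 1 + 1)
  have hsq : ∀ (P : Ln K (m + 1 + 1 + 1 + 1 + 1)) i, (f P).1 i i = s (P.1 i i) := by
    intro P i
    obtain ⟨x, hx, rfl⟩ := exists_lv hs P
    rw [f_diag hf hE, lv_apply, hsκ]
  have htr : ∀ P Q : Ln K (m + 1 + 1 + 1 + 1 + 1),
      ((f P).1 * (f Q).1).trace = s (P.1 * Q.1).trace := by
    intro P Q
    rw [hf]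
    obtain ⟨x, hx, rfl⟩ := exists_lv hs P
    obtain ⟨z, hz, rfl⟩ := exists_lv hs Q
    have h3 : ((lv hs x hx).1 * (lv hs z hz).1).trace = (x ⬝ᵥ z) * (x ⬝ᵥ z) := by
      change (vecMulVec x x * vecMulVec z z).trace = _
      rw [vecMulVec_mul_vecMulVec, vecMulVec_smul, trace_smul, trace_vecMulVec, smul_eq_mul]
    rw [h3, hsκ]
  -- pairs of indices
  have hpair : ∀ (i j : Fin (m + 1 + 1 + 1 + 1 + 1)), i ≠ j → ∃ Z : Ln K (m + 1 + 1 + 1 + 1 + 1),
      Z.1 i j = a * b ∧ ∀ k, k ≠ i → k ≠ j → Z.1 k k = 0 := by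
    intro i j hij
    have hz : (a • Pi.single i 1 + b • Pi.single j 1 : Fin (m + 1 + 1 + 1 + 1 + 1) → K) ⬝ᵥ
        (a • Pi.single i 1 + b • Pi.single j 1) = 1 := by
      simp only [add_dotProduct, dotProduct_add, smul_dotProduct, dotProduct_smul,
        single_dotProduct, smul_eq_mul, Pi.single_eq_same, Pi.single_eq_of_ne hij,
        Pi.single_eq_of_ne (Ne.symm hij)]
      linear_combination hab
    refine ⟨lv hs _ hz, ?_, ?_⟩
    · rw [lv_apply]
      simp [Pi.single_eq_of_ne hij, Pi.single_eq_of_ne (Ne.symm hij)]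
    · intro k hki hkj
      rw [lv_apply]
      simp [Pi.single_eq_of_ne hki, Pi.single_eq_of_ne hkj]
  have key : ∀ (P Z : Ln K (m + 1 + 1 + 1 + 1 + 1)) (i j : Fin (m + 1 + 1 + 1 + 1 + 1)), i ≠ j →
      (∀ k, k ≠ i → k ≠ j → Z.1 k k = 0) → (f P).1 i j * (f Z).1 i j = s (P.1 i j * Z.1 i j) := by
    intro P Z i j hij hZ
    have h5 : ∀ k, k ≠ i → k ≠ j → (f Z).1 k k = 0 := fun k h1 h3 => by
      rw [hsq, hZ k h1 h3, map_zero]
    have h3 := htr P Z
    rw [trace_two _ _ hij (fun k h1 h3 l => Ln_zero _ (h5 k h1 h3) l)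
      (fun k h1 h3 l => Ln_zero' _ (h5 k h1 h3) l),
      trace_two _ _ hij (fun k h1 h3 l => Ln_zero _ (hZ k h1 h3) l)
      (fun k h1 h3 l => Ln_zero' _ (hZ k h1 h3) l)] at h3
    rw [hsq, hsq, hsq, hsq, Ln_symm hs (f P) j i, Ln_symm hs (f Z) j i, Ln_symm hs P j i,
      Ln_symm hs Z j i] at h3
    simp only [map_add, map_mul] at h3 ⊢
    have h2' : (2 : K) * ((f P).1 i j * (f Z).1 i j - s (P.1 i j) * s (Z.1 i j)) = 0 := by
      linear_combination h3
    rcases mul_eq_zero.1 h2' with h | h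
    · exact absurd h h2
    · exact sub_eq_zero.1 h
  -- the signs
  obtain ⟨y, hy, hfu⟩ := exists_lv hs (f (lv hs u hu1))
  have hyy : ∀ i, y i * y i = s (u i) * s (u i) := by
    intro i
    have h3 := hsq (lv hs u hu1) i
    rw [hfu, lv_apply, lv_apply, map_mul] at h3
    exact h3
  have hsu : ∀ i, s (u i) ≠ 0 := fun i h => hu i (by
    rw [← map_zero s] at h
    exact s.injective h)
  refine ⟨s, fun i => y i / s (u i), fun i => ?_, fun P => ?_⟩
  · rw [div_mul_div_comm, hyy, div_self (mul_ne_zero (hsu i) (hsu i))]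
  · ext i j
    rw [mul_diagonal, diagonal_mul, Matrix.map_apply]
    by_cases hij : i = j
    · subst hij
      rw [hsq]
      have h3 : y i / s (u i) * (y i / s (u i)) = 1 := by
        rw [div_mul_div_comm, hyy, div_self (mul_ne_zero (hsu i) (hsu i))]
      linear_combination (-s (P.1 i i)) * h3
    · obtain ⟨Z, hZ1, hZ2⟩ := hpair i j hij
      have e1 := key (lv hs u hu1) Z i j hij hZ2
      have e2 := key P Z i j hij hZ2
      rw [hfu, lv_apply, lv_apply, hZ1] at e1
      rw [hZ1] at e2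
      have hZ0 : (f Z).1 i j ≠ 0 := by
        intro h
        rw [h, mul_zero, eq_comm, ← map_zero s] at e1
        have := s.injective e1
        simp only [mul_eq_zero] at this
        rcases this with (h | h) | (h | h)
        · exact hu i h
        · exact hu j h
        · exact ha h
        · exact hb h
      apply mul_right_cancel₀ hZ0
      rw [e2]
      rw [map_mul, map_mul] at e1
      have hi := hsu i
      have hj := hsu j
      have hyi := hyy i
      have hyj := hyy j
      have hyj0 : y j ≠ 0 := fun h => by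
        rw [h, mul_zero] at hyj
        exact mul_ne_zero hj hj hyj.symm
      have hyi0 : y i ≠ 0 := fun h => by
        rw [h, mul_zero] at hyi
        exact mul_ne_zero hi hi hyi.symm
      have e3 : (y i / s (u i)) * (y j / s (u j)) * (f Z).1 i j = s (a * b) := by
        rw [div_mul_div_comm, div_mul_eq_mul_div, e1, mul_div_assoc, mul_comm, div_mul_cancel₀]
        exact mul_ne_zero hi hj
      rw [map_mul]
      linear_combination (-s (P.1 i j)) * e3

/-- **orthogonal Wigner** -/
theorem wigner_o {n : ℕ} (hn : 5 ≤ n) (hs : ∀ x : K, star x = x) (h2 : (2 : K) ≠ 0)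
    (h6 : 5 < Fintype.card K) (f : Ln K n → Ln K n) (κ : K → K)
    (hf : ∀ P Q : Ln K n, ((f P).1 * (f Q).1).trace = κ (P.1 * Q.1).trace)
    (hE : ∀ i, (f (E i)).1 = Matrix.single i i 1) :
    ∃ (s : K ≃+* K) (c : Fin n → K), (∀ i, c i * c i = 1) ∧
      ∀ P : Ln K n, (f P).1 = diagonal c * P.1.map s * diagonal c := by
  obtain ⟨m, rfl⟩ : ∃ m, n = m + 1 + 1 + 1 + 1 + 1 := ⟨n - 5, by omega⟩
  exact wigner_o' hs h2 h6 hf hE

end

end Vale.Agent.P240.R2.H472
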