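import Vale.Agent.P240.R2.H296.StmtsO
import Vale.Agent.P240.R2.H221.B3
import Vale.Agent.P240.R2.H472.OW

/-! `StmtO8`: the centralizer of `Ω_n(q)` in `PΓO_n(q)` is trivial, `n ≥ 3` odd. -/

set_option autoImplicit false
set_option linter.unusedSectionVars false

namespace Vale.Agent.P240.R2.H472

open Matrix Subgroup
open Vale.Agent.P240.R2.AS
open Vale.Agent.P240.R2.H744 (E E_val)
open scoped Classical

universe u

noncomputable section

variable {K : Type u} [Field K] [StarRing K] {n : ℕ}

/-- conjugation by an element of `PΓU` -/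
theorem conj_inl' (X : PGamU K n) (y : PGU K n) :
    X * SemidirectProduct.inl y * X⁻¹ =
      SemidirectProduct.inl (X.left * act n X.right y * X.left⁻¹) := by
  conv_lhs => rw [← SemidirectProduct.inl_left_mul_inr_right X]
  rw [map_mul, map_mul, SemidirectProduct.inl_aut, map_inv, map_inv, _root_.mul_inv_rev]
  simp only [mul_assoc]

/-- a vector orthogonal to two vectors -/
theorem exists_orth (hn : 3 ≤ n) (x v : Fin n → K) :
    ∃ w : Fin n → K, w ≠ 0 ∧ x ⬝ᵥ w = 0 ∧ v ⬝ᵥ w = 0 := by
  let A : Matrix (Fin 2) (Fin n) K := Matrix.of ![x, v]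
  have h1 : LinearMap.ker A.mulVecLin ≠ ⊥ := by
    apply LinearMap.ker_ne_bot_of_finrank_lt
    rw [Module.finrank_fin_fun, Module.finrank_fin_fun]
    omega
  obtain ⟨w, hw, hw0⟩ := Submodule.exists_mem_ne_zero_of_ne_bot h1
  rw [LinearMap.mem_ker, Matrix.mulVecLin_apply] at hw
  exact ⟨w, hw0, congrFun hw 0, congrFun hw 1⟩

/-- a semilinear map that fixes all letters of square value is trivial -/
theorem fix_letters [Fintype K] (hs : ∀ x : K, star x = x) (h2 : (2 : K) ≠ 0)
    (h6 : 5 < Fintype.card K) (hn : 3 ≤ n) (g : GU K n) (σ : K ≃+* K)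
    (h : ∀ P : Ln K n, g.1 * P.1.map σ * star g.1 = P.1) :
    σ = RingEquiv.refl K ∧ ∃ t : K, g.1 = t • (1 : Matrix (Fin n) (Fin n) K) := by
  have hst : ∀ i j, (star g.1) i j = g.1 j i := fun i j => by rw [star_apply, hs]
  have hE : ∀ i : Fin n, g.1 * Matrix.single i i 1 * star g.1 = Matrix.single i i 1 := by
    intro i
    have h1 := h (E i)
    rwa [E_val, Matrix.map_single _ _ _ σ, map_one] at h1
  have hent : ∀ i j k : Fin n, g.1 j i * g.1 k i = Matrix.single i i (1 : K) j k := by
    intro i j k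
    rw [← hE i, Matrix.mul_apply, Finset.sum_eq_single i]
    · rw [Matrix.mul_single_apply_same, hst, mul_one]
    · intro l _ hl
      rw [Matrix.mul_single_apply_of_ne _ _ _ _ _ hl, zero_mul]
    · intro hh
      exact absurd (Finset.mem_univ _) hh
  have hoff : ∀ i j : Fin n, j ≠ i → g.1 j i = 0 := by
    intro i j hij
    have h1 := hent i j j
    rw [Matrix.single_apply_of_ne _ _ _ _ _ (by simp [Ne.symm hij])] at h1
    exact mul_self_eq_zero.1 h1
  have hdi : ∀ i : Fin n, g.1 i i * g.1 i i = 1 := by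
    intro i
    rw [hent, Matrix.single_apply_same]
  have hP : ∀ (P : Ln K n) (i j : Fin n), g.1 i i * σ (P.1 i j) * g.1 j j = P.1 i j := by
    intro P i j
    conv_rhs => rw [← h P]
    rw [Matrix.mul_apply, Finset.sum_eq_single j, Matrix.mul_apply, Finset.sum_eq_single i,
      hst, Matrix.map_apply]
    · intro l _ hl
      rw [hoff _ _ (Ne.symm hl), zero_mul]
    · intro hh
      exact absurd (Finset.mem_univ _) hh
    · intro l _ hl
      rw [hst, hoff _ _ (Ne.symm hl), mul_zero]
    · intro hh
      exact absurd (Finset.mem_univ _) hh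
  have hsq : ∀ a : K, σ (a * a) = a * a := by
    intro a
    obtain ⟨m, rfl⟩ : ∃ m, n = m + 1 + 1 + 1 := ⟨n - 3, by omega⟩
    obtain ⟨b, c, hbc⟩ := two_sq h2 (1 - a * a)
    have hx : (vecCons a (vecCons b (vecCons c (0 : Fin m → K)))) ⬝ᵥ
        (vecCons a (vecCons b (vecCons c (0 : Fin m → K)))) = 1 := by
      simp only [cons_dotProduct_cons, zero_dotProduct, add_zero]
      linear_combination hbc
    have h1 := hP (lv hs _ hx) 0 0
    rw [lv_apply, cons_val_zero] at h1
    linear_combination h1 - σ (a * a) * hdi 0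
  have hσ : ∀ x : K, σ x = x := by
    intro x
    obtain ⟨a, b, rfl⟩ := two_sq h2 x
    rw [map_add, hsq, hsq]
  refine ⟨RingEquiv.ext hσ, ?_⟩
  obtain ⟨a, b, ha, hb, hab⟩ := exists_pt (K := K) h2 h6
  have hpair : ∀ i j : Fin n, i ≠ j → g.1 i i * g.1 j j = 1 := by
    intro i j hij
    have hz : (a • Pi.single i 1 + b • Pi.single j 1 : Fin n → K) ⬝ᵥ
        (a • Pi.single i 1 + b • Pi.single j 1) = 1 := by
      simp only [add_dotProduct, dotProduct_add, smul_dotProduct, dotProduct_smul,
        single_dotProduct, smul_eq_mul, Pi.single_eq_same, Pi.single_eq_of_ne hij,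
        Pi.single_eq_of_ne (Ne.symm hij)]
      linear_combination hab
    have h1 := hP (lv hs _ hz) i j
    have h3 : (lv hs _ hz).1 i j = a * b := by
      rw [lv_apply]
      simp [Pi.single_eq_of_ne hij, Pi.single_eq_of_ne (Ne.symm hij)]
    rw [h3, hσ] at h1
    apply mul_left_cancel₀ (mul_ne_zero ha hb)
    linear_combination h1
  refine ⟨g.1 ⟨0, by omega⟩ ⟨0, by omega⟩, ?_⟩
  have hd : ∀ i : Fin n, g.1 i i = g.1 ⟨0, by omega⟩ ⟨0, by omega⟩ := by
    intro i
    by_cases hi : i = ⟨0, by omega⟩
    · rw [hi]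
    · have h1 := hpair i _ hi
      have h3 := hdi ⟨0, by omega⟩
      linear_combination g.1 ⟨0, by omega⟩ ⟨0, by omega⟩ * h1 - g.1 i i * h3
  ext i j
  rw [Matrix.smul_apply, smul_eq_mul]
  by_cases hij : i = j
  · subst hij
    rw [Matrix.one_apply_eq, mul_one, hd]
  · rw [Matrix.one_apply_ne hij, mul_zero, hoff j i hij]

theorem stmtO8 : StmtO8.{u} := by
  intro K _ _ _ hs ho h7 n hno hn y hy
  have h2 : (2 : K) ≠ 0 := H221.two_ne ho
  have h6 : 5 < Fintype.card K := by
    rw [← Nat.card_eq_fintype_card]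
    omega
  have hm1 : (-1 : K) ≠ 1 := by
    intro h
    apply h2
    linear_combination -h
  have hm2 : (-1 : K) * star (-1) = 1 := by rw [hs]; ring
  obtain ⟨g, hg⟩ := QuotientGroup.mk_surjective y.left
  have key : ∀ P : Ln K n, g.1 * P.1.map y.right.1 * star g.1 = P.1 := by
    intro P
    have horth : Orth [P] := List.pairwise_singleton _ _
    have hmem : (SemidirectProduct.inl (eW (-1 : K) [P]) : PGamU K n) ∈ Om K n :=
      ⟨_, H221.stmtB3 K hs ho n hno [P] horth, rfl⟩
    have h1 := hy _ hmem
    have h3 : y * SemidirectProduct.inl (eW (-1 : K) [P]) * y⁻¹ =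
        SemidirectProduct.inl (eW (-1 : K) [P]) := by
      rw [h1, mul_inv_cancel_right]
    rw [conj_inl'] at h3
    have h4 := SemidirectProduct.inl_injective h3
    rw [← hg] at h4
    have h5 : (QuotientGroup.mk (g * mapGU y.right (eU (-1 : K) (sm [P])) * g⁻¹) : PGU K n) =
        QuotientGroup.mk (eU (-1 : K) (sm [P])) := h4
    have hcond : star (sm [P]) = sm [P] ∧ sm [P] * sm [P] = sm [P] ∧ (-1 : K) * star (-1) = 1 := by
      have := H221.orth_cond horth
      exact ⟨this.1, this.2, hm2⟩
    have hsm : sm [P] = P.1 := by simp [sm]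
    have hval : (eU (-1 : K) (sm [P])).1 = 1 + ((-1 : K) - 1) • P.1 := by
      unfold eU
      rw [dif_pos hcond]
      simp only
      rw [hsm]
    have h6' := QuotientGroup.eq.1 h5
    rw [H296.mem_center_iff hm1 hm2] at h6'
    obtain ⟨c, hc⟩ := h6'
    -- the matrix equation
    have h7' : (eU (-1 : K) (sm [P])).1 =
        (g * mapGU y.right (eU (-1 : K) (sm [P])) * g⁻¹).1 * (c • (1 : Matrix (Fin n) (Fin n) K)) := by
      rw [← hc]
      have h8 : eU (-1 : K) (sm [P]) = (g * mapGU y.right (eU (-1 : K) (sm [P])) * g⁻¹) *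
        ((g * mapGU y.right (eU (-1 : K) (sm [P])) * g⁻¹)⁻¹ * eU (-1 : K) (sm [P])) := by
        rw [mul_inv_cancel_left]
      exact congrArg Subtype.val h8
    have hgg : g.1 * star g.1 = 1 := mem_unitaryGroup_iff.1 g.2
    have hgg' : star g.1 * g.1 = 1 := mem_unitaryGroup_iff'.1 g.2
    set P' : Matrix (Fin n) (Fin n) K := g.1 * P.1.map y.right.1 * star g.1 with hP'
    have h9 : (g * mapGU y.right (eU (-1 : K) (sm [P])) * g⁻¹).1 = 1 + ((-1 : K) - 1) • P' := by
      have h10 : (g * mapGU y.right (eU (-1 : K) (sm [P])) * g⁻¹).1 =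
          g.1 * ((eU (-1 : K) (sm [P])).1.map y.right.1) * star g.1 := rfl
      rw [h10, hval]
      have h11 : (1 + ((-1 : K) - 1) • P.1).map y.right.1 =
          1 + ((-1 : K) - 1) • P.1.map y.right.1 := by
        ext i j
        simp only [Matrix.map_apply, Matrix.add_apply, Matrix.smul_apply, smul_eq_mul, map_add,
          map_mul, map_sub, map_neg, map_one]
        congr 1
        by_cases hij : i = j
        · subst hij; simp
        · simp [hij]
      rw [h11, mul_add, add_mul, mul_one, hgg, mul_smul_comm, smul_mul_assoc]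
    rw [h9, hval, mul_smul_comm, mul_one] at h7'
    -- rank one
    obtain ⟨x, hx, hPx⟩ := exists_lv hs P
    have hPP : P.1 * P.1 = P.1 := (H221.ln_cond P).2
    have hP'P' : P' * P' = P' := by
      have h12 : P.1.map y.right.1 * P.1.map y.right.1 = P.1.map y.right.1 := by
        rw [← Matrix.map_mul, hPP]
      calc P' * P' = g.1 * P.1.map y.right.1 * (star g.1 * g.1) * P.1.map y.right.1 * star g.1 := by
            rw [hP']; simp only [Matrix.mul_assoc]
        _ = g.1 * (P.1.map y.right.1 * P.1.map y.right.1) * star g.1 := by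
            rw [hgg', Matrix.mul_one]; simp only [Matrix.mul_assoc]
        _ = P' := by rw [h12]
    have hcc : c * c = 1 := by
      have h13 : (1 + ((-1 : K) - 1) • P.1) * (1 + ((-1 : K) - 1) • P.1) = 1 := by
        have : (1 + ((-1 : K) - 1) • P.1) * (1 + ((-1 : K) - 1) • P.1) =
            1 + ((-1 : K) - 1) • P.1 + ((-1 : K) - 1) • P.1 +
              (((-1 : K) - 1) * ((-1 : K) - 1)) • (P.1 * P.1) := by
          rw [mul_add, mul_one, add_mul, one_mul, smul_mul_smul_comm]
          abel
        rw [this, hPP]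
        module
      have h14 : (1 + ((-1 : K) - 1) • P') * (1 + ((-1 : K) - 1) • P') = 1 := by
        have : (1 + ((-1 : K) - 1) • P') * (1 + ((-1 : K) - 1) • P') =
            1 + ((-1 : K) - 1) • P' + ((-1 : K) - 1) • P' +
              (((-1 : K) - 1) * ((-1 : K) - 1)) • (P' * P') := by
          rw [mul_add, mul_one, add_mul, one_mul, smul_mul_smul_comm]
          abel
        rw [this, hP'P']
        module
      rw [h7', smul_mul_smul_comm, h14] at h13
      have h15 := congrFun (congrFun h13 ⟨0, by omega⟩) ⟨0, by omega⟩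
      simpa using h15
    rcases mul_self_eq_one_iff.1 hcc with rfl | rfl
    · rw [one_smul] at h7'
      have h16 := add_left_cancel h7'
      have h17 : ((-1 : K) - 1) ≠ 0 := by
        intro h
        apply h2
        linear_combination -h
      exact (smul_right_injective _ h17 h16).symm
    · exfalso
      have h18 : (1 : Matrix (Fin n) (Fin n) K) = P.1 + P' := by
        have h19 : (2 : K) • (1 : Matrix (Fin n) (Fin n) K) = (2 : K) • (P.1 + P') := by
          have h20 : (1 + ((-1 : K) - 1) • P.1) + (1 + ((-1 : K) - 1) • P') = 0 := by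
            rw [h7']
            module
          have h21 : (2 : K) • (1 : Matrix (Fin n) (Fin n) K) - (2 : K) • (P.1 + P') =
              (1 + ((-1 : K) - 1) • P.1) + (1 + ((-1 : K) - 1) • P') := by
            module
          rw [h20] at h21
          exact sub_eq_zero.1 h21
        exact smul_right_injective _ h2 h19
      have h22 : P' = vecMulVec (g.1 *ᵥ (fun i => y.right.1 (x i)))
          ((fun i => y.right.1 (x i)) ᵥ* star g.1) := by
        rw [hP', ← vecMulVec_mul, ← mul_vecMulVec]
        congr 2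
        rw [hPx]
        ext i j
        rw [Matrix.map_apply, lv_apply, vecMulVec_apply, map_mul]
      obtain ⟨w, hw0, hw1, hw2⟩ := exists_orth hn x ((fun i => y.right.1 (x i)) ᵥ* star g.1)
      apply hw0
      have h23 : (1 : Matrix (Fin n) (Fin n) K) *ᵥ w = 0 := by
        rw [h18, add_mulVec, h22, hPx]
        change vecMulVec x x *ᵥ w + _ = 0
        rw [vecMulVec_mulVec, vecMulVec_mulVec, hw1, hw2]
        simp
      rwa [one_mulVec] at h23
  obtain ⟨hσ, t, ht⟩ := fix_letters hs h2 h6 hn g y.right.1 key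
  apply SemidirectProduct.ext
  · rw [← hg, SemidirectProduct.one_left, QuotientGroup.eq_one_iff,
      H296.mem_center_iff hm1 hm2]
    exact ⟨t, ht⟩
  · rw [SemidirectProduct.one_right]
    exact Subtype.ext hσ

end

end Vale.Agent.P240.R2.H472
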