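import Vale.Agent.P240.H195.FF
import Vale.Agent.P240.H195.CF
import Vale.Agent.P240.R2.H63.Inj
import Vale.Agent.P240.R2.H63.AsAut
import Vale.Agent.P240.R2.H195.A1
import Vale.Agent.P240.R2.H221.B3
import Vale.Agent.P240.R2.H472.PH

/-!
`FewAut p (PSU_n(q))`, `p` odd, `q > 3` odd, `n ≥ 3`, `p` prime to `d φ(d)`, `d = gcd(n, q+1)`.
-/

set_option autoImplicit false
set_option linter.unusedSectionVars false

namespace Vale.Agent.P240.R2.H472

open Subgroup
open Vale.Agent.P240.R2.AS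
open Vale.Agent.P240.H195 (FewAut OutAut ff_prime)
open Vale.Agent.P240.R2.H63.As (il th_inj th_surj th_psu)

section arith

variable {K : Type} [Field K] [Fintype K] [StarRing K]

/-- `x` is the `n`-th power of an element of norm one -/
def Rn (n : ℕ) (x : K) : Prop := ∃ c : K, c * star c = 1 ∧ c ^ n = x

theorem Rn.mul {n : ℕ} {x y : K} (hx : Rn n x) (hy : Rn n y) : Rn n (x * y) := by
  obtain ⟨c, hc, rfl⟩ := hx
  obtain ⟨d, hd, rfl⟩ := hy
  refine ⟨c * d, ?_, mul_pow _ _ _⟩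
  rw [star_mul', mul_mul_mul_comm, hc, hd, one_mul]

theorem norm_ne {x : K} (hx : x * star x = 1) : x ≠ 0 := by
  rintro rfl
  rw [zero_mul] at hx
  exact zero_ne_one hx

theorem Rn.inv {n : ℕ} {x : K} (hx : Rn n x) : Rn n x⁻¹ := by
  obtain ⟨c, hc, rfl⟩ := hx
  refine ⟨c⁻¹, ?_, inv_pow _ _⟩
  rw [star_inv₀, ← mul_inv, hc, inv_one]

theorem Rn.one (n : ℕ) : Rn n (1 : K) := ⟨1, by simp, one_pow _⟩

theorem Rn.pow {n : ℕ} {x : K} (hx : Rn n x) (k : ℕ) : Rn n (x ^ k) := by
  induction k with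
  | zero => rw [pow_zero]; exact Rn.one n
  | succ k ih => rw [pow_succ]; exact ih.mul hx

theorem norm_mul {x y : K} (hx : x * star x = 1) (hy : y * star y = 1) :
    (x * y) * star (x * y) = 1 := by
  rw [star_mul', mul_mul_mul_comm, hx, hy, one_mul]

theorem norm_pow {x : K} (hx : x * star x = 1) (k : ℕ) : (x ^ k) * star (x ^ k) = 1 := by
  rw [star_pow, ← mul_pow, hx, one_pow]

theorem Rn_gcd {q : ℕ} (hs : ∀ x : K, star x = x ^ q) (n : ℕ) {x : K} (hx : x * star x = 1) :
    Rn n (x ^ Nat.gcd n (q + 1)) := by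
  have h0 := norm_ne hx
  refine ⟨x ^ (Nat.gcdA n (q + 1)), ?_, ?_⟩
  · rw [star_zpow₀, ← mul_zpow, hx, one_zpow]
  · have h1 : x ^ (q + 1) = 1 := by rw [pow_succ', ← hs, hx]
    have h2 : (x ^ (Nat.gcd n (q + 1) : ℤ) : K) =
        (x ^ Nat.gcdA n (q + 1)) ^ n * (x ^ (q + 1)) ^ (Nat.gcdB n (q + 1)) := by
      rw [Nat.gcd_eq_gcd_ab, zpow_add₀ h0, zpow_mul, zpow_mul, zpow_natCast, zpow_natCast]
      congr 1
      rw [← zpow_natCast, ← zpow_natCast, ← zpow_mul, ← zpow_mul, mul_comm]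
    rw [h1, one_zpow, mul_one] at h2
    rw [← h2, zpow_natCast]

theorem Rn_of_pow {q p : ℕ} (hs : ∀ x : K, star x = x ^ q) {n : ℕ} (hp : p.Prime)
    (hd : ¬ p ∣ Nat.gcd n (q + 1)) {x : K} (hx : x * star x = 1) (h : Rn n (x ^ p)) : Rn n x := by
  have hcop : Nat.Coprime p (Nat.gcd n (q + 1)) := (Nat.Prime.coprime_iff_not_dvd hp).2 hd
  set d := Nat.gcd n (q + 1)
  have h0 := norm_ne hx
  -- `1 = p a + d b`
  have h1 : x = (x ^ p) ^ (Nat.gcdA p d) * (x ^ d) ^ (Nat.gcdB p d) := by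
    have h2 : (x ^ ((Nat.gcd p d : ℕ) : ℤ) : K) = (x ^ p) ^ (Nat.gcdA p d) * (x ^ d) ^ (Nat.gcdB p d) := by
      rw [Nat.gcd_eq_gcd_ab, zpow_add₀ h0, zpow_mul, zpow_mul, zpow_natCast, zpow_natCast]
    rw [hcop.gcd_eq_one, Nat.cast_one, zpow_one] at h2
    exact h2
  have hz : ∀ {y : K} (_ : Rn n y) (k : ℤ), Rn n (y ^ k) := by
    intro y hy k
    cases k with
    | ofNat k => simpa using hy.pow k
    | negSucc k => rw [zpow_negSucc]; exact (hy.pow _).inv
  rw [h1]
  exact (hz h _).mul (hz (Rn_gcd hs n hx) _)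

/-- a field automorphism of order `p` acts trivially on the norm one elements modulo `n`-th powers -/
theorem Rn_aut {q p : ℕ} (hq : 1 < q) (hK : Nat.card K = q ^ 2) (hs : ∀ x : K, star x = x ^ q)
    {n : ℕ} (hp : p.Prime) (hd : ¬ p ∣ (Nat.gcd n (q + 1)).totient) {σ : K ≃+* K}
    (hσ : (σ : RingAut K) ^ p = 1) {x : K} (hx : x * star x = 1) : Rn n (σ x * x⁻¹) := by
  classical
  set d := Nat.gcd n (q + 1) with hdd
  obtain ⟨g, hg⟩ := IsCyclic.exists_ofOrder_eq_natCard (α := Kˣ)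
  have hgen : ∀ y : Kˣ, ∃ k : ℕ, g ^ k = y := by
    intro y
    have h4 : y ∈ Submonoid.powers g := by
      rw [mem_powers_iff_mem_zpowers]
      have h5 : zpowers g = ⊤ := by
        rw [← Subgroup.card_eq_iff_eq_top, Nat.card_zpowers, hg]
      rw [h5]
      trivial
    exact h4
  have hσ0 : ∀ y : K, y ≠ 0 → σ y ≠ 0 := fun y hy h => hy (by
    rw [← map_zero σ] at h
    exact σ.injective h)
  obtain ⟨a, ha⟩ := hgen (Units.mk0 (σ g) (hσ0 _ g.ne_zero))
  have ha' : σ (g : K) = (g : K) ^ a := by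
    have := congrArg Units.val ha
    rw [Units.val_pow_eq_pow_val, Units.val_mk0] at this
    exact this.symm
  have hpw : ∀ y : K, y ≠ 0 → σ y = y ^ a := by
    intro y hy
    obtain ⟨k, hk⟩ := hgen (Units.mk0 y hy)
    have h1 : y = (g : K) ^ k := by
      have := congrArg Units.val hk
      rw [Units.val_pow_eq_pow_val, Units.val_mk0] at this
      exact this.symm
    rw [h1, map_pow, ha', ← pow_mul, ← pow_mul, mul_comm]
  have hit : ∀ (k : ℕ) (y : K), y ≠ 0 → ((σ : RingAut K) ^ k) y = y ^ (a ^ k) := by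
    intro k
    induction k with
    | zero => intro y _; rw [pow_zero, pow_zero, pow_one]; rfl
    | succ k ih =>
      intro y hy
      rw [pow_succ, RingAut.mul_apply]
      rw [ih _ (hσ0 y hy), hpw y hy, ← pow_mul, pow_succ, mul_comm]
  have h1 : (g : K) ^ (a ^ p) = g := by
    rw [← hit p _ g.ne_zero, hσ]
    rfl
  have hcard : Nat.card Kˣ = q ^ 2 - 1 := by rw [Nat.card_units, hK]
  have hq2 : q ^ 2 - 1 = (q + 1) * (q - 1) := by
    obtain ⟨r, rfl⟩ : ∃ r, q = r + 1 := ⟨q - 1, by omega⟩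
    have : (r + 1) ^ 2 = (r + 1 + 1) * r + 1 := by ring
    rw [this]
    simp
  have hapos : 0 < a ^ p := by
    rcases Nat.eq_zero_or_pos (a ^ p) with h | h
    · exfalso
      rw [h, pow_zero] at h1
      have h3 : g = 1 := Units.ext h1.symm
      rw [h3, orderOf_one, hcard, hq2] at hg
      have : 3 ≤ (q + 1) * (q - 1) := by
        have h4 : 3 ≤ q + 1 := by omega
        have h5 : 1 ≤ q - 1 := by omega
        nlinarith
      omega
    · exact h
  have h2 : a ^ p ≡ 1 [MOD d] := by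
    have h3 : g ^ (a ^ p - 1) = 1 := by
      have h4 : g ^ (a ^ p - 1) * g = g := by
        rw [← pow_succ, Nat.sub_add_cancel hapos]
        exact Units.ext (by rw [Units.val_pow_eq_pow_val]; exact h1)
      exact mul_eq_right.1 h4
    have h4 := orderOf_dvd_of_pow_eq_one h3
    rw [hg, hcard, hq2] at h4
    have h5 : d ∣ a ^ p - 1 := (Nat.gcd_dvd_right n (q + 1)).trans ((Dvd.intro _ rfl).trans h4)
    exact ((Nat.modEq_iff_dvd' hapos).2 h5).symm
  have hapos' : 0 < a := Nat.pos_of_ne_zero fun h => by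
    rw [h, zero_pow hp.ne_zero] at hapos
    exact lt_irrefl _ hapos
  have h3 : a ≡ 1 [MOD d] := by
    have hdpos : 0 < d := Nat.gcd_pos_of_pos_right _ (by omega)
    have : NeZero d := ⟨hdpos.ne'⟩
    have h4 : ((a : ZMod d)) ^ p = 1 := by
      have := (ZMod.natCast_eq_natCast_iff _ _ _).2 h2
      simpa using this
    have hu : IsUnit (a : ZMod d) := IsUnit.of_pow_eq_one h4 hp.ne_zero
    obtain ⟨u, hu⟩ := hu
    have h5 : u ^ p = 1 := by
      apply Units.ext
      rw [Units.val_pow_eq_pow_val, hu, h4, Units.val_one]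
    have h6 : orderOf u ∣ p := orderOf_dvd_of_pow_eq_one h5
    have h7 : orderOf u ∣ d.totient := by
      rw [← ZMod.card_units_eq_totient]
      exact orderOf_dvd_card
    have h8 : u = 1 := by
      rcases (Nat.dvd_prime hp).1 h6 with h | h
      · exact orderOf_eq_one_iff.1 h
      · exact absurd (h ▸ h7) hd
    have h9 : ((a : ℕ) : ZMod d) = ((1 : ℕ) : ZMod d) := by
      rw [← hu, h8]
      simp
    exact (ZMod.natCast_eq_natCast_iff _ _ _).1 h9
  obtain ⟨t, ht⟩ := (Nat.modEq_iff_dvd' hapos').1 h3.symm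
  have hx0 := norm_ne hx
  have h4 : σ x * x⁻¹ = (x ^ d) ^ t := by
    rw [hpw x hx0, ← pow_mul, ← ht]
    obtain ⟨b, rfl⟩ : ∃ b, a = b + 1 := ⟨a - 1, by omega⟩
    rw [pow_succ, mul_assoc, mul_inv_cancel₀ hx0, mul_one, Nat.add_sub_cancel]
  rw [h4]
  exact (Rn_gcd hs n hx).pow t

end arith

section groups

variable {K : Type} [Field K] [Fintype K] [StarRing K] {n : ℕ}

theorem det_norm (g : GU K n) : g.1.det * star g.1.det = 1 := by
  have h := congrArg Matrix.det (Matrix.mem_unitaryGroup_iff.1 g.2)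
  rwa [Matrix.det_mul, Matrix.star_eq_conjTranspose, Matrix.det_conjTranspose, Matrix.det_one] at h

theorem mk_mem_PSU {g : GU K n} (h : Rn n g.1.det) :
    (QuotientGroup.mk g : PGU K n) ∈ PSU K n := by
  obtain ⟨c, hc, hc'⟩ := h
  exact H195.mem_PSU_of_det hc hc'.symm

theorem right_one_mem {p q : ℕ} (hp : p.Prime) (hs : ∀ x : K, star x = x ^ q) (h2 : (2 : K) ≠ 0)
    (hn : 0 < n) (hd : ¬ p ∣ Nat.gcd n (q + 1)) {y : PGamU K n} (hy : y ^ p = 1)
    (hr : y.right = 1) : y ∈ PSU' K n := by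
  have hy' : il K n y.left = y := H63.As.mem_range_il hr
  obtain ⟨g, hg⟩ := QuotientGroup.mk_surjective y.left
  have h1 : y.left ^ p = 1 := by
    apply H63.As.il_inj
    rw [map_pow, hy', hy, map_one]
  rw [← hg] at h1
  have h3 : g ^ p ∈ center (GU K n) := by
    rw [← QuotientGroup.eq_one_iff]
    exact h1
  have hm1 : (-1 : K) ≠ 1 := by
    intro h
    apply h2
    linear_combination -h
  have hm2 : (-1 : K) * star (-1) = 1 := by simp
  rw [H296.mem_center_iff hm1 hm2] at h3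
  obtain ⟨c, hc⟩ := h3
  have hcc : c * star c = 1 := by
    have h4 : (g ^ p).1 * star (g ^ p).1 = 1 := Matrix.mem_unitaryGroup_iff.1 (g ^ p).2
    have h5 : (c • (1 : Matrix (Fin n) (Fin n) K)) * star (c • (1 : Matrix (Fin n) (Fin n) K)) = 1 := by
      rw [← hc]
      exact h4
    rw [star_smul, star_one, smul_mul_smul_comm, one_mul] at h5
    have h6 := congrFun (congrFun h5 ⟨0, hn⟩) ⟨0, hn⟩
    simpa using h6
  have hdet : g.1.det ^ p = c ^ n := by
    have h4 := congrArg Matrix.det hc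
    rw [Matrix.det_smul, Matrix.det_one, mul_one, Fintype.card_fin] at h4
    rw [← h4, ← Matrix.det_pow]
    rfl
  have hR : Rn n g.1.det := Rn_of_pow hs hp hd (det_norm g) ⟨c, hcc, hdet.symm⟩
  refine ⟨y.left, ?_, hy'⟩
  rw [← hg]
  exact mk_mem_PSU hR

theorem il_pow_mem {q : ℕ} (hs : ∀ x : K, star x = x ^ q) (h : PGU K n) :
    (il K n h) ^ (Nat.gcd n (q + 1)) ∈ PSU' K n := by
  obtain ⟨g, rfl⟩ := QuotientGroup.mk_surjective h
  refine ⟨(QuotientGroup.mk g : PGU K n) ^ (Nat.gcd n (q + 1)), ?_, map_pow _ _ _⟩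
  have h1 : (QuotientGroup.mk g : PGU K n) ^ (Nat.gcd n (q + 1)) =
      QuotientGroup.mk (g ^ (Nat.gcd n (q + 1))) := rfl
  rw [h1]
  apply mk_mem_PSU
  have h3 : (g ^ (Nat.gcd n (q + 1))).1.det = g.1.det ^ (Nat.gcd n (q + 1)) := by
    rw [← Matrix.det_pow]
    rfl
  rw [h3]
  exact Rn_gcd hs n (det_norm g)

theorem comm_mem {p q : ℕ} (hq : 1 < q) (hK : Nat.card K = q ^ 2) (hs : ∀ x : K, star x = x ^ q)
    (hp : p.Prime) (hd : ¬ p ∣ (Nat.gcd n (q + 1)).totient) {y : PGamU K n}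
    (hy : y.right ^ p = 1) (h : PGU K n) : y * il K n h * y⁻¹ * (il K n h)⁻¹ ∈ PSU' K n := by
  obtain ⟨g, rfl⟩ := QuotientGroup.mk_surjective h
  obtain ⟨u, hu⟩ := QuotientGroup.mk_surjective y.left
  have h1 := conj_inl y (QuotientGroup.mk g : PGU K n)
  have h3 : y * il K n (QuotientGroup.mk g) * y⁻¹ =
      il K n (QuotientGroup.mk (u * mapGU y.right g * u⁻¹)) := by
    have h4 : y * il K n (QuotientGroup.mk g) * y⁻¹ =
      il K n (y.left * act n y.right (QuotientGroup.mk g) * y.left⁻¹) := h1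
    rw [h4, ← hu]
    rfl
  refine ⟨QuotientGroup.mk (u * mapGU y.right g * u⁻¹ * g⁻¹), ?_, ?_⟩
  · apply mk_mem_PSU
    have h5 : (u * mapGU y.right g * u⁻¹ * g⁻¹).1.det = y.right.1 g.1.det * (g.1.det)⁻¹ := by
      have h6 : (u * mapGU y.right g * u⁻¹ * g⁻¹).1 =
          u.1 * g.1.map y.right.1 * star u.1 * star g.1 := rfl
      have h7 := RingHom.map_det (y.right.1 : K →+* K) g.1
      have h8 : (g.1.map y.right.1).det = y.right.1 g.1.det := h7.symm
      have h9 := det_norm u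
      have h10 := det_norm g
      rw [h6, Matrix.det_mul, Matrix.det_mul, Matrix.det_mul, h8, Matrix.star_eq_conjTranspose,
        Matrix.star_eq_conjTranspose, Matrix.det_conjTranspose, Matrix.det_conjTranspose]
      have h11 : star g.1.det = (g.1.det)⁻¹ := eq_inv_of_mul_eq_one_right h10
      rw [h11]
      linear_combination (y.right.1 g.1.det * (g.1.det)⁻¹) * h9
    rw [h5]
    refine Rn_aut hq hK hs hp hd ?_ (det_norm g)
    have := congrArg Subtype.val hy
    exact this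
  · change il K n _ = _
    have h12 : (QuotientGroup.mk (u * mapGU y.right g * u⁻¹ * g⁻¹) : PGU K n) =
      QuotientGroup.mk (u * mapGU y.right g * u⁻¹) * (QuotientGroup.mk g)⁻¹ := rfl
    rw [h12, map_mul, map_inv, ← h3]

/-- **few outer automorphisms of order `p`** -/
theorem fewAut_psu {p q : ℕ} (hp : p.Prime) (hq : 3 < q) (hqo : q % 2 = 1)
    (hK : Nat.card K = q ^ 2) (hs : ∀ x : K, star x = x ^ q) (hn : 3 ≤ n)
    (hd : ¬ p ∣ Nat.gcd n (q + 1)) (hd' : ¬ p ∣ (Nat.gcd n (q + 1)).totient) :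
    FewAut p (PSU K n) := by
  have h2 : (2 : K) ≠ 0 := by
    refine H221.two_ne ?_
    rw [hK]
    exact (Nat.odd_iff.2 hqo).pow
  have hinj : Function.Injective (H63.As.th K n) :=
    th_inj (h := H63.Inj.stmtINJ K q (by omega) hK hs hqo n hn)
  have hsurj : Function.Surjective (H63.As.th K n) :=
    th_surj (h := fun α => tr_PSU hq hK hs h2 hn α)
  have key : ∀ f g : MulAut (PSU K n), OutAut p f → OutAut p g →
      g ∈ zpowers f ⊔ (MulAut.conj (G := PSU K n)).range := by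
    intro f g hf hg
    obtain ⟨y1, rfl⟩ := hsurj f
    obtain ⟨y2, rfl⟩ := hsurj g
    have e1 : y1 ^ p = 1 := hinj (by rw [map_pow, hf.1, map_one])
    have e2 : y2 ^ p = 1 := hinj (by rw [map_pow, hg.1, map_one])
    have r1 : y1.right ^ p = 1 := by
      have := congrArg (SemidirectProduct.rightHom : PGamU K n →* SA K) e1
      rw [map_pow, map_one] at this
      exact this
    have r2 : y2.right ^ p = 1 := by
      have := congrArg (SemidirectProduct.rightHom : PGamU K n →* SA K) e2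
      rw [map_pow, map_one] at this
      exact this
    have n1 : y1.right ≠ 1 := by
      intro h
      apply hf.2
      rw [← th_psu]
      exact ⟨y1, right_one_mem hp hs h2 (by omega) hd e1 h, rfl⟩
    obtain ⟨k, hk⟩ := ff_prime (F := K) hp (σ := y1.right.1) (τ := y2.right.1)
      (congrArg Subtype.val r1) (fun h => n1 (Subtype.ext h)) (congrArg Subtype.val r2)
    set z : PGamU K n := y2 * (y1 ^ k)⁻¹ with hz
    have hzr : z.right = 1 := by
      have h3 : (SemidirectProduct.rightHom : PGamU K n →* SA K) z =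
          y2.right * (y1.right ^ k)⁻¹ := by
        rw [hz, map_mul, map_inv, map_pow]
        rfl
      have h4 : y2.right = y1.right ^ k := Subtype.ext hk
      rw [h4, mul_inv_cancel] at h3
      exact h3
    have hzl : il K n z.left = z := H63.As.mem_range_il hzr
    -- modulo `PSU`
    let π : PGamU K n →* PGamU K n ⧸ PSU' K n := QuotientGroup.mk' _
    have hπ : ∀ x, π x = 1 ↔ x ∈ PSU' K n := fun x => QuotientGroup.eq_one_iff x
    have hcomm : Commute (π y1) (π z) := by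
      have h3 : π (y1 * il K n z.left * y1⁻¹ * (il K n z.left)⁻¹) = 1 :=
        (hπ _).2 (comm_mem (by omega) hK hs hp hd' r1 z.left)
      rw [hzl] at h3
      rw [map_mul, map_mul, map_mul, map_inv, map_inv, mul_inv_eq_one, mul_inv_eq_iff_eq_mul] at h3
      exact h3
    have hzd : (π z) ^ (Nat.gcd n (q + 1)) = 1 := by
      rw [← map_pow, hπ, ← hzl]
      exact il_pow_mem hs z.left
    have hy2 : y2 = z * y1 ^ k := by rw [hz, inv_mul_cancel_right]
    have hzp : (π z) ^ p = 1 := by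
      have h3 : (π y2) ^ p = 1 := by rw [← map_pow, e2, map_one]
      rw [hy2, map_mul, map_pow, (hcomm.symm.pow_right k).mul_pow, ← pow_mul, mul_comm k p,
        pow_mul, ← map_pow π y1 p, e1, map_one, one_pow, mul_one] at h3
      exact h3
    have hz1 : π z = 1 := by
      have h3 : orderOf (π z) ∣ Nat.gcd p (Nat.gcd n (q + 1)) :=
        Nat.dvd_gcd (orderOf_dvd_of_pow_eq_one hzp) (orderOf_dvd_of_pow_eq_one hzd)
      rw [((Nat.Prime.coprime_iff_not_dvd hp).2 hd).gcd_eq_one, Nat.dvd_one] at h3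
      exact orderOf_eq_one_iff.1 h3
    have hz2 : z ∈ PSU' K n := (hπ z).1 hz1
    rw [hy2, map_mul, map_pow]
    refine mul_mem (mem_sup_right ?_) (mem_sup_left (npow_mem_zpowers _ _))
    rw [← th_psu]
    exact ⟨z, hz2, rfl⟩
  exact ⟨fun f g h hf hg _ => Or.inl (key f g hf hg), Or.inl key⟩

end groups

end Vale.Agent.P240.R2.H472
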