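import Vale.Agent.P240.R2.H281.H90b

/-!
Diagonal forms over finite fields of odd characteristic: `<d₁, …, dₙ> ≅ <1, …, 1, ∏ d>`.
-/

set_option autoImplicit false

namespace Vale.Agent.P240.R2.H472

open Finset Matrix
open Vale.Agent.P240.R2.H281 (rep_one st step)
open scoped Classical

universe u v

noncomputable section

variable {F : Type u} [Field F] [Fintype F] {ι : Type v} [Fintype ι] [DecidableEq ι]

theorem exists_diag_aux [Nonempty ι] (h2 : (2 : F) ≠ 0) : ∀ (N : ℕ) (d : ι → F), (∀ i, d i ≠ 0) →
    (univ.filter fun i => d i ≠ 1).card = N →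
    ∃ (M : Matrix ι ι F) (i : ι), Mᵀ * diagonal d * M = diagonal (Function.update 1 i (∏ k, d k)) := by
  intro N
  induction N using Nat.strong_induction_on with
  | _ N ih =>
    intro d hd hN
    by_cases h : ∃ i j, i ≠ j ∧ d i ≠ 1 ∧ d j ≠ 1
    · obtain ⟨i, j, hij, hi, hj⟩ := h
      obtain ⟨x, y, hxy⟩ := rep_one h2 (hd i) (hd j)
      set d' := Function.update (Function.update d i 1) j (d i * d j) with hd'
      have e1 : ∀ k, k ≠ i → k ≠ j → d' k = d k := by
        intro k h1 h3
        rw [hd', Function.update_of_ne h3, Function.update_of_ne h1]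
      have e2 : d' i = 1 := by
        rw [hd', Function.update_of_ne hij, Function.update_self]
      have e3 : d' j = d i * d j := by rw [hd', Function.update_self]
      have hd'0 : ∀ k, d' k ≠ 0 := by
        intro k
        by_cases h1 : k = i
        · rw [h1, e2]; exact one_ne_zero
        · by_cases h3 : k = j
          · rw [h3, e3]; exact mul_ne_zero (hd i) (hd j)
          · rw [e1 k h1 h3]; exact hd k
      have hp : ∏ k, d' k = ∏ k, d k := by
        rw [← Finset.mul_prod_erase univ d' (Finset.mem_univ i),
          ← Finset.mul_prod_erase (univ.erase i) d' (Finset.mem_erase.mpr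
            ⟨Ne.symm hij, Finset.mem_univ j⟩),
          ← Finset.mul_prod_erase univ d (Finset.mem_univ i),
          ← Finset.mul_prod_erase (univ.erase i) d (Finset.mem_erase.mpr
            ⟨Ne.symm hij, Finset.mem_univ j⟩), e2, e3, one_mul, mul_assoc]
        congr 2
        refine Finset.prod_congr rfl fun k hk => ?_
        rw [Finset.mem_erase, Finset.mem_erase] at hk
        exact e1 k hk.2.1 hk.1
      have hlt : (univ.filter fun k => d' k ≠ 1).card < N := by
        rw [← hN]
        refine Finset.card_lt_card ?_
        rw [Finset.ssubset_iff_of_subset]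
        · refine ⟨i, by simpa using hi, by simp [e2]⟩
        · intro k hk
          simp only [mem_filter, mem_univ, true_and] at hk ⊢
          by_cases h1 : k = i
          · rw [h1]; exact hi
          · by_cases h3 : k = j
            · rw [h3]; exact hj
            · rwa [e1 k h1 h3] at hk
      obtain ⟨M, l, hM⟩ := ih _ hlt d' hd'0 rfl
      refine ⟨st d i j x y * M, l, ?_⟩
      have h5 := step hij hxy
      rw [← hd'] at h5
      rw [← hp, ← hM, ← h5, transpose_mul]
      simp only [mul_assoc]
    · push Not at h
      by_cases h3 : ∃ i, d i ≠ 1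
      · obtain ⟨i, hi⟩ := h3
        have h4 : ∀ j, j ≠ i → d j = 1 := fun j hj => h i j (Ne.symm hj) hi
        have h5 : ∏ k, d k = d i := by
          rw [Fintype.prod_eq_single i (fun j hj => h4 j hj)]
        refine ⟨1, i, ?_⟩
        rw [h5, transpose_one, one_mul, mul_one]
        congr 1
        funext k
        by_cases hk : k = i
        · rw [hk, Function.update_self]
        · rw [Function.update_of_ne hk, h4 k hk, Pi.one_apply]
      · push Not at h3
        obtain ⟨i⟩ := ‹Nonempty ι›
        refine ⟨1, i, ?_⟩
        have : d = 1 := funext h3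
        rw [this, transpose_one, one_mul, mul_one]
        congr 1
        funext k
        by_cases hk : k = i
        · rw [hk, Function.update_self]
          simp
        · rw [Function.update_of_ne hk]

/-- `<d₁, …, dₙ> ≅ <1, …, 1, ∏ d>`, the last coefficient at any given place -/
theorem exists_diag (h2 : (2 : F) ≠ 0) (i₀ : ι) (d : ι → F) (hd : ∀ i, d i ≠ 0) :
    ∃ M : Matrix ι ι F, Mᵀ * diagonal d * M = diagonal (Function.update 1 i₀ (∏ k, d k)) := by
  have : Nonempty ι := ⟨i₀⟩
  obtain ⟨M, i, hM⟩ := exists_diag_aux h2 _ d hd rfl
  let π : Equiv.Perm ι := Equiv.swap i₀ i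
  refine ⟨M.submatrix id π, ?_⟩
  have h1 : (M.submatrix id π)ᵀ * diagonal d * M.submatrix id π =
      (Mᵀ * diagonal d * M).submatrix π π := by
    rw [transpose_submatrix]
    ext a b
    simp [Matrix.mul_apply, Matrix.submatrix_apply]
  rw [h1, hM]
  ext a b
  rw [submatrix_apply, diagonal_apply, diagonal_apply]
  by_cases hab : a = b
  · subst hab
    rw [if_pos rfl, if_pos rfl]
    by_cases ha : a = i₀
    · rw [ha]
      simp [π]
    · rw [Function.update_of_ne ha, Pi.one_apply, Function.update_of_ne]
      · rfl
      · intro h
        apply ha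
        have : π (π a) = π i := congrArg π h
        simpa [π] using this
  · rw [if_neg hab, if_neg fun h => hab (π.injective h)]

end

end Vale.Agent.P240.R2.H472
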