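import Vale.Agent.P240.R2.H329.OA6
import Vale.Agent.P240.R2.H667.Fa
import Vale.Agent.P240.R2.H275.EvA
import Vale.Agent.P240.R2.H296.OInv

/-!
P240: outer automorphisms of order two of `Ω_n(q)`, `n ≥ 5` odd, `q ≥ 7` odd: among three of them two
agree modulo inner automorphisms; hence `FewAut 2` if `𝒜₂` is connected.
-/

set_option autoImplicit false
set_option linter.unusedSectionVars false

namespace Vale.Agent.P240.R2.H472.FO

open Matrix Vale.Agent.P240.R2.AS Subgroup Vale.Agent.P240.H195 Vale.Agent.P240.K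
open Vale.Agent.P240.R2.H296.O (ab ab_eq_one gu_hf ab_gmap SOm)
open Vale.Agent.P240.R2.H387 (hf hf_add_left hf_add_right hf_smul_left hf_smul_right hf_star
  hf_map)
open Vale.Agent.P240.R2.H38 (gmap gmap_coe)
open Vale.Agent.P240.R2.H329 (dl dl_mem mk_one_iff det_sq ab_two aut_Om gmul om_right)

universe u v

noncomputable section

section lin

variable {K : Type u} [Field K] [StarRing K] {n : ℕ}

/-- a semilinear involution of `K ^ n` that preserves the form -/
structure SI (σ : K ≃+* K) (T : (Fin n → K) → (Fin n → K)) : Prop where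
  add : ∀ v w, T (v + w) = T v + T w
  smul : ∀ (c : K) v, T (c • v) = σ c • T v
  inv : ∀ v, T (T v) = v
  form : ∀ v w, hf (T v) (T w) = σ (hf v w)

lemma hf_comm (hs : ∀ x : K, star x = x) (v w : Fin n → K) : hf v w = hf w v := by
  rw [← hf_star, hs]

lemma exists_nz {j : ℕ} (hj : j < n) (u : Fin j → (Fin n → K)) :
    ∃ w : Fin n → K, w ≠ 0 ∧ ∀ a, hf (u a) w = 0 := by
  let φ : (Fin n → K) →ₗ[K] (Fin j → K) :=
    { toFun := fun w a => hf (u a) w
      map_add' := fun x y => by funext a; exact hf_add_right _ _ _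
      map_smul' := fun c x => by funext a; exact hf_smul_right _ _ _ }
  have h1 : LinearMap.ker φ ≠ ⊥ := LinearMap.ker_ne_bot_of_finrank_lt (by simpa using hj)
  obtain ⟨w, hw, hw0⟩ := (Submodule.ne_bot_iff _).1 h1
  exact ⟨w, hw0, fun a => congrFun (LinearMap.mem_ker.1 hw) a⟩

lemma sum_hf {j : ℕ} (w : Fin n → K) (c : Fin j → K) (u : Fin j → (Fin n → K)) :
    hf w (∑ a, c a • u a) = ∑ a, c a * hf w (u a) := by
  classical
  induction (Finset.univ : Finset (Fin j)) using Finset.induction_on with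
  | empty => simp
  | insert a s ha ih => rw [Finset.sum_insert ha, Finset.sum_insert ha, hf_add_right, hf_smul_right, ih]

/-- a fixed vector of nonzero norm orthogonal to a given orthonormal system -/
lemma exists_fix (hs : ∀ x : K, star x = x) (h2 : (2 : K) ≠ 0) {σ : K ≃+* K}
    (hσ1 : ∃ c, σ c ≠ c) {T : (Fin n → K) → (Fin n → K)} (hT : SI σ T)
    {j : ℕ} (hj : j < n) (u : Fin j → (Fin n → K))
    (hu : ∀ a b, hf (u a) (u b) = if a = b then 1 else 0)
    (hTu : ∀ a, T (u a) = u a ∨ T (u a) = -(u a)) :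
    ∃ s, T s = s ∧ (∀ a, hf (u a) s = 0) ∧ hf s s ≠ 0 := by
  by_contra hcon
  push Not at hcon
  have hpol : ∀ s s', T s = s → (∀ a, hf (u a) s = 0) → T s' = s' → (∀ a, hf (u a) s' = 0) →
      hf s s' = 0 := by
    intro s s' h1 h3 h4 h5
    have h6 := hcon (s + s') (by rw [hT.add, h1, h4]) (fun a => by rw [hf_add_right, h3, h5, add_zero])
    rw [hf_add_left, hf_add_right, hf_add_right, hcon s h1 h3, hcon s' h4 h5, hf_comm hs s' s] at h6
    have h7 : (2 : K) * hf s s' = 0 := by linear_combination h6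
    exact (mul_eq_zero.1 h7).resolve_left h2
  obtain ⟨w, hw0, hw⟩ := exists_nz hj u
  obtain ⟨i, hi⟩ : ∃ i, w i ≠ 0 := by
    by_contra h
    push Not at h
    exact hw0 (funext h)
  set x : Fin n → K := Pi.single i 1 with hx
  have hwx : hf w x ≠ 0 := by
    have : hf w x = w i := by
      rw [H387.hf_def, Finset.sum_eq_single i]
      · rw [hx, Pi.single_eq_same, mul_one, hs]
      · intro b _ hb
        rw [hx, Pi.single_eq_of_ne hb, mul_zero]
      · simp
    rwa [this]
  set w' : Fin n → K := x - ∑ a, hf (u a) x • u a with hw'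
  have hww' : hf w w' ≠ 0 := by
    have h3 : hf w (∑ a, hf (u a) x • u a) = 0 := by
      rw [sum_hf]
      exact Finset.sum_eq_zero fun a _ => by rw [hf_comm hs w, hw, mul_zero]
    have h4 : hf w w' + hf w (∑ a, hf (u a) x • u a) = hf w x := by
      rw [← hf_add_right, hw', sub_add_cancel]
    rw [h3, add_zero] at h4
    rwa [h4]
  have huw' : ∀ a, hf (u a) w' = 0 := by
    intro a
    have h3 : hf (u a) (∑ b, hf (u b) x • u b) = hf (u a) x := by
      rw [sum_hf, Finset.sum_eq_single a]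
      · rw [hu, if_pos rfl, mul_one]
      · intro b _ hb
        rw [hu, if_neg (Ne.symm hb), mul_zero]
      · simp
    have h4 : hf (u a) w' + hf (u a) (∑ b, hf (u b) x • u b) = hf (u a) x := by
      rw [← hf_add_right, hw', sub_add_cancel]
    rw [h3] at h4
    linear_combination h4
  -- orthogonality is preserved
  have hperp : ∀ v, (∀ a, hf (u a) v = 0) → ∀ a, hf (u a) (T v) = 0 := by
    intro v hv a
    have h3 : hf (T (u a)) (T v) = 0 := by rw [hT.form, hv, map_zero]
    rcases hTu a with h | h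
    · rwa [h] at h3
    · rw [h] at h3
      have h4 : hf (-(u a)) (T v) = - hf (u a) (T v) := by
        rw [← neg_one_smul K (u a), hf_smul_left, hs]; ring
      rw [h4] at h3
      exact neg_eq_zero.1 h3
  obtain ⟨c, hc⟩ := hσ1
  have hd : c - σ c ≠ 0 := fun h => hc (sub_eq_zero.1 h).symm
  -- every vector of the complement is a combination of two fixed vectors
  have key : ∀ v, (∀ a, hf (u a) v = 0) → ∃ s1 s2, T s1 = s1 ∧ T s2 = s2 ∧
      (∀ a, hf (u a) s1 = 0) ∧ (∀ a, hf (u a) s2 = 0) ∧ (c - σ c) • v = s2 + (-σ c) • s1 := by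
    intro v hv
    refine ⟨v + T v, c • v + T (c • v), ?_, ?_, ?_, ?_, ?_⟩
    · rw [hT.add, hT.inv, add_comm]
    · rw [hT.add, hT.inv, add_comm]
    · intro a
      rw [hf_add_right, hv, hperp v hv, add_zero]
    · intro a
      have h3 : ∀ a, hf (u a) (c • v) = 0 := fun a => by rw [hf_smul_right, hv, mul_zero]
      rw [hf_add_right, h3, hperp _ h3, add_zero]
    · rw [hT.smul, smul_add, sub_smul, neg_smul, neg_smul]
      abel
  obtain ⟨s1, s2, a1, a2, a3, a4, a5⟩ := key w hw
  obtain ⟨r1, r2, b1, b2, b3, b4, b5⟩ := key w' huw'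
  have h3 : ∀ s, T s = s → (∀ a, hf (u a) s = 0) → hf s w' = 0 := by
    intro s h4 h5
    have h6 : hf s ((c - σ c) • w') = 0 := by
      rw [b5, hf_add_right, hf_smul_right, hpol s r2 h4 h5 b2 b4, hpol s r1 h4 h5 b1 b3, mul_zero,
        add_zero]
    rw [hf_smul_right] at h6
    exact (mul_eq_zero.1 h6).resolve_left hd
  have h7 : hf w' ((c - σ c) • w) = 0 := by
    rw [a5, hf_add_right, hf_smul_right, hf_comm hs w' s2, hf_comm hs w' s1, h3 s2 a2 a4, h3 s1 a1 a3,
      mul_zero, add_zero]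
  rw [hf_smul_right] at h7
  rw [hf_comm hs] at hww'
  exact hww' ((mul_eq_zero.1 h7).resolve_left hd)

lemma exists_on [Finite K] (hs : ∀ x : K, star x = x) (h2 : (2 : K) ≠ 0) {σ : RingAut K}
    (hσ : σ * σ = 1) (hσ1 : σ ≠ 1) {T : (Fin n → K) → (Fin n → K)} (hT : SI σ T) :
    ∀ j : ℕ, j ≤ n → ∃ u : Fin j → (Fin n → K), (∀ a b, hf (u a) (u b) = if a = b then 1 else 0) ∧
      ∀ a, T (u a) = u a ∨ T (u a) = -(u a) := by
  have hc : ∃ c, σ c ≠ c := by
    by_contra h
    push Not at h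
    exact hσ1 (RingEquiv.ext h)
  intro j
  induction j with
  | zero => exact fun _ => ⟨fun a => a.elim0, fun a => a.elim0, fun a => a.elim0⟩
  | succ j ih =>
    intro hj
    obtain ⟨u, hu, hTu⟩ := ih (by omega)
    obtain ⟨s, h3, h4, h5⟩ := exists_fix hs h2 hc hT (by omega : j < n) u hu hTu
    have h6 : σ (hf s s) = hf s s := by rw [← hT.form, h3]
    obtain ⟨b, hb⟩ := H667.Fa.fixed_sq h2 hσ hσ1 h6
    have hb0 : b ≠ 0 := by
      rintro rfl
      exact h5 (by rw [hb, mul_zero])
    have h7 : σ b = b ∨ σ b = -b := by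
      refine mul_self_eq_mul_self_iff.1 ?_
      rw [← map_mul, ← hb, h6]
    have h8 : T (b⁻¹ • s) = b⁻¹ • s ∨ T (b⁻¹ • s) = -(b⁻¹ • s) := by
      rw [hT.smul, h3, map_inv₀]
      rcases h7 with h7 | h7
      · left; rw [h7]
      · right; rw [h7, inv_neg, neg_smul]
    have h9 : ∀ a, hf (u a) (b⁻¹ • s) = 0 := fun a => by rw [hf_smul_right, h4, mul_zero]
    refine ⟨Fin.snoc (α := fun _ => Fin n → K) u (b⁻¹ • s), ?_, ?_⟩
    · intro a a'
      refine Fin.lastCases ?_ (fun a => ?_) a <;> refine Fin.lastCases ?_ (fun a' => ?_) a'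
      · rw [Fin.snoc_last, if_pos rfl, hf_smul_left, hf_smul_right, hs, hb]
        field_simp
      · rw [Fin.snoc_last, Fin.snoc_castSucc, hf_comm hs, h9,
          if_neg (Fin.castSucc_lt_last a').ne']
      · rw [Fin.snoc_last, Fin.snoc_castSucc, h9, if_neg (Fin.castSucc_lt_last a).ne]
      · rw [Fin.snoc_castSucc, Fin.snoc_castSucc, hu]
        simp only [Fin.castSucc_inj]
    · intro a
      refine Fin.lastCases ?_ (fun a => ?_) a
      · rw [Fin.snoc_last]; exact h8
      · rw [Fin.snoc_castSucc]; exact hTu a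

end lin

section grp

variable {K : Type u} [Field K] [Fintype K] [StarRing K] {n : ℕ}

/-- the semilinear map `v ↦ g σ(v)` -/
lemma si_of (hs : ∀ x : K, star x = x) {σ : RingAut K} (hσ : σ * σ = 1) {g : GU K n}
    (hg : g.1 * g.1.map σ = 1) : SI σ (fun v => g.1 *ᵥ (fun i => σ (v i))) where
  add v w := by
    rw [← mulVec_add]
    congr 1
    funext i
    exact map_add σ _ _
  smul c v := by
    rw [← mulVec_smul]
    congr 1
    funext i
    exact map_mul σ _ _
  inv v := by
    have hσσ : ∀ x : K, σ (σ x) = x := fun x => by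
      change (σ * σ) x = x
      rw [hσ]; rfl
    have h1 : (fun i => σ ((g.1 *ᵥ (fun i => σ (v i))) i)) = g.1.map σ *ᵥ v := by
      funext i
      rw [mulVec, mulVec, dotProduct, dotProduct, map_sum]
      refine Finset.sum_congr rfl fun k _ => ?_
      rw [map_mul, hσσ, map_apply]
    show g.1 *ᵥ (fun i => σ ((g.1 *ᵥ (fun i => σ (v i))) i)) = v
    rw [h1, mulVec_mulVec, hg, one_mulVec]
  form v w := by
    rw [gu_hf]
    exact (hf_map (s := σ) (fun x => by rw [hs, hs]) v w).symm

/-- **The spinor norm of a twisted involution is trivial.** -/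
theorem ab_one (hs : ∀ x : K, star x = x) (hq : Odd (Nat.card K)) (hodd : Odd n) {σ : RingAut K}
    (hσ : σ * σ = 1) (hσ1 : σ ≠ 1) {g : GU K n} (hg : g.1 * g.1.map σ = 1) : ab K n g = 1 := by
  classical
  have h2 : (2 : K) ≠ 0 := H651.two_ne hq
  obtain ⟨u, hu, hTu⟩ := exists_on hs h2 hσ hσ1 (si_of hs hσ hg) n le_rfl
  have hU : (Matrix.of fun i a => u a i : Matrix (Fin n) (Fin n) K) ∈ unitaryGroup (Fin n) K := by
    rw [mem_unitaryGroup_iff']
    ext a b
    rw [mul_apply, one_apply, ← hu a b, H387.hf_def]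
    rfl
  let e : Fin n → ℤˣ := fun a => if (g.1 *ᵥ (fun i => σ (u a i))) = u a then 1 else -1
  have hc : ∀ x : K, (σ : K ≃+* K) (star x) = star ((σ : K ≃+* K) x) := fun x => by rw [hs, hs]
  have h3 : g * gmap σ hc ⟨_, hU⟩ = ⟨_, hU⟩ * dl K n e := by
    apply Subtype.ext
    rw [gmul, gmul, gmap_coe, H329.dl_coe]
    ext i a
    rw [mul_diagonal]
    have h4 : (g.1 * (Matrix.of fun i a => u a i : Matrix (Fin n) (Fin n) K).map σ) i a =
        (g.1 *ᵥ (fun i => σ (u a i))) i := rfl
    rw [h4]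
    show _ = u a i * ((e a : ℤ) : K)
    by_cases h5 : (g.1 *ᵥ (fun i => σ (u a i))) = u a
    · have h6 : e a = 1 := if_pos h5
      rw [h5, h6]; simp
    · have h6 : e a = -1 := if_neg h5
      have h7 := (hTu a).resolve_left h5
      have h8 : (g.1 *ᵥ (fun i => σ (u a i))) = -(u a) := h7
      rw [h8, h6]; simp
  obtain ⟨q, hKq, hσq⟩ := H296.O.inv_data hs σ (by rw [pow_two]; exact hσ) (fun h => hσ1 h)
  have hqo : Odd q := by
    rw [hKq, Nat.odd_pow_iff (by norm_num)] at hq
    exact hq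
  have h5 := congrArg (ab K n) h3
  rw [map_mul, map_mul, ab_gmap hs h2 hqo σ hσq hc, ab_eq_one.2 (dl_mem hs hq hodd e), mul_one] at h5
  exact mul_eq_right.1 h5

lemma mem_Om {y : PGamU K n} (h1 : y.right = 1) (h3 : y.left ∈ commutator (PGU K n)) :
    y ∈ Om K n := by
  refine Subgroup.mem_map.2 ⟨y.left, h3, ?_⟩
  conv_rhs => rw [← SemidirectProduct.inl_left_mul_inr_right y, h1, map_one, mul_one]

lemma inner_of {f : MulAut (Om K n)} {y : PGamU K n} (hy : y ∈ Om K n)
    (h : ∀ x : Om K n, ((f x : Om K n) : PGamU K n) = y * x * y⁻¹) :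
    f ∈ (MulAut.conj (G := Om K n)).range :=
  ⟨⟨y, hy⟩, MulEquiv.ext fun x => Subtype.ext (h x).symm⟩

/-- an element of `PΓO_n(q)` that centralizes `Ω_n(q)` is trivial -/
lemma cent_one (hs : ∀ x : K, star x = x) (hq : Odd (Nat.card K)) (h7 : 7 ≤ Nat.card K)
    (hn : 5 ≤ n) {y : PGamU K n} (h : ∀ x : Om K n, y * x * y⁻¹ = x) : y = 1 := by
  have h2 : (2 : K) ≠ 0 := H651.two_ne hq
  obtain ⟨u, hu⟩ := QuotientGroup.mk_surjective y.left
  have hc : ∀ x : K, (y.right.1 : K ≃+* K) (star x) = star ((y.right.1 : K ≃+* K) x) :=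
    fun x => by rw [hs, hs]
  have h3 := H275.uniqE hs h2 (by rw [← Nat.card_eq_fintype_card]; omega) hn u y.right.1 ?_
  · obtain ⟨h4, a, h5⟩ := h3
    have h6 : y.right = 1 := Subtype.ext (RingEquiv.ext h4)
    have h7' : y.left = 1 := by
      rw [← hu]
      exact (mk_one_iff hs hq h7 u).2 ⟨a, h5⟩
    exact SemidirectProduct.ext h7' h6
  · intro k
    have hk : (QuotientGroup.mk k.1 : PGU K n) ∈ commutator (PGU K n) := k.2
    have h4 := h ⟨SemidirectProduct.inl (QuotientGroup.mk k.1), Subgroup.mem_map.2 ⟨_, hk, rfl⟩⟩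
    have h5 : y * SemidirectProduct.inl (QuotientGroup.mk k.1 : PGU K n) * y⁻¹ =
        SemidirectProduct.inl (y.left * act n y.right (QuotientGroup.mk k.1) * y.left⁻¹) := by
      have h6 : (SemidirectProduct.inl (act n y.right (QuotientGroup.mk k.1)) : PGamU K n) =
          SemidirectProduct.inr y.right * SemidirectProduct.inl (QuotientGroup.mk k.1) *
            SemidirectProduct.inr (y.right)⁻¹ := SemidirectProduct.inl_aut _ _
      conv_lhs => rw [← SemidirectProduct.inl_left_mul_inr_right y]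
      rw [map_mul, map_mul, h6, map_inv, map_inv]
      group
    have h6 := SemidirectProduct.inl_injective (h5.symm.trans h4)
    rw [← hu] at h6
    have h8 : (QuotientGroup.mk (u * gmap y.right.1 hc k.1 * u⁻¹) : PGU K n) =
        QuotientGroup.mk k.1 := h6
    obtain ⟨a, ha⟩ := (mk_one_iff hs hq h7 (k.1⁻¹ * (u * gmap y.right.1 hc k.1 * u⁻¹))).1 (by
      rw [QuotientGroup.mk_mul, h8, QuotientGroup.mk_inv, inv_mul_cancel])
    refine ⟨a, ?_⟩
    have h9 : (u * gmap y.right.1 hc k.1 * u⁻¹).1 = a • k.1.1 := by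
      have h10 : u * gmap y.right.1 hc k.1 * u⁻¹ =
          k.1 * (k.1⁻¹ * (u * gmap y.right.1 hc k.1 * u⁻¹)) := by group
      have h11 := congrArg Subtype.val h10
      have h12 : (k.1 * (k.1⁻¹ * (u * gmap y.right.1 hc k.1 * u⁻¹))).1 =
          k.1.1 * (k.1⁻¹ * (u * gmap y.right.1 hc k.1 * u⁻¹)).1 := rfl
      rw [h12, ha, Matrix.mul_smul, Matrix.mul_one] at h11
      exact h11
    exact h9

/-- the type of an involution -/
lemma inv_out (hs : ∀ x : K, star x = x) (hq : Odd (Nat.card K)) (h7 : 7 ≤ Nat.card K)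
    (hodd : Odd n) (hn : 5 ≤ n) {f : MulAut (Om K n)} {y : PGamU K n}
    (hy : ∀ x : Om K n, ((f x : Om K n) : PGamU K n) = y * x * y⁻¹) (hff : f ^ 2 = 1) {u : GU K n}
    (hu : QuotientGroup.mk u = y.left) :
    y.right * y.right = 1 ∧ (y.right ≠ 1 → ab K n u = 1) := by
  have h1 : y * y = 1 := by
    refine cent_one hs hq h7 hn fun x => ?_
    have h3 : f (f x) = x := by
      have := congrArg (fun φ : MulAut (Om K n) => φ x) hff
      simpa [pow_two] using this
    have h4 := hy (f x)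
    rw [h3, hy x] at h4
    calc y * y * (x : PGamU K n) * (y * y)⁻¹ = y * (y * x * y⁻¹) * y⁻¹ := by group
      _ = x := h4.symm
  have h3 : y.right * y.right = 1 := by
    have := congrArg SemidirectProduct.right h1
    exact this
  refine ⟨h3, fun h4 => ?_⟩
  have hc : ∀ x : K, (y.right.1 : K ≃+* K) (star x) = star ((y.right.1 : K ≃+* K) x) :=
    fun x => by rw [hs, hs]
  have h5 : (QuotientGroup.mk (u * gmap y.right.1 hc u) : PGU K n) = 1 := by
    have h6 : y.left * act n y.right y.left = 1 := by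
      have := congrArg SemidirectProduct.left h1
      exact this
    rw [← hu] at h6
    exact h6
  obtain ⟨l, hl⟩ := (mk_one_iff hs hq h7 _).1 h5
  have h6 : (u * gmap y.right.1 hc u).1.det = 1 := by
    rw [gmul, det_mul, gmap_coe]
    have h8 := det_sq hs u
    have h9 : (u.1.map (y.right.1 : K ≃+* K)).det = (y.right.1 : K ≃+* K) u.1.det := by
      have := (RingHom.map_det ((y.right.1 : K ≃+* K) : K →+* K) u.1).symm
      exact this
    rw [h9]
    rcases mul_self_eq_one_iff.1 h8 with h | h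
    · rw [h, map_one, mul_one]
    · rw [h, map_neg, map_one]; ring
  have h8 := H329.scal_one hs hodd hl h6
  refine ab_one hs hq hodd (σ := y.right.1) (congrArg Subtype.val h3)
    (fun h => h4 (Subtype.ext h)) ?_
  have h9 := congrArg Subtype.val h8
  exact h9

/-- two outer involutions of the same type agree modulo inner automorphisms -/
lemma pair (hs : ∀ x : K, star x = x) (hq : Odd (Nat.card K)) (h7 : 7 ≤ Nat.card K)
    (hodd : Odd n) (hn : 5 ≤ n) {f g : MulAut (Om K n)} (hf : OutAut 2 f) (hg : OutAut 2 g)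
    {y z : PGamU K n} (hy : ∀ x : Om K n, ((f x : Om K n) : PGamU K n) = y * x * y⁻¹)
    (hz : ∀ x : Om K n, ((g x : Om K n) : PGamU K n) = z * x * z⁻¹)
    (hyz : y.right = 1 ↔ z.right = 1) : g ∈ zpowers f ⊔ (MulAut.conj (G := Om K n)).range := by
  have h2 : (2 : K) ≠ 0 := H651.two_ne hq
  obtain ⟨u, hu⟩ := QuotientGroup.mk_surjective y.left
  obtain ⟨v, hv⟩ := QuotientGroup.mk_surjective z.left
  obtain ⟨a1, a2⟩ := inv_out hs hq h7 hodd hn hy hf.1 hu
  obtain ⟨b1, b2⟩ := inv_out hs hq h7 hodd hn hz hg.1 hv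
  have hfg : f * g ∈ (MulAut.conj (G := Om K n)).range := by
    refine inner_of (y := y * z) ?_ fun x => ?_
    · by_cases h1 : y.right = 1
      · have h3 := hyz.1 h1
        obtain ⟨t, ht, hab⟩ := ab_two (n := n) hs hq hodd
        have h4 : ab K n u = t := (hab u).resolve_left fun h =>
          hf.2 (inner_of (mem_Om h1 (by rw [← hu]; exact ab_eq_one.1 h)) hy)
        have h5 : ab K n v = t := (hab v).resolve_left fun h =>
          hg.2 (inner_of (mem_Om h3 (by rw [← hv]; exact ab_eq_one.1 h)) hz)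
        refine mem_Om (by rw [SemidirectProduct.mul_right, h1, h3, one_mul]) ?_
        rw [SemidirectProduct.mul_left, h1, map_one, MulAut.one_apply, ← hu, ← hv,
          ← QuotientGroup.mk_mul, ← ab_eq_one, map_mul, h4, h5, ht]
      · have h3 : z.right ≠ 1 := fun h => h1 (hyz.2 h)
        have h4 : y.right = z.right := Subtype.ext (H667.Fa.unique_inv
          (congrArg Subtype.val a1) (fun h => h1 (Subtype.ext h))
          (congrArg Subtype.val b1) (fun h => h3 (Subtype.ext h)))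
        refine mem_Om (by rw [SemidirectProduct.mul_right, ← h4, a1]) ?_
        have hc : ∀ x : K, (y.right.1 : K ≃+* K) (star x) = star ((y.right.1 : K ≃+* K) x) :=
          fun x => by rw [hs, hs]
        have h5 : (y * z).left = QuotientGroup.mk (u * gmap y.right.1 hc v) := by
          rw [SemidirectProduct.mul_left, ← hu, ← hv]
          rfl
        obtain ⟨q, hKq, hσq⟩ := H296.O.inv_data hs (y.right.1 : K ≃+* K)
          (by rw [pow_two]; exact congrArg Subtype.val a1) (fun h => h1 (Subtype.ext h))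
        have hqo : Odd q := by
          rw [hKq, Nat.odd_pow_iff (by norm_num)] at hq
          exact hq
        rw [h5, ← ab_eq_one, map_mul, ab_gmap hs h2 hqo _ hσq hc, a2 h1, b2 h3, one_mul]
    · show ((f (g x) : Om K n) : PGamU K n) = _
      rw [hy, hz]
      group
  have h1 : g = f⁻¹ * (f * g) := by group
  rw [h1]
  exact mul_mem (mem_sup_left (inv_mem (mem_zpowers f))) (mem_sup_right hfg)

/-- among three outer involutions two agree modulo inner automorphisms -/
theorem three (hs : ∀ x : K, star x = x) (hq : Odd (Nat.card K)) (h7 : 7 ≤ Nat.card K)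
    (hodd : Odd n) (hn : 5 ≤ n) (f g h : MulAut (Om K n)) (hf : OutAut 2 f) (hg : OutAut 2 g)
    (hh : OutAut 2 h) :
    g ∈ zpowers f ⊔ (MulAut.conj (G := Om K n)).range ∨
      h ∈ zpowers f ⊔ (MulAut.conj (G := Om K n)).range ∨
      h ∈ zpowers g ⊔ (MulAut.conj (G := Om K n)).range := by
  obtain ⟨x, hx⟩ := aut_Om hs hq h7 hodd hn f
  obtain ⟨y, hy⟩ := aut_Om hs hq h7 hodd hn g
  obtain ⟨z, hz⟩ := aut_Om hs hq h7 hodd hn h
  by_cases e1 : x.right = 1 ↔ y.right = 1
  · exact Or.inl (pair hs hq h7 hodd hn hf hg hx hy e1)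
  by_cases e2 : x.right = 1 ↔ z.right = 1
  · exact Or.inr (Or.inl (pair hs hq h7 hodd hn hf hh hx hz e2))
  · exact Or.inr (Or.inr (pair hs hq h7 hodd hn hg hh hy hz (by tauto)))

/-- `FewAut 2` for `Ω_n(q)`, if `𝒜₂` is connected -/
theorem fewAut_Om_two_of (hs : ∀ x : K, star x = x) (hq : Odd (Nat.card K))
    (h7 : 7 ≤ Nat.card K) (hodd : Odd n) (hn : 5 ≤ n)
    (hconn : ∀ A B : Ap 2 (Om K n), Relation.ReflTransGen (fun X Y => X ≤ Y ∨ Y ≤ X) A B) :
    FewAut 2 (Om K n) :=
  ⟨three hs hq h7 hodd hn, Or.inr hconn⟩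

/-- `FewAut 2` for `Ω_n(q)`, if `q` is no square -/
theorem fewAut_Om_two (hs : ∀ x : K, star x = x) (hq : Odd (Nat.card K))
    (h7 : 7 ≤ Nat.card K) (hodd : Odd n) (hn : 5 ≤ n)
    (hK : ∀ σ : RingAut K, σ * σ = 1 → σ = 1) : FewAut 2 (Om K n) := by
  refine ⟨three hs hq h7 hodd hn, Or.inl fun f g hf hg => ?_⟩
  obtain ⟨x, hx⟩ := aut_Om hs hq h7 hodd hn f
  obtain ⟨y, hy⟩ := aut_Om hs hq h7 hodd hn g
  obtain ⟨u, hu⟩ := QuotientGroup.mk_surjective x.left
  obtain ⟨v, hv⟩ := QuotientGroup.mk_surjective y.left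
  have h1 : x.right = 1 := Subtype.ext (hK _ (congrArg Subtype.val
    (inv_out hs hq h7 hodd hn hx hf.1 hu).1))
  have h3 : y.right = 1 := Subtype.ext (hK _ (congrArg Subtype.val
    (inv_out hs hq h7 hodd hn hy hg.1 hv).1))
  exact pair hs hq h7 hodd hn hf hg hx hy (by rw [h1, h3])

/-- the embedding of the commutator subgroup -/
def omE (K : Type u) [Field K] [Fintype K] [StarRing K] (n : ℕ) :
    ↥(commutator (PGU K n)) ≃* Om K n :=
  (commutator (PGU K n)).equivMapOfInjective SemidirectProduct.inl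
    SemidirectProduct.inl_injective

/-- `FewAut 2` for all groups isomorphic to `Ω_n(q)`, `n ≥ 5` odd, `q ≥ 7` odd, if `𝒜₂` is
connected -/
theorem fewAut_Omega_two_of (hs : ∀ x : K, star x = x) (hq : Odd (Nat.card K))
    (h7 : 7 ≤ Nat.card K) (hodd : Odd n) (hn : 5 ≤ n)
    (hconn : ∀ A B : Ap 2 (Om K n), Relation.ReflTransGen (fun X Y => X ≤ Y ∨ Y ≤ X) A B)
    {L : Type v} [Group L] (e : L ≃* ↥(commutator (PGU K n))) : FewAut 2 L :=
  (fewAut_Om_two_of hs hq h7 hodd hn hconn).congr (e.trans (omE K n)).symm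

/-- `FewAut 2` for all groups isomorphic to `Ω_n(q)`, `n ≥ 5` odd, `q ≥ 7` odd and no square -/
theorem fewAut_Omega_two (hs : ∀ x : K, star x = x) (hq : Odd (Nat.card K))
    (h7 : 7 ≤ Nat.card K) (hodd : Odd n) (hn : 5 ≤ n)
    (hK : ∀ σ : RingAut K, σ * σ = 1 → σ = 1) {L : Type v} [Group L]
    (e : L ≃* ↥(commutator (PGU K n))) : FewAut 2 L :=
  (fewAut_Om_two hs hq h7 hodd hn hK).congr (e.trans (omE K n)).symm

end grp

end

end Vale.Agent.P240.R2.H472.FO
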