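import Vale.Agent.P240.R2.H472.FO
import Vale.Agent.P240.R2.H715.CoB

/-!
P240: `FewAut 2` for `Ω_n(q)`, `n ≥ 5` odd, `q ≥ 7` odd.
-/

set_option autoImplicit false

namespace Vale.Agent.P240.R2.H472.FO

open Vale.Agent.P240.R2.AS Subgroup Vale.Agent.P240.H195

universe u v

variable {K : Type u} [Field K] [Fintype K] [StarRing K] {n : ℕ}

/-- **`FewAut 2` for `Ω_n(q)`**, `n ≥ 5` odd, `q ≥ 7` odd -/
theorem fewAut_Omega2 (hs : ∀ x : K, star x = x) (hq : Odd (Nat.card K)) (h7 : 7 ≤ Nat.card K)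
    (hodd : Odd n) (hn : 5 ≤ n) {L : Type v} [Group L] (e : L ≃* ↥(commutator (PGU K n))) :
    FewAut 2 L := by
  have : Finite (Om K n) := Finite.of_surjective (H651.omI K n) H651.omI_surj
  exact fewAut_Omega_two_of hs hq h7 hodd hn (H715.Co.conn_Om hs hq h7 hodd hn (omE K n)) e

end Vale.Agent.P240.R2.H472.FO
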