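import Vale.Agent.P240.R2.H296.StmtsO
import Vale.Agent.P240.R2.H472.OW

/-! `StmtO6b`: orthogonal Wigner. -/

set_option autoImplicit false

namespace Vale.Agent.P240.R2.H472

open Vale.Agent.P240.R2.AS

universe u

/-- odd order implies odd characteristic -/
theorem two_ne_zero_of_odd_card {K : Type u} [Field K] [Fintype K] (ho : Odd (Nat.card K)) :
    (2 : K) ≠ 0 := by
  intro h
  have hch : ringChar K = 2 := by
    have h1 : ringChar K ∣ 2 := by
      apply ringChar.dvd
      exact_mod_cast h
    rcases (Nat.dvd_prime Nat.prime_two).mp h1 with h1 | h1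
    · exact absurd h1 (CharP.ringChar_ne_one)
    · exact h1
  have h3 := FiniteField.even_card_iff_char_two.mp hch
  rw [← Nat.card_eq_fintype_card] at h3
  rw [Nat.odd_iff] at ho
  omega

theorem stmtO6b : StmtO6b.{u} := by
  intro K _ _ _ hs ho h7 n hn f κ hf hE
  refine wigner_o hn hs (two_ne_zero_of_odd_card ho) ?_ f κ hf fun i => ?_
  · rw [← Nat.card_eq_fintype_card]
    omega
  · rw [hE i (H744.E i) rfl]
    rfl

end Vale.Agent.P240.R2.H472
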