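import Vale.Agent.P240.R2.H387.Fs
import Vale.Agent.P240.R2.H281.H90b
import Vale.Agent.P240.R2.H472.M2b

/-!
R4 (b) of helper296 (P240, orthogonal groups): for a word `g` of odd length with fixed letters,
the fixed frames in the class of `g` are the images of the fixed frames of `K ^ n` under an
isometry.
-/

set_option autoImplicit false
set_option linter.unusedSectionVars false

open scoped Classical
open Matrix

namespace Vale.Agent.P240.R2.H472

open Vale.Agent.P240.R2.AS
open Vale.Agent.P240.R2.H387 (Fs mem_Fs mem_cls_Fs hf hf_def hf_map pr pr_apply exists_fixed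
  pr_mul_eq_zero)

universe u

noncomputable section

variable {K : Type u} [Field K] [Fintype K] [StarRing K]

theorem smul_mul_smul' {m n k : ℕ} (a b : K) (A : Matrix (Fin m) (Fin n) K)
    (B : Matrix (Fin n) (Fin k) K) : (a • A) * (b • B) = (a * b) • (A * B) := by
  rw [Matrix.smul_mul, Matrix.mul_smul, smul_smul]

/-- a semi-fixed isometry onto the space spanned by a fixed word of odd length -/
theorem exists_isometry_fixed {s : K ≃+* K} {q : ℕ} (hs : ∀ x : K, star x = x) (hodd : Odd q)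
    (hK : Nat.card K = q ^ 2) (hsq : ∀ x : K, s x = x ^ q) {N n : ℕ} (hn : Odd n)
    {g : List (Ln K N)} (hg : g.length = n) (hO : Orth g)
    (hfix : ∀ P ∈ g, P.1.map s = P.1) :
    ∃ S : Matrix (Fin N) (Fin n) K, ∃ c : K, Sᴴ * S = 1 ∧ S * Sᴴ = sm g ∧ c * c = 1 ∧
      S.map s = c • S := by
  subst hg
  have hc : ∀ x : K, s (star x) = star (s x) := fun x => by rw [hs, hs]
  choose y hy hy0 hyP using fun j : Fin g.length =>
    exists_fixed hc (hfix (g.get j) (List.get_mem g j))
  have horth : ∀ i j : Fin g.length, i ≠ j → hf (y i) (y j) = 0 := by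
    intro i j hij
    rcases lt_or_gt_of_ne hij with h | h
    · have h2 := (List.pairwise_iff_get.1 hO) i j h
      rw [hyP, hyP] at h2
      exact (pr_mul_eq_zero (hy0 i) (hy0 j)).1 h2
    · have h2 := (List.pairwise_iff_get.1 hO) j i h
      rw [hyP, hyP] at h2
      exact H387.hf_symm_zero ((pr_mul_eq_zero (hy0 j) (hy0 i)).1 h2)
  have hCT : ∀ {m k : ℕ} (A : Matrix (Fin m) (Fin k) K), Aᴴ = Aᵀ := by
    intro m k A
    ext i j
    rw [conjTranspose_apply, hs, transpose_apply]
  -- the fixed field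
  let F : Subfield K := (s : K →+* K).eqLocusField (RingHom.id K)
  have hF : ∀ x : K, x ∈ F ↔ s x = x := fun x => Iff.rfl
  have hdF : ∀ j, hf (y j) (y j) ∈ F := by
    intro j
    rw [hF, hf_map hc, show (fun i => s (y j i)) = y j from funext (hy j)]
  let d : Fin g.length → F := fun j => ⟨hf (y j) (y j), hdF j⟩
  have hd0 : ∀ j, d j ≠ 0 := fun j h => hy0 j (congrArg Subtype.val h)
  have h2 : (2 : K) ≠ 0 := by
    intro h
    have ho : Odd (Nat.card K) := by rw [hK]; exact hodd.pow
    have hch : ringChar K = 2 := by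
      have h1 : ringChar K ∣ 2 := by
        apply ringChar.dvd
        exact_mod_cast h
      rcases (Nat.dvd_prime Nat.prime_two).mp h1 with h1 | h1
      · exact absurd h1 (CharP.ringChar_ne_one)
      · exact h1
    have h3 := FiniteField.even_card_iff_char_two.mp hch
    rw [← Nat.card_eq_fintype_card] at h3
    rw [Nat.odd_iff] at ho
    omega
  have h2' : (2 : F) ≠ 0 := by
    intro h
    apply h2
    have h3 := congrArg F.subtype h
    rwa [map_ofNat, map_zero] at h3
  set D := ∏ i, d i with hD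
  have hD0 : D ≠ 0 := Finset.prod_ne_zero_iff.mpr fun i _ => hd0 i
  obtain ⟨M, hM⟩ := H281.exists_orthonormal (F := F) h2' _ (fun i => D * d i)
    (fun i => mul_ne_zero hD0 (hd0 i)) (by
      rw [Finset.prod_mul_distrib, ← hD, Finset.prod_const, Finset.card_univ, Fintype.card_fin]
      obtain ⟨k, hk⟩ := hn
      rw [hk]
      exact ⟨D ^ (k + 1), by ring⟩) rfl
  let δ : K := (D : K)
  have hδ0 : δ ≠ 0 := fun h => hD0 (Subtype.ext h)
  have hδs : s δ = δ := D.2
  obtain ⟨r, hr⟩ : ∃ r : K, r * r = δ := by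
    obtain ⟨a, ha⟩ := H387.exists_norm (by rw [← Nat.card_eq_fintype_card]; exact hK) hδ0
      (by rw [← hsq]; exact hδs)
    obtain ⟨k, hk⟩ := hodd
    refine ⟨a ^ (k + 1), ?_⟩
    rw [← pow_add, ← ha]
    congr 1
    omega
  have hr0 : r ≠ 0 := by
    rintro rfl
    exact hδ0 (by rw [← hr, mul_zero])
  let B : Matrix (Fin g.length) (Fin g.length) K := M.map F.subtype
  have hB : Bᵀ * diagonal (fun i => δ * hf (y i) (y i)) * B = 1 := by
    have h1 := congrArg (fun A => F.subtype.mapMatrix A) hM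
    simp only [map_mul, map_one, RingHom.mapMatrix_apply] at h1
    rw [← h1]
    congr 2
    rw [diagonal_map (map_zero _)]
    rfl
  have hBs : B.map s = B := by
    ext i j
    exact (M i j).2
  let W : Matrix (Fin N) (Fin g.length) K := Matrix.of fun i j => y j i
  have hWW : Wᵀ * W = diagonal (fun i => hf (y i) (y i)) := by
    ext i j
    have h1 : (Wᵀ * W) i j = hf (y i) (y j) := by
      rw [Matrix.mul_apply, hf_def]
      exact Finset.sum_congr rfl fun k _ => by rw [hs]; rfl
    rw [h1, diagonal_apply]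
    by_cases hij : i = j
    · subst hij; rw [if_pos rfl]
    · rw [if_neg hij, horth i j hij]
  have hWs : W.map s = W := by
    ext i j
    exact hy j i
  have hBB : B * Bᵀ = diagonal (fun i => (δ * hf (y i) (y i))⁻¹) := by
    have h1 : B * (Bᵀ * diagonal (fun i => δ * hf (y i) (y i))) = 1 := mul_eq_one_comm.1 hB
    have h3 : diagonal (fun i => δ * hf (y i) (y i)) *
        diagonal (fun i => (δ * hf (y i) (y i))⁻¹) = 1 := by
      rw [diagonal_mul_diagonal, ← diagonal_one]
      congr 1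
      funext i
      exact mul_inv_cancel₀ (mul_ne_zero hδ0 (hy0 i))
    calc B * Bᵀ = B * Bᵀ * (diagonal (fun i => δ * hf (y i) (y i)) *
        diagonal (fun i => (δ * hf (y i) (y i))⁻¹)) := by rw [h3, Matrix.mul_one]
      _ = B * (Bᵀ * diagonal (fun i => δ * hf (y i) (y i))) *
        diagonal (fun i => (δ * hf (y i) (y i))⁻¹) := by simp only [Matrix.mul_assoc]
      _ = _ := by rw [h1, Matrix.one_mul]
  refine ⟨r • (W * B), s r / r, ?_, ?_, ?_, ?_⟩
  · rw [hCT, transpose_smul, transpose_mul, smul_mul_smul', hr,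
      show Bᵀ * Wᵀ * (W * B) = Bᵀ * (Wᵀ * W) * B by simp only [Matrix.mul_assoc], hWW, ← hB,
      ← Matrix.smul_mul, ← Matrix.mul_smul]
    congr 2
    ext i j
    rw [Matrix.smul_apply, diagonal_apply, diagonal_apply]
    by_cases h : i = j
    · rw [if_pos h, if_pos h, smul_eq_mul]
    · rw [if_neg h, if_neg h, smul_zero]
  · rw [hCT, transpose_smul, transpose_mul, smul_mul_smul', hr,
      show W * B * (Bᵀ * Wᵀ) = W * (B * Bᵀ) * Wᵀ by simp only [Matrix.mul_assoc], hBB]
    have hsm : sm g = ∑ j : Fin g.length, pr (y j) := by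
      rw [← Finset.sum_congr rfl (fun j _ => hyP j), sm]
      conv_lhs => rw [← List.ofFn_get g]
      rw [List.map_ofFn, List.sum_ofFn]
      rfl
    rw [hsm]
    ext a b
    rw [Matrix.smul_apply, Matrix.mul_apply, Matrix.sum_apply, Finset.smul_sum]
    refine Finset.sum_congr rfl fun j _ => ?_
    rw [mul_diagonal, transpose_apply, pr_apply, hs]
    change δ * (y j a * (δ * hf (y j) (y j))⁻¹ * y j b) = _
    have := hy0 j
    field_simp
  · rw [div_mul_div_comm, ← map_mul, hr, hδs, div_self hδ0]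
  · ext i j
    have h1 : (W * B).map s = W * B := by
      rw [Matrix.map_mul, hWs, hBs]
    have h3 : s ((W * B) i j) = (W * B) i j := congrFun (congrFun h1 i) j
    rw [Matrix.map_apply, Matrix.smul_apply, Matrix.smul_apply, Matrix.smul_apply, smul_eq_mul,
      smul_eq_mul, map_mul, h3]
    field_simp

/-- transport of fixed letters -/
theorem phi_fixed {s : K ≃+* K} (hc : ∀ x : K, s (star x) = star (s x)) {N n : ℕ}
    {S : Matrix (Fin N) (Fin n) K} (hS : Sᴴ * S = 1) {c : K} (hc1 : c * star c = 1)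
    (hSs : S.map s = c • S) (P : Ln K n) :
    (phi hS P).1.map s = (phi hS P).1 ↔ P.1.map s = P.1 := by
  have h1 : (Sᴴ).map s = star c • Sᴴ := by
    ext i j
    have h2 := congrFun (congrFun hSs j) i
    rw [Matrix.map_apply, Matrix.smul_apply] at h2
    rw [Matrix.map_apply, conjTranspose_apply, hc, h2, Matrix.smul_apply, conjTranspose_apply,
      smul_eq_mul, smul_eq_mul, star_mul']
  have h3 : (phi hS P).1.map s = S * P.1.map s * Sᴴ := by
    rw [phi_val, Matrix.map_mul, Matrix.map_mul, h1, hSs, Matrix.smul_mul, smul_mul_smul',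
      hc1, one_smul]
  rw [h3, phi_val]
  constructor
  · intro h
    rw [← conj_conj hS (P.1.map s), h, conj_conj hS]
  · intro h
    rw [h]

/-- the fixed frames in the class of `g` -/
theorem cls_Fs {s : K ≃+* K} {q : ℕ} (hs : ∀ x : K, star x = x) (hodd : Odd q)
    (hK : Nat.card K = q ^ 2) (hsq : ∀ x : K, s x = x ^ q) {N n : ℕ} (hn : Odd n)
    {g : List (Ln K N)} (hg : g.length = n) (hw : ∃ w, w ++ g ∈ Fs s N) :
    ∃ f : Ln K n → Ln K N, Function.Injective f ∧
      cls (Fs s N) g = (Fs s n).image (List.map f) := by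
  obtain ⟨w0, hw0⟩ := id hw
  obtain ⟨hw1, hw2⟩ := mem_Fs.1 hw0
  have hO : Orth g := (orth_append.1 ((mem_Fr K).1 hw1).2).2.1
  have hc : ∀ x : K, s (star x) = star (s x) := fun x => by rw [hs, hs]
  obtain ⟨S, c, h1, h2, h3, h4⟩ := exists_isometry_fixed hs hodd hK hsq hn hg hO
    (fun P hP => hw2 P (List.mem_append_right _ hP))
  refine ⟨phi h1, phi_inj h1, ?_⟩
  have hfx := phi_fixed hc h1 (by rw [hs]; exact h3) h4
  ext g'
  rw [mem_cls_Fs hw, Finset.mem_image]
  constructor
  · rintro ⟨a1, a2, a3, a4⟩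
    obtain ⟨w, b1, b2⟩ := Finset.mem_image.1 ((frames_range h1 g').1
      ⟨a1.trans hg, a2, a3.trans h2.symm⟩)
    refine ⟨w, mem_Fs.2 ⟨b1, fun P hP => (hfx P).1 (a4 _ ?_)⟩, b2⟩
    rw [← b2]
    exact List.mem_map_of_mem hP
  · rintro ⟨w, b1, rfl⟩
    obtain ⟨b1, b2⟩ := mem_Fs.1 b1
    obtain ⟨a1, a2, a3⟩ := (frames_range h1 _).2 (Finset.mem_image_of_mem _ b1)
    refine ⟨a1.trans hg.symm, a2, a3.trans h2, fun P hP => ?_⟩
    obtain ⟨Q, hQ, rfl⟩ := List.mem_map.1 hP
    exact (hfx Q).2 (b2 Q hQ)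

/-- R4 (b) -/
theorem r4b {s : K ≃+* K} {q : ℕ} (hs : ∀ x : K, star x = x) (hodd : Odd q)
    (hK : Nat.card K = q ^ 2) (hsq : ∀ x : K, s x = x ^ q) {N n : ℕ} (hn : Odd n)
    {g : List (Ln K N)} (hg : g.length = n) (hw : ∃ w, w ++ g ∈ Fs s N) :
    (cls (Fs s N) g).card = (Fs s n).card ∧ t (cls (Fs s N) g) = t (Fs s n) := by
  obtain ⟨f, hf, h⟩ := cls_Fs hs hodd hK hsq hn hg hw
  rw [h]
  exact ⟨Finset.card_image_of_injective _ (List.map_injective_iff.2 hf), t_map hf _⟩

end

end Vale.Agent.P240.R2.H472
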