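import Vale.Agent.P240.R2.H472.R4b
import Vale.Agent.P240.R2.H472.Dg

/-!
Fixed frames in even (and odd) dimension, both discriminants (P240, even orthogonal groups).
-/

set_option autoImplicit false
set_option linter.unusedSectionVars false

open scoped Classical
open Matrix

namespace Vale.Agent.P240.R2.H472

open Vale.Agent.P240.R2.AS
open Vale.Agent.P240.R2.H387 (Fs mem_Fs mem_cls_Fs hf hf_def hf_map pr pr_apply exists_fixed
  pr_mul_eq_zero good_Fs_triv Fs_nonempty)

universe u

noncomputable section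

variable {K : Type u} [Field K] [Fintype K] [StarRing K]

/-- the frames whose letters are fixed by `P ↦ D s(P) D*` -/
def Fd (s : K ≃+* K) {n : ℕ} (D : Matrix (Fin n) (Fin n) K) : Finset (List (Ln K n)) :=
  (Fr K n).filter (fun w => ∀ P ∈ w, D * P.1.map s * star D = P.1)

theorem mem_Fd {s : K ≃+* K} {n : ℕ} {D : Matrix (Fin n) (Fin n) K} {w : List (Ln K n)} :
    w ∈ Fd s D ↔ w ∈ Fr K n ∧ ∀ P ∈ w, D * P.1.map s * star D = P.1 := by
  rw [Fd, Finset.mem_filter]

theorem Fd_one (s : K ≃+* K) (n : ℕ) : Fd s (1 : Matrix (Fin n) (Fin n) K) = Fs s n := by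
  ext w
  rw [mem_Fd, mem_Fs]
  simp

/-- the reflection in the coordinate `i₀` -/
def rd {n : ℕ} (i₀ : Fin n) : Matrix (Fin n) (Fin n) K := diagonal (Function.update 1 i₀ (-1))

/-- an isometry onto the space spanned by a fixed word, which commutes with `s` up to the
reflection in a coordinate -/
theorem exists_isometry_D {s : K ≃+* K} {q : ℕ} (hs : ∀ x : K, star x = x) (hodd : Odd q)
    (hK : Nat.card K = q ^ 2) (hsq : ∀ x : K, s x = x ^ q) {N n : ℕ} (i₀ : Fin n)
    {g : List (Ln K N)} (hg : g.length = n) (hO : Orth g)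
    (hfix : ∀ P ∈ g, P.1.map s = P.1) :
    ∃ S : Matrix (Fin N) (Fin n) K, Sᴴ * S = 1 ∧ S * Sᴴ = sm g ∧
      (S.map s = S ∨ S.map s = S * rd i₀) := by
  subst hg
  have hc : ∀ x : K, s (star x) = star (s x) := fun x => by rw [hs, hs]
  choose y hy hy0 hyP using fun j : Fin g.length =>
    exists_fixed hc (hfix (g.get j) (List.get_mem g j))
  have horth : ∀ i j : Fin g.length, i ≠ j → hf (y i) (y j) = 0 := by
    intro i j hij
    rcases lt_or_gt_of_ne hij with h | h
    · have h2 := (List.pairwise_iff_get.1 hO) i j h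
      rw [hyP, hyP] at h2
      exact (pr_mul_eq_zero (hy0 i) (hy0 j)).1 h2
    · have h2 := (List.pairwise_iff_get.1 hO) j i h
      rw [hyP, hyP] at h2
      exact H387.hf_symm_zero ((pr_mul_eq_zero (hy0 j) (hy0 i)).1 h2)
  have hCT : ∀ {m k : ℕ} (A : Matrix (Fin m) (Fin k) K), Aᴴ = Aᵀ := by
    intro m k A
    ext i j
    rw [conjTranspose_apply, hs, transpose_apply]
  -- the fixed field
  let F : Subfield K := (s : K →+* K).eqLocusField (RingHom.id K)
  have hF : ∀ x : K, x ∈ F ↔ s x = x := fun x => Iff.rfl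
  have hdF : ∀ j, hf (y j) (y j) ∈ F := by
    intro j
    rw [hF, hf_map hc, show (fun i => s (y j i)) = y j from funext (hy j)]
  let d : Fin g.length → F := fun j => ⟨hf (y j) (y j), hdF j⟩
  have hd0 : ∀ j, d j ≠ 0 := fun j h => hy0 j (congrArg Subtype.val h)
  have h2 : (2 : K) ≠ 0 := by
    intro h
    have ho : Odd (Nat.card K) := by rw [hK]; exact hodd.pow
    have hch : ringChar K = 2 := by
      have h1 : ringChar K ∣ 2 := by
        apply ringChar.dvd
        exact_mod_cast h
      rcases (Nat.dvd_prime Nat.prime_two).mp h1 with h1 | h1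
      · exact absurd h1 (CharP.ringChar_ne_one)
      · exact h1
    have h3 := FiniteField.even_card_iff_char_two.mp hch
    rw [← Nat.card_eq_fintype_card] at h3
    rw [Nat.odd_iff] at ho
    omega
  have h2' : (2 : F) ≠ 0 := by
    intro h
    apply h2
    have h3 := congrArg F.subtype h
    rwa [map_ofNat, map_zero] at h3
  set D := ∏ i, d i with hD
  have hD0 : D ≠ 0 := Finset.prod_ne_zero_iff.mpr fun i _ => hd0 i
  obtain ⟨M, hM⟩ := exists_diag (F := F) h2' i₀ d hd0
  rw [← hD] at hM
  let δ : K := (D : K)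
  have hδ0 : δ ≠ 0 := fun h => hD0 (Subtype.ext h)
  have hδs : s δ = δ := D.2
  obtain ⟨r, hr⟩ : ∃ r : K, r * r = δ := by
    obtain ⟨a, ha⟩ := H387.exists_norm (by rw [← Nat.card_eq_fintype_card]; exact hK) hδ0
      (by rw [← hsq]; exact hδs)
    obtain ⟨k, hk⟩ := hodd
    refine ⟨a ^ (k + 1), ?_⟩
    rw [← pow_add, ← ha]
    congr 1
    omega
  have hr0 : r ≠ 0 := by
    rintro rfl
    exact hδ0 (by rw [← hr, mul_zero])
  let B : Matrix (Fin g.length) (Fin g.length) K := M.map F.subtype
  have hB : Bᵀ * diagonal (fun i => hf (y i) (y i)) * B = diagonal (Function.update 1 i₀ δ) := by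
    have h1 := congrArg (fun A => F.subtype.mapMatrix A) hM
    simp only [map_mul, RingHom.mapMatrix_apply] at h1
    have h3 : (diagonal (Function.update 1 i₀ D)).map F.subtype =
        diagonal (Function.update (1 : Fin g.length → K) i₀ δ) := by
      rw [diagonal_map (map_zero _)]
      congr 1
      funext i
      by_cases hi : i = i₀
      · rw [hi]; simp [δ]
      · simp [hi]
    rw [h3] at h1
    rw [← h1]
    congr 2
    rw [diagonal_map (map_zero _)]
    rfl
  have hBs : B.map s = B := by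
    ext i j
    exact (M i j).2
  let W : Matrix (Fin N) (Fin g.length) K := Matrix.of fun i j => y j i
  have hWW : Wᵀ * W = diagonal (fun i => hf (y i) (y i)) := by
    ext i j
    have h1 : (Wᵀ * W) i j = hf (y i) (y j) := by
      rw [Matrix.mul_apply, hf_def]
      exact Finset.sum_congr rfl fun k _ => by rw [hs]; rfl
    rw [h1, diagonal_apply]
    by_cases hij : i = j
    · subst hij; rw [if_pos rfl]
    · rw [if_neg hij, horth i j hij]
  have hWs : W.map s = W := by
    ext i j
    exact hy j i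
  let R : Matrix (Fin g.length) (Fin g.length) K := diagonal (Function.update 1 i₀ r⁻¹)
  have hRt : Rᵀ = R := diagonal_transpose _
  have hRR : R * R * diagonal (Function.update 1 i₀ δ) = 1 := by
    rw [diagonal_mul_diagonal, diagonal_mul_diagonal, ← diagonal_one]
    congr 1
    funext i
    by_cases hi : i = i₀
    · rw [hi]
      simp only [Function.update_self]
      rw [← hr]
      field_simp
    · simp [Function.update_of_ne hi]
  have hRR' : R * diagonal (Function.update 1 i₀ δ) * R = 1 := by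
    rw [diagonal_mul_diagonal, diagonal_mul_diagonal, ← diagonal_one]
    congr 1
    funext i
    by_cases hi : i = i₀
    · rw [hi]
      simp only [Function.update_self]
      rw [← hr]
      field_simp
    · simp [Function.update_of_ne hi]
  have hBB : B * (R * R) * Bᵀ * diagonal (fun i => hf (y i) (y i)) = 1 := by
    have h1 : (R * R) * (Bᵀ * diagonal (fun i => hf (y i) (y i)) * B) = 1 := by rw [hB, hRR]
    have h3 : ((R * R) * Bᵀ * diagonal (fun i => hf (y i) (y i))) * B = 1 := by
      rw [← h1]; simp only [Matrix.mul_assoc]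
    have h4 := mul_eq_one_comm.1 h3
    rw [← h4]
    simp only [Matrix.mul_assoc]
  have hBB' : B * (R * R) * Bᵀ = diagonal (fun i => (hf (y i) (y i))⁻¹) := by
    have h3 : diagonal (fun i => hf (y i) (y i)) * diagonal (fun i => (hf (y i) (y i))⁻¹) = 1 := by
      rw [diagonal_mul_diagonal, ← diagonal_one]
      congr 1
      funext i
      exact mul_inv_cancel₀ (hy0 i)
    calc B * (R * R) * Bᵀ = B * (R * R) * Bᵀ * (diagonal (fun i => hf (y i) (y i)) *
        diagonal (fun i => (hf (y i) (y i))⁻¹)) := by rw [h3, Matrix.mul_one]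
      _ = (B * (R * R) * Bᵀ * diagonal (fun i => hf (y i) (y i))) *
        diagonal (fun i => (hf (y i) (y i))⁻¹) := by simp only [Matrix.mul_assoc]
      _ = _ := by rw [hBB, Matrix.one_mul]
  refine ⟨W * B * R, ?_, ?_, ?_⟩
  · rw [hCT, transpose_mul, transpose_mul, hRt,
      show R * (Bᵀ * Wᵀ) * (W * B * R) = R * (Bᵀ * (Wᵀ * W) * B) * R by
        simp only [Matrix.mul_assoc], hWW, hB, hRR']
  · rw [hCT, transpose_mul, transpose_mul, hRt,
      show W * B * R * (R * (Bᵀ * Wᵀ)) = W * (B * (R * R) * Bᵀ) * Wᵀ by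
        simp only [Matrix.mul_assoc], hBB']
    have hsm : sm g = ∑ j : Fin g.length, pr (y j) := by
      rw [← Finset.sum_congr rfl (fun j _ => hyP j), sm]
      conv_lhs => rw [← List.ofFn_get g]
      rw [List.map_ofFn, List.sum_ofFn]
      rfl
    rw [hsm]
    ext a b
    rw [Matrix.mul_apply, Matrix.sum_apply]
    refine Finset.sum_congr rfl fun j _ => ?_
    rw [mul_diagonal, transpose_apply, pr_apply, hs]
    change y j a * (hf (y j) (y j))⁻¹ * y j b = _
    ring
  · have hrs : s r = r ∨ s r = -r := by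
      have h3 : s r * s r = r * r := by rw [← map_mul, hr, hδs]
      exact mul_self_eq_mul_self_iff.1 h3
    have hm : (W * B * R).map s = W * B * R.map s := by
      rw [Matrix.map_mul, Matrix.map_mul, hWs, hBs]
    rcases hrs with h | h
    · left
      rw [hm]
      congr 1
      rw [diagonal_map (map_zero _)]
      congr 1
      funext i
      by_cases hi : i = i₀
      · rw [hi]; simp [h]
      · simp [hi]
    · right
      have e1 : R.map s = R * rd i₀ := by
        rw [rd, diagonal_mul_diagonal, diagonal_map (map_zero _)]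
        congr 1
        funext i
        by_cases hi : i = i₀
        · rw [hi]; simp [h, inv_neg]
        · simp [hi]
      have e2 := Matrix.mul_assoc (W * B) R (rd i₀)
      rw [hm, e1]
      exact e2.symm

/-- transport of fixed letters -/
theorem phi_fixed_D {s : K ≃+* K} (hc : ∀ x : K, s (star x) = star (s x)) {N n : ℕ}
    {S : Matrix (Fin N) (Fin n) K} (hS : Sᴴ * S = 1) {D : Matrix (Fin n) (Fin n) K}
    (hSs : S.map s = S * D) (P : Ln K n) :
    (phi hS P).1.map s = (phi hS P).1 ↔ D * P.1.map s * star D = P.1 := by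
  have h1 : (Sᴴ).map s = star D * Sᴴ := by
    have h3 : (Sᴴ).map s = (S.map s)ᴴ := by
      ext i j
      rw [Matrix.map_apply, conjTranspose_apply, conjTranspose_apply, hc, Matrix.map_apply]
    rw [h3, hSs, conjTranspose_mul, star_eq_conjTranspose]
  have h3 : (phi hS P).1.map s = S * (D * P.1.map s * star D) * Sᴴ := by
    rw [phi_val, Matrix.map_mul, Matrix.map_mul, h1, hSs]
    simp only [Matrix.mul_assoc]
  rw [h3, phi_val]
  constructor
  · intro h
    rw [← conj_conj hS (D * P.1.map s * star D), h, conj_conj hS]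
  · intro h
    rw [h]

/-- the fixed frames in the class of `g`, both discriminants -/
theorem cls_Fd {s : K ≃+* K} {q : ℕ} (hs : ∀ x : K, star x = x) (hodd : Odd q)
    (hK : Nat.card K = q ^ 2) (hsq : ∀ x : K, s x = x ^ q) {N n : ℕ} (i₀ : Fin n)
    {g : List (Ln K N)} (hg : g.length = n) (hw : ∃ w, w ++ g ∈ Fs s N) :
    ∃ D : Matrix (Fin n) (Fin n) K, (D = 1 ∨ D = rd i₀) ∧ ∃ f : Ln K n → Ln K N,
      Function.Injective f ∧ cls (Fs s N) g = (Fd s D).image (List.map f) := by
  obtain ⟨w0, hw0⟩ := id hw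
  obtain ⟨hw1, hw2⟩ := mem_Fs.1 hw0
  have hO : Orth g := (orth_append.1 ((mem_Fr K).1 hw1).2).2.1
  have hc : ∀ x : K, s (star x) = star (s x) := fun x => by rw [hs, hs]
  obtain ⟨S, h1, h2, h3⟩ := exists_isometry_D hs hodd hK hsq i₀ hg hO
    (fun P hP => hw2 P (List.mem_append_right _ hP))
  obtain ⟨D, hD, h4⟩ : ∃ D : Matrix (Fin n) (Fin n) K, (D = 1 ∨ D = rd i₀) ∧ S.map s = S * D := by
    rcases h3 with h3 | h3
    · exact ⟨1, Or.inl rfl, by rw [h3, Matrix.mul_one]⟩
    · exact ⟨rd i₀, Or.inr rfl, h3⟩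
  refine ⟨D, hD, phi h1, phi_inj h1, ?_⟩
  have hfx := phi_fixed_D hc h1 h4
  ext g'
  rw [mem_cls_Fs hw, Finset.mem_image]
  constructor
  · rintro ⟨a1, a2, a3, a4⟩
    obtain ⟨w, b1, b2⟩ := Finset.mem_image.1 ((frames_range h1 g').1
      ⟨a1.trans hg, a2, a3.trans h2.symm⟩)
    refine ⟨w, mem_Fd.2 ⟨b1, fun P hP => (hfx P).1 (a4 _ ?_)⟩, b2⟩
    rw [← b2]
    exact List.mem_map_of_mem hP
  · rintro ⟨w, b1, rfl⟩
    obtain ⟨b1, b2⟩ := mem_Fd.1 b1
    obtain ⟨a1, a2, a3⟩ := (frames_range h1 _).2 (Finset.mem_image_of_mem _ b1)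
    refine ⟨a1.trans hg.symm, a2, a3.trans h2, fun P hP => ?_⟩
    obtain ⟨Q, hQ, rfl⟩ := List.mem_map.1 hP
    exact (hfx Q).2 (b2 Q hQ)

end

end Vale.Agent.P240.R2.H472
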