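import Vale.Agent.P240.R2.H775.GS2

/-! `t` does not change under an injective renaming of the letters. -/

namespace Vale.Agent.P240.R2.H472

open Vale.Agent.P240.R2.H775

variable {L L' : Type*}

theorem Br_map (f : L → L') (g : List L) : ∀ (u v : List L) (z : List L' → ℚ),
    Br u g v (fun x => z (x.map f)) = Br (u.map f) (g.map f) (v.map f) z := by
  induction g with
  | nil => intro u v z; simp [Br_nil]
  | cons l M ih =>
    intro u v z
    by_cases hM : M = []
    · subst hM; simp [Br_one]
    · have hM' : M.map f ≠ [] := by simpa using hM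
      rw [Br_cons _ _ _ _ hM, List.map_cons, Br_cons _ _ _ _ hM', ih, ih]
      simp

variable [DecidableEq L] [Fintype L] [DecidableEq L'] [Fintype L']

/-- pull-back of functions -/
def pull (f : L → L') : (List L' → ℚ) →ₗ[ℚ] (List L → ℚ) where
  toFun z := fun x => z (x.map f)
  map_add' := fun _ _ => rfl
  map_smul' := fun _ _ => rfl

omit [DecidableEq L] [Fintype L] [DecidableEq L'] [Fintype L'] in
theorem pull_apply (f : L → L') (z : List L' → ℚ) (x : List L) :
    pull f z x = z (x.map f) := rfl

omit [DecidableEq L] [Fintype L] [Fintype L'] in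
theorem mem_image_map {f : L → L'} (hf : Function.Injective f) {F : Finset (List L)}
    {w : List L} : w.map f ∈ F.image (List.map f) ↔ w ∈ F := by
  rw [Finset.mem_image]
  constructor
  · rintro ⟨x, hx, hxw⟩
    rwa [← List.map_injective_iff.2 hf hxw]
  · exact fun h => ⟨w, h, rfl⟩

omit [DecidableEq L] in
theorem pull_SOL {f : L → L'} (hf : Function.Injective f) (F : Finset (List L)) :
    (SOL (F.image (List.map f))).map (pull f) = SOL F := by
  apply le_antisymm
  · rintro _ ⟨z, ⟨hz1, hz2⟩, rfl⟩
    refine ⟨fun w hw => hz1 _ (fun h => hw ((mem_image_map hf).1 h)), fun u v => ?_⟩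
    have key : ∀ a' b' : L', (a' ∉ Set.range f ∨ b' ∉ Set.range f) →
        z (u.map f ++ [a', b'] ++ v.map f) = 0 := by
      intro a' b' hab
      apply hz1
      intro hmem
      rw [Finset.mem_image] at hmem
      obtain ⟨x, _, hx⟩ := hmem
      have ha : a' ∈ x.map f := by rw [hx]; simp
      have hb : b' ∈ x.map f := by rw [hx]; simp
      rw [List.mem_map] at ha hb
      obtain ⟨p, _, hp⟩ := ha
      obtain ⟨r, _, hr⟩ := hb
      rcases hab with h | h
      · exact h ⟨p, hp⟩
      · exact h ⟨r, hr⟩
    have h0 := hz2 (u.map f) (v.map f)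
    have e1 : ∀ (G : L' → ℚ), (∀ a', a' ∉ Set.range f → G a' = 0) →
        ∑ a', G a' = ∑ a, G (f a) := by
      intro G hG
      rw [← Finset.sum_image (f := G) (s := Finset.univ) (g := f) (fun x _ y _ h => hf h)]
      symm
      apply Finset.sum_subset (Finset.subset_univ _)
      intro x _ hx
      apply hG
      rintro ⟨y, rfl⟩
      exact hx (Finset.mem_image_of_mem _ (Finset.mem_univ _))
    rw [e1 _ (fun a' ha' => Finset.sum_eq_zero fun b' _ => key a' b' (Or.inl ha'))] at h0
    rw [← h0]
    refine Finset.sum_congr rfl fun a _ => ?_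
    rw [e1 _ (fun b' hb' => key (f a) b' (Or.inr hb'))]
    refine Finset.sum_congr rfl fun b _ => ?_
    rw [pull_apply]
    simp
  · intro z hz
    have hinj : Function.Injective (List.map f) := List.map_injective_iff.2 hf
    refine ⟨Function.extend (List.map f) z 0, ⟨?_, ?_⟩, ?_⟩
    · intro w hw
      by_cases hr : ∃ x, List.map f x = w
      · obtain ⟨x, rfl⟩ := hr
        rw [hinj.extend_apply]
        exact hz.1 x fun hx => hw ((mem_image_map hf).2 hx)
      · rw [Function.extend_apply' _ _ _ hr]
        rfl
    · intro u' v'
      by_cases hu : ∃ u, List.map f u = u'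
      · by_cases hv : ∃ v, List.map f v = v'
        · obtain ⟨u, rfl⟩ := hu
          obtain ⟨v, rfl⟩ := hv
          have e1 : ∀ (G : L' → ℚ), (∀ a', a' ∉ Set.range f → G a' = 0) →
              ∑ a', G a' = ∑ a, G (f a) := by
            intro G hG
            rw [← Finset.sum_image (f := G) (s := Finset.univ) (g := f) (fun x _ y _ h => hf h)]
            symm
            apply Finset.sum_subset (Finset.subset_univ _)
            intro x _ hx
            apply hG
            rintro ⟨y, rfl⟩
            exact hx (Finset.mem_image_of_mem _ (Finset.mem_univ _))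
          have key : ∀ a' b' : L', (a' ∉ Set.range f ∨ b' ∉ Set.range f) →
              Function.extend (List.map f) z 0 (u.map f ++ [a', b'] ++ v.map f) = 0 := by
            intro a' b' hab
            apply Function.extend_apply'
            rintro ⟨x, hx⟩
            have ha : a' ∈ x.map f := by rw [hx]; simp
            have hb : b' ∈ x.map f := by rw [hx]; simp
            rw [List.mem_map] at ha hb
            obtain ⟨p, _, hp⟩ := ha
            obtain ⟨r, _, hr⟩ := hb
            rcases hab with h | h
            · exact h ⟨p, hp⟩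
            · exact h ⟨r, hr⟩
          rw [e1 _ (fun a' ha' => Finset.sum_eq_zero fun b' _ => key a' b' (Or.inl ha'))]
          rw [← hz.2 u v]
          refine Finset.sum_congr rfl fun a _ => ?_
          rw [e1 _ (fun b' hb' => key (f a) b' (Or.inr hb'))]
          refine Finset.sum_congr rfl fun b _ => ?_
          have : u.map f ++ [f a, f b] ++ v.map f = List.map f (u ++ [a, b] ++ v) := by simp
          rw [this, hinj.extend_apply]
        · refine Finset.sum_eq_zero fun a' _ => Finset.sum_eq_zero fun b' _ => ?_
          apply Function.extend_apply'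
          rintro ⟨x, hx⟩
          apply hv
          rw [List.map_eq_append_iff] at hx
          obtain ⟨l₁, l₂, rfl, _, h2⟩ := hx
          exact ⟨l₂, h2⟩
      · refine Finset.sum_eq_zero fun a' _ => Finset.sum_eq_zero fun b' _ => ?_
        apply Function.extend_apply'
        rintro ⟨x, hx⟩
        apply hu
        rw [List.append_assoc, List.map_eq_append_iff] at hx
        obtain ⟨l₁, l₂, rfl, h1, _⟩ := hx
        exact ⟨l₁, h1⟩
    · funext x
      rw [pull_apply, hinj.extend_apply]

omit [Fintype L] [Fintype L'] in
theorem bmap_pull {f : L → L'} (hf : Function.Injective f) (F : Finset (List L))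
    (z : List L' → ℚ) :
    bmap F (pull f z) = pull f (bmap (F.image (List.map f)) z) := by
  funext g
  simp only [bmap, LinearMap.coe_mk, AddHom.coe_mk, pull_apply]
  by_cases hg : g ∈ F
  · rw [if_pos hg, if_pos ((mem_image_map hf).2 hg)]
    have := Br_map f g [] [] z
    simp only [List.map_nil] at this
    exact this
  · rw [if_neg hg, if_neg (fun h => hg ((mem_image_map hf).1 h))]

theorem pull_T {f : L → L'} (hf : Function.Injective f) (F : Finset (List L)) :
    (T (F.image (List.map f))).map (pull f) = T F := by
  rw [T, T, ← pull_SOL hf F, ← Submodule.map_comp, ← Submodule.map_comp]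
  congr 1
  refine LinearMap.ext fun z => ?_
  simp only [LinearMap.comp_apply]
  exact (bmap_pull hf F z).symm

/-- `t` is invariant under an injective renaming of the letters -/
theorem t_map {f : L → L'} (hf : Function.Injective f) (F : Finset (List L)) :
    t (F.image (List.map f)) = t F := by
  rw [t, t, ← pull_T hf F, ← LinearMap.range_domRestrict]
  symm
  apply LinearMap.finrank_range_of_inj
  intro x y hxy
  apply Subtype.ext
  funext w
  have hsupp : ∀ z ∈ T (F.image (List.map f)), ∀ w, w ∉ F.image (List.map f) → z w = 0 := by
    rintro _ ⟨z, _, rfl⟩ w hw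
    simp only [bmap, LinearMap.coe_mk, AddHom.coe_mk, if_neg hw]
  by_cases hw : w ∈ F.image (List.map f)
  · rw [Finset.mem_image] at hw
    obtain ⟨v, _, rfl⟩ := hw
    exact congrFun hxy v
  · rw [hsupp _ x.2 w hw, hsupp _ y.2 w hw]

end Vale.Agent.P240.R2.H472
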